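import Vale.Agent.P045.Ext

/-!
# P045: consequences of the genericity conditions (G2), (G3), (G5), (G6)

`Good {0, τ} V H E` gives the three design conditions: columns (D6), weights of the non own
cosets (D7), lines through the origin (D8).
-/

namespace Vale.Agent.P045.FromGood

open Finset Vale.Agent.P045.Ext

variable {K : Type} [Field K]

theorem sub_trans {H : AddSubgroup (K × K)} {x y z : K} (h1 : sg x - sg y ∈ H)
    (h2 : sg x - sg z ∈ H) : sg y - sg z ∈ H := by
  have : sg y - sg z = (sg x - sg z) - (sg x - sg y) := by abel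
  rw [this]; exact H.sub_mem h2 h1

theorem sub_symm {H : AddSubgroup (K × K)} {x y : K} (h1 : sg x - sg y ∈ H) :
    sg y - sg x ∈ H := by
  have : sg y - sg x = -(sg x - sg y) := by abel
  rw [this]; exact H.neg_mem h1

theorem sub_mem_of_two {H : AddSubgroup (K × K)} {P : K × K} {t X Y : K}
    (hX : P + (sg X - sg t) ∈ H) (hY : P + (sg Y - sg t) ∈ H) : sg X - sg Y ∈ H := by
  have : sg X - sg Y = (P + (sg X - sg t)) - (P + (sg Y - sg t)) := by abel
  rw [this]; exact H.sub_mem hX hY

/-- odd characteristic: halving in `H` -/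
theorem half_mem {p : ℕ} [Fact p.Prime] [CharP K p] (hp2 : p ≠ 2) {H : AddSubgroup (K × K)}
    {Q : K × K} (h : Q + Q ∈ H) : Q ∈ H := by
  have hodd : ∃ k : ℕ, p = 2 * k + 1 := by
    rcases (Fact.out : p.Prime).eq_two_or_odd' with h | h
    · exact absurd h hp2
    · obtain ⟨k, hk⟩ := h; exact ⟨k, hk⟩
  obtain ⟨k, hk⟩ := hodd
  have hpz : p • Q = 0 := by
    have : (p : K) = 0 := CharP.cast_eq_zero K p
    ext <;> simp
  have e1 : Q = -(k • (Q + Q)) := by
    have : p • Q = k • (Q + Q) + Q := by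
      rw [hk]; module
    rw [hpz] at this
    rw [eq_neg_iff_add_eq_zero, add_comm]
    exact this.symm
  rw [e1]
  exact H.neg_mem (H.nsmul_mem h k)

variable [Fintype K]

open Classical in
/-- abscissas `X` with `P + sg X - sg t ∈ H` -/
noncomputable def XS (H : AddSubgroup (K × K)) (P : K × K) (t : K) : Finset K :=
  univ.filter (fun X => P + (sg X - sg t) ∈ H)

theorem mem_XS {H : AddSubgroup (K × K)} {P : K × K} {t X : K} :
    X ∈ XS H P t ↔ P + (sg X - sg t) ∈ H := by
  unfold XS; simp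

open Classical in
/-- all points of a translate with a centre `s` -/
theorem card_le_of_centre {T : Finset K} {V : AddSubgroup K} {H : AddSubgroup (K × K)}
    {E : Finset (K × K)} (hG : Good T V H E) {P : K × K} {t s : K} (hs : s ∈ T)
    (hPs : P + (sg s - sg t) ∈ H) :
    (XS H P t).card ≤ 1 + (E.filter (fun e => e.2 = s)).card := by
  have hsub : XS H P t ⊆ insert s ((E.filter (fun e => e.2 = s)).image Prod.fst) := by
    intro X hX
    rw [mem_XS] at hX
    have hXs : sg X - sg s ∈ H := sub_mem_of_two hX hPs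
    rcases hG.g2 s hs X hXs with h | h
    · simp [h]
    · refine mem_insert_of_mem (mem_image.2 ⟨(X, s), ?_, rfl⟩)
      simp [h]
  calc (XS H P t).card ≤ _ := card_le_card hsub
    _ ≤ ((E.filter (fun e => e.2 = s)).image Prod.fst).card + 1 := card_insert_le _ _
    _ ≤ (E.filter (fun e => e.2 = s)).card + 1 := by
        have := card_image_le (s := E.filter (fun e => e.2 = s)) (f := Prod.fst)
        omega
    _ = _ := by ring

open Classical in
/-- three points on the translate: the centre is one of the two others -/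
theorem centre {T : Finset K} {V : AddSubgroup K} {H : AddSubgroup (K × K)}
    {E : Finset (K × K)} (hG : Good T V H E)
    {P : K × K} (hP : P ∉ H) {t : K} (h3 : 3 ≤ (XS H P t).card) :
    ∃ s ∈ T, s ≠ t ∧ P + (sg s - sg t) ∈ H ∧
      (XS H P t).card ≤ 1 + (E.filter (fun e => e.2 = s)).card := by
  obtain ⟨a, b, c, ha, hb, hc, hab, hac, hbc⟩ := (Finset.two_lt_card_iff).1 h3
  rw [mem_XS] at ha hb hc
  obtain ⟨s, hs, hsH⟩ := hG.g3 a b c hab hac hbc (sub_mem_of_two ha hb) (sub_mem_of_two ha hc)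
  have hPs : P + (sg s - sg t) ∈ H := by
    have : P + (sg s - sg t) = (P + (sg a - sg t)) - (sg a - sg s) := by abel
    rw [this]; exact H.sub_mem ha hsH
  refine ⟨s, hs, ?_, hPs, card_le_of_centre hG hs hPs⟩
  rintro rfl
  apply hP
  simpa using hPs

open Classical in
/-- (D7) the weights of the non own cosets -/
theorem conic {p : ℕ} [Fact p.Prime] [CharP K p] (hp2 : p ≠ 2) {τ : K} (hτ : τ ≠ 0)
    {V : AddSubgroup K} {H : AddSubgroup (K × K)} {E : Finset (K × K)}
    (hG : Good {0, τ} V H E) {d : ℕ} (hd : 1 ≤ d)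
    (hE : ∀ t, (t = 0 ∨ t = τ) → (E.filter (fun e => e.2 = t)).card ≤ d)
    {P : K × K} (hP : P ∉ H) :
    (XS H P 0).card + (XS H P τ).card ≤ d + 3 := by
  have h0T : (0 : K) ∈ ({0, τ} : Finset K) := by simp
  have hτT : τ ∈ ({0, τ} : Finset K) := by simp
  have hτH : sg 0 - sg τ ∉ H := by
    intro h
    apply hG.g5 0 h0T τ hτT (Ne.symm hτ) ((0 : K) ^ 2 - τ ^ 2)
    have : ((0 - τ, (0 : K) ^ 2 - τ ^ 2) : K × K) = sg 0 - sg τ := by
      ext <;> simp
    rw [this]; exact h
  by_cases h0 : 3 ≤ (XS H P 0).card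
  · obtain ⟨s, hs, hs0, hsH, hc⟩ := centre hG hP h0
    have hsτ : s = τ := by
      rcases mem_insert.1 hs with h | h
      · exact absurd h hs0
      · exact mem_singleton.1 h
    subst hsτ
    have h1 := hE s (Or.inr rfl)
    by_cases h3 : 3 ≤ (XS H P s).card
    · exfalso
      obtain ⟨s', hs', hs'0, hs'H, -⟩ := centre hG hP h3
      have hs'' : s' = 0 := by
        rcases mem_insert.1 hs' with h | h
        · exact h
        · exact absurd (mem_singleton.1 h) hs'0
      subst hs''
      have hd2 : (sg 0 - sg s) + (sg 0 - sg s) ∈ H := by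
        have : (sg 0 - sg s) + (sg 0 - sg s) =
          (P + (sg 0 - sg s)) - (P + (sg s - sg 0)) := by abel
        rw [this]; exact H.sub_mem hs'H hsH
      exact hτH (half_mem (p := p) hp2 hd2)
    · omega
  · by_cases h3 : 3 ≤ (XS H P τ).card
    · obtain ⟨s, hs, hs0, hsH, hc⟩ := centre hG hP h3
      have h1 := hE s (by simpa using hs)
      omega
    · omega

open Classical in
/-- (D7) in the form of the interface -/
theorem conic' {p : ℕ} [Fact p.Prime] [CharP K p] (hp2 : p ≠ 2) {τ : K} (hτ : τ ≠ 0)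
    {V : AddSubgroup K} {H : AddSubgroup (K × K)} {E : Finset (K × K)}
    (hG : Good {0, τ} V H E) {d : ℕ} (hd : 1 ≤ d)
    (hE : ∀ t, (t = 0 ∨ t = τ) → (E.filter (fun e => e.2 = t)).card ≤ d)
    {P : K × K} (hP : P ∉ H) (M0 Mt : Finset K) :
    (M0.filter (fun e => P + (e, e ^ 2) ∈ H)).card +
      (Mt.filter (fun e => P + (e, e ^ 2 + 2 * τ * e) ∈ H)).card ≤ d + 3 := by
  refine le_trans (add_le_add ?_ ?_) (conic (p := p) hp2 hτ hG hd hE hP)
  · apply card_le_card
    intro e he
    rw [mem_filter] at he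
    rw [mem_XS]
    have : P + (sg e - sg 0) = P + (e, e ^ 2) := by
      congr 1
      ext <;> simp
    rw [this]; exact he.2
  · apply card_le_card_of_injOn (fun e => e + τ)
    · intro e he
      have he' := mem_coe.1 he
      rw [mem_filter] at he'
      have : P + (sg (e + τ) - sg τ) = P + (e, e ^ 2 + 2 * τ * e) := by
        congr 1
        ext
        · simp
        · simp; ring
      apply mem_coe.2
      rw [mem_XS, this]
      exact he'.2
    · intro a _ b _ h
      exact add_right_cancel h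

open Classical in
/-- (D6) columns -/
theorem col {τ : K} (hτ : τ ≠ 0) {V : AddSubgroup K} {H : AddSubgroup (K × K)}
    {E : Finset (K × K)} (hG : Good {0, τ} V H E) (P : K × K) {N : ℕ} (hN : Nat.card V ≤ N) :
    (univ.filter (fun Q : K × K => Q - P ∈ H ∧ (Q.1 = 0 ∨ Q.1 = τ))).card ≤ N := by
  rcases (univ.filter (fun Q : K × K => Q - P ∈ H ∧ (Q.1 = 0 ∨ Q.1 = τ))).eq_empty_or_nonempty
    with he | ⟨Q0, hQ0⟩
  · simp [he]
  · obtain ⟨-, hQ0, hQ0'⟩ := mem_filter.1 hQ0
    have h0T : (0 : K) ∈ ({0, τ} : Finset K) := by simp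
    have hτT : τ ∈ ({0, τ} : Finset K) := by simp
    have key : ∀ Q : K × K, Q - P ∈ H → (Q.1 = 0 ∨ Q.1 = τ) → Q.1 = Q0.1 := by
      intro Q hQ hQ'
      have h1 : Q - Q0 ∈ H := by
        have : Q - Q0 = (Q - P) - (Q0 - P) := by abel
        rw [this]; exact H.sub_mem hQ hQ0
      have h1' : (Q.1 - Q0.1, (Q - Q0).2) ∈ H := h1
      rcases hQ' with h | h <;> rcases hQ0' with h' | h'
      · rw [h, h']
      · exfalso; rw [h, h'] at h1'; exact hG.g5 0 h0T τ hτT (Ne.symm hτ) _ h1'
      · exfalso; rw [h, h'] at h1'; exact hG.g5 τ hτT 0 h0T hτ _ h1'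
      · rw [h, h']
    refine le_trans ?_ hN
    have hV : Nat.card V = (univ.filter (fun v : K => v ∈ V)).card := by
      rw [← Fintype.card_subtype, ← Nat.card_eq_fintype_card]
    rw [hV]
    apply card_le_card_of_injOn (fun Q => Q.2 - Q0.2)
    · intro Q hQ
      obtain ⟨-, hQ, hQ'⟩ := mem_filter.1 (mem_coe.1 hQ)
      apply mem_coe.2
      rw [mem_filter]
      refine ⟨mem_univ _, hG.g6 _ ?_⟩
      have h1 : Q - Q0 ∈ H := by
        have : Q - Q0 = (Q - P) - (Q0 - P) := by abel
        rw [this]; exact H.sub_mem hQ hQ0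
      have h2 := key Q hQ hQ'
      have : ((0, Q.2 - Q0.2) : K × K) = Q - Q0 := by
        ext <;> simp [h2]
      rw [this]; exact h1
    · intro Q hQ Q' hQ' h
      obtain ⟨-, hQ, hQ2⟩ := mem_filter.1 (mem_coe.1 hQ)
      obtain ⟨-, hQ', hQ2'⟩ := mem_filter.1 (mem_coe.1 hQ')
      have h1 := key Q hQ hQ2
      have h2 := key Q' hQ' hQ2'
      exact Prod.ext (h1.trans h2.symm) (sub_left_injective h)

open Classical in
/-- the points of `H` on the line with slope parameter `m` through the origin -/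
noncomputable def LS (H : AddSubgroup (K × K)) (m : K) : Finset K :=
  univ.filter (fun x => x ≠ 0 ∧ ((x, x ^ 2 - 2 * m * x) : K × K) ∈ H)

open Classical in
theorem mem_LS {H : AddSubgroup (K × K)} {m x : K} :
    x ∈ LS H m ↔ x ≠ 0 ∧ sg (x - m) - sg (-m) ∈ H := by
  unfold LS
  rw [mem_filter]
  have : ((x, x ^ 2 - 2 * m * x) : K × K) = sg (x - m) - sg (-m) := by
    ext
    · simp
    · simp; ring
  rw [this]; simp

open Classical in
/-- (D8) for one class -/
theorem d8 {τ : K} {V : AddSubgroup K} {H : AddSubgroup (K × K)}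
    {E : Finset (K × K)} (hG : Good {0, τ} V H E) {d : ℕ}
    (hE : ∀ t, (t = 0 ∨ t = τ) → (E.filter (fun e => e.2 = t)).card ≤ d)
    {m : K} (hm0 : m ≠ 0) (hmτ : m ≠ -τ) :
    (LS H m).card ≤ 1 ∨
      (((-m, 0) ∈ E ∨ (-m, τ) ∈ E) ∧ (LS H m).card ≤ d + 1) := by
  by_cases h1 : (LS H m).card ≤ 1
  · exact Or.inl h1
  right
  push Not at h1
  obtain ⟨x, y, hx, hy, hxy⟩ := (Finset.one_lt_card_iff).1 h1
  rw [mem_LS] at hx hy
  obtain ⟨s, hs, hsH⟩ := hG.g3 (-m) (x - m) (y - m)
    (by intro h; apply hx.1; linear_combination -h)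
    (by intro h; apply hy.1; linear_combination -h)
    (by intro h; apply hxy; linear_combination h) (sub_symm hx.2) (sub_symm hy.2)
  have hms : -m ≠ s := by
    rintro rfl
    rcases mem_insert.1 hs with h | h
    · exact hm0 (by linear_combination -h)
    · exact hmτ (by linear_combination -(mem_singleton.1 h))
  have hE' : (-m, s) ∈ E := (hG.g2 s hs (-m) hsH).resolve_left hms
  have hs' : s = 0 ∨ s = τ := by simpa using hs
  refine ⟨?_, ?_⟩
  · rcases hs' with rfl | rfl
    · exact Or.inl hE'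
    · exact Or.inr hE'
  · have h2 : (LS H m).card ≤ (XS H 0 (-m)).card := by
      apply card_le_card_of_injOn (fun x => x - m)
      · intro z hz
        have hz' := mem_LS.1 (mem_coe.1 hz)
        apply mem_coe.2
        rw [mem_XS, zero_add]
        exact hz'.2
      · intro a _ b _ h
        exact sub_left_injective h
    have h3 := card_le_of_centre hG (P := 0) (t := -m) hs (by
      rw [zero_add]
      exact sub_symm hsH)
    have h4 := hE s hs'
    omega

open Classical in
/-- (D8) for a family of classes with disjoint sets `E` -/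
theorem d8_family {τ : K} {ι : Type} (Y : Finset ι) (V : ι → AddSubgroup K)
    (H : ι → AddSubgroup (K × K)) (E : ι → Finset (K × K))
    (hG : ∀ y ∈ Y, Good {0, τ} (V y) (H y) (E y)) {d : ℕ}
    (hE : ∀ y ∈ Y, ∀ t, (t = 0 ∨ t = τ) → ((E y).filter (fun e => e.2 = t)).card ≤ d)
    (hdisj : ∀ y ∈ Y, ∀ y' ∈ Y, y ≠ y' → Disjoint (E y) (E y'))
    {m : K} (hm0 : m ≠ 0) (hmτ : m ≠ -τ) :
    ∑ y ∈ Y, (LS (H y) m).card ≤ Y.card + 2 * (d + 1) := by
  have h1 : ∀ y ∈ Y, (LS (H y) m).card ≤ 1 + ((if (-m, 0) ∈ E y then d + 1 else 0) +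
      (if (-m, τ) ∈ E y then d + 1 else 0)) := by
    intro y hy
    rcases d8 (hG y hy) (hE y hy) hm0 hmτ with h | ⟨h | h, h'⟩
    · omega
    · rw [if_pos h]; omega
    · rw [if_pos h]; omega
  have h2 : ∀ q : K × K, ∑ y ∈ Y, (if q ∈ E y then d + 1 else 0) ≤ d + 1 := by
    intro q
    rw [← Finset.sum_filter, Finset.sum_const, smul_eq_mul]
    have : (Y.filter (fun y => q ∈ E y)).card ≤ 1 := by
      rw [Finset.card_le_one]
      intro a ha b hb
      obtain ⟨ha1, ha2⟩ := mem_filter.1 ha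
      obtain ⟨hb1, hb2⟩ := mem_filter.1 hb
      by_contra hne
      exact (Finset.disjoint_left.1 (hdisj a ha1 b hb1 hne) ha2) hb2
    calc _ ≤ 1 * (d + 1) := Nat.mul_le_mul_right _ this
      _ = d + 1 := one_mul _
  calc ∑ y ∈ Y, (LS (H y) m).card ≤ ∑ y ∈ Y, (1 + ((if (-m, 0) ∈ E y then d + 1 else 0) +
      (if (-m, τ) ∈ E y then d + 1 else 0))) := sum_le_sum h1
    _ = Y.card + (∑ y ∈ Y, (if (-m, 0) ∈ E y then d + 1 else 0) +
      ∑ y ∈ Y, (if (-m, τ) ∈ E y then d + 1 else 0)) := by
        rw [sum_add_distrib, sum_add_distrib, sum_const, smul_eq_mul, mul_one]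
    _ ≤ Y.card + 2 * (d + 1) := by
        have a1 := h2 (-m, 0)
        have a2 := h2 (-m, τ)
        omega

omit [Fintype K] in
/-- private points of a family with disjoint sets `E` -/
theorem priv {T : Finset K} {V : AddSubgroup K} {H : AddSubgroup (K × K)}
    {E E' : Finset (K × K)} (hG : Good T V H E) (hd : Disjoint E E') {x t : K} (ht : t ∈ T)
    (hxt : x ≠ t) (hx : (x, t) ∈ E') : sg t - sg x ∉ H := by
  intro h
  rcases hG.g2 t ht x (sub_symm h) with h' | h'
  · exact hxt h'
  · exact Finset.disjoint_left.1 hd h' hx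

end Vale.Agent.P045.FromGood
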