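import Vale.Agent.P045.Vert

/-!
P045 [ASSIGN]: the exceptional classes.  `w : Fin M → K` linearly independent reserved vectors,
`X` the exceptional pairs `(u, t)`; every exceptional pair gets its own reserved vector `w k`,
outside a bounded set, the other reserved vectors get `D k = 0`.
-/

namespace Vale.Agent.P045.Vert

open Module

section general

variable {p : ℕ} [Fact p.Prime] {K : Type*} [Field K] [Algebra (ZMod p) K]

/-- the subgroup of an exceptional class -/
def Gk {K : Type*} [Field K] (D : K × K) (v : K) : AddSubgroup (K × K) :=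
  AddSubgroup.zmultiples D ⊔ AddSubgroup.zmultiples ((0, v) : K × K)

/-- integer multiples are `ZMod p` multiples -/
theorem mem_zmultiples_iff_zmod {V : Type*} [AddCommGroup V] [Module (ZMod p) V] {x z : V} :
    z ∈ AddSubgroup.zmultiples x ↔ ∃ a : ZMod p, z = a • x := by
  rw [AddSubgroup.mem_zmultiples_iff]
  constructor
  · rintro ⟨n, rfl⟩
    exact ⟨(n : ZMod p), by rw [← Int.cast_smul_eq_zsmul (ZMod p)]⟩
  · rintro ⟨a, rfl⟩
    refine ⟨(a.val : ℤ), ?_⟩
    rw [← Int.cast_smul_eq_zsmul (ZMod p)]
    simp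

theorem mem_Gk {D : K × K} {v : K} {z : K × K} :
    z ∈ Gk D v ↔ ∃ a b : ZMod p, z = a • D + b • ((0, v) : K × K) := by
  unfold Gk
  rw [AddSubgroup.mem_sup]
  constructor
  · rintro ⟨y, hy, z', hz', rfl⟩
    obtain ⟨a, rfl⟩ := (mem_zmultiples_iff_zmod (p := p)).1 hy
    obtain ⟨b, rfl⟩ := (mem_zmultiples_iff_zmod (p := p)).1 hz'
    exact ⟨a, b, rfl⟩
  · rintro ⟨a, b, rfl⟩
    exact ⟨_, (mem_zmultiples_iff_zmod (p := p)).2 ⟨a, rfl⟩, _,
      (mem_zmultiples_iff_zmod (p := p)).2 ⟨b, rfl⟩, rfl⟩

theorem D_mem_Gk {K : Type*} [Field K] (D : K × K) (v : K) : D ∈ Gk D v :=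
  AddSubgroup.mem_sup_left (AddSubgroup.mem_zmultiples D)

theorem v_mem_Gk {K : Type*} [Field K] (D : K × K) (v : K) : ((0, v) : K × K) ∈ Gk D v :=
  AddSubgroup.mem_sup_right (AddSubgroup.mem_zmultiples _)

variable (p) in
theorem card_Gk_le (D : K × K) (v : K) : Nat.card (Gk D v) ≤ p ^ 2 := by
  have hs : (Gk D v : Set (K × K)) ⊆
      (fun ab : ZMod p × ZMod p => ab.1 • D + ab.2 • ((0, v) : K × K)) '' Set.univ := by
    intro y hy
    obtain ⟨a, b, h⟩ := (mem_Gk (p := p)).1 hy
    exact ⟨(a, b), Set.mem_univ _, h.symm⟩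
  have h1 : (Gk D v : Set (K × K)).ncard ≤ Nat.card (ZMod p × ZMod p) := by
    refine (Set.ncard_le_ncard hs (Set.toFinite _)).trans ?_
    refine (Set.ncard_image_le Set.finite_univ).trans ?_
    rw [Set.ncard_univ]
  have h2 : Nat.card (Gk D v) = (Gk D v : Set (K × K)).ncard := rfl
  rw [h2]
  simpa [Nat.card_prod, Nat.card_zmod, sq] using h1

/-- the vertical part of an exceptional subgroup -/
theorem vert_Gk {D : K × K} {v y : K} (hD : D = 0 ∨ D.1 ≠ 0) (h : ((0, y) : K × K) ∈ Gk D v) :
    ∃ b : ZMod p, y = b • v := by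
  obtain ⟨a, b, h⟩ := (mem_Gk (p := p)).1 h
  have h1 := congrArg Prod.fst h
  have h2 := congrArg Prod.snd h
  simp only [Prod.fst_add, Prod.smul_fst, Prod.snd_add, Prod.smul_snd, smul_zero, add_zero] at h1 h2
  rcases hD with rfl | hD
  · exact ⟨b, by simpa using h2⟩
  · rcases smul_eq_zero.1 h1.symm with h0 | h0
    · rw [h0, zero_smul, zero_add] at h2
      exact ⟨b, h2⟩
    · exact absurd h0 hD

variable (p) in
/-- at most `p` points of a curve `y = f x` in a coset of an exceptional subgroup -/
theorem curve_Gk [Fintype K] [DecidableEq K] {D : K × K} {v : K} (P : K × K) (f : K → K)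
    (S : Finset K) (Q : K → Prop) [DecidablePred Q] (hQ : ∀ e, Q e → P + (e, f e) ∈ Gk D v) :
    (S.filter Q).card ≤ p := by
  classical
  have hs : S.filter Q ⊆ (Finset.univ : Finset (ZMod p)).image (fun a => a • D.1 - P.1) := by
    intro e he
    obtain ⟨-, h⟩ := Finset.mem_filter.1 he
    obtain ⟨a, b, h⟩ := (mem_Gk (p := p)).1 (hQ e h)
    have h1 := congrArg Prod.fst h
    simp only [Prod.fst_add, Prod.smul_fst, smul_zero, add_zero] at h1
    rw [Finset.mem_image]
    exact ⟨a, Finset.mem_univ _, by rw [← h1]; ring⟩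
  refine (Finset.card_le_card hs).trans (Finset.card_image_le.trans ?_)
  simp [ZMod.card]

/-- reserved points in a coset of `F_p w_k` not containing `0` -/
theorem res_line [Fintype K] {M : ℕ} {w : Fin M → K} (hw : LinearIndependent (ZMod p) w)
    (k : Fin M) (y : K) (hy : ∀ b : ZMod p, y ≠ b • w k) :
    {z | z ∈ Res p w ∧ ∃ b : ZMod p, y - z = b • w k}.ncard ≤ 1 := by
  classical
  rw [Set.ncard_le_one (Set.toFinite _)]
  rintro a ⟨⟨i, c, hc, rfl⟩, b, hb⟩ a' ⟨⟨i', c', hc', rfl⟩, b', hb'⟩
  have hLI := Fintype.linearIndependent_iff.1 hw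
  have hs : ∀ (i : Fin M) (c : ZMod p), ∑ k, (Pi.single i c : Fin M → ZMod p) k • w k = c • w i := by
    intro i c
    rw [Finset.sum_eq_single i]
    · simp
    · intro j _ hj
      rw [Pi.single_eq_of_ne hj, zero_smul]
    · simp
  -- i ≠ k, i' ≠ k
  have hik : i ≠ k := by
    rintro rfl
    apply hy (b + c)
    rw [add_smul, ← hb]
    abel
  have hik' : i' ≠ k := by
    rintro rfl
    apply hy (b' + c')
    rw [add_smul, ← hb']
    abel
  have hrel := hLI (Pi.single i c - Pi.single i' c' + Pi.single k (b - b')) (by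
    simp only [Pi.add_apply, Pi.sub_apply, add_smul, sub_smul, Finset.sum_add_distrib,
      Finset.sum_sub_distrib, hs]
    have : c • w i - c' • w i' + (b • w k - b' • w k) = 0 := by
      rw [← hb, ← hb']; abel
    simpa using this)
  have hi := hrel i
  simp only [Pi.add_apply, Pi.sub_apply, Pi.single_eq_same, Pi.single_eq_of_ne hik, add_zero] at hi
  by_cases hii : i = i'
  · subst hii
    simp only [Pi.single_eq_same] at hi
    rw [sub_eq_zero.1 hi]
  · rw [Pi.single_eq_of_ne hii, sub_zero] at hi
    exact absurd hi hc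

end general

section assign

variable {p : ℕ} [Fact p.Prime] {K : Type*} [Field K] [Fintype K] [Algebra (ZMod p) K]

/-- greedy injection avoiding forbidden sets of bounded size -/
theorem exists_inj {α : Type*} [DecidableEq α] {M B : ℕ} (hM : 0 < M) (Fb : α → Finset (Fin M))
    (hB : ∀ x, (Fb x).card ≤ B) (X : Finset α) (hX : X.card + B ≤ M) :
    ∃ f : α → Fin M, (∀ x ∈ X, ∀ y ∈ X, f x = f y → x = y) ∧ ∀ x ∈ X, f x ∉ Fb x := by
  classical
  induction X using Finset.induction_on with
  | empty => exact ⟨fun _ => ⟨0, hM⟩, by simp, by simp⟩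
  | insert x X hx ih =>
    rw [Finset.card_insert_of_notMem hx] at hX
    obtain ⟨f, hf1, hf2⟩ := ih (by omega)
    have hlt : (Fb x ∪ X.image f).card < (Finset.univ : Finset (Fin M)).card := by
      refine (Finset.card_union_le _ _).trans_lt ?_
      have h1 := hB x
      have h2 : (X.image f).card ≤ X.card := Finset.card_image_le
      rw [Finset.card_univ, Fintype.card_fin]
      omega
    obtain ⟨k, -, hk⟩ := Finset.exists_mem_notMem_of_card_lt_card hlt
    rw [Finset.mem_union, not_or] at hk
    refine ⟨Function.update f x k, ?_, ?_⟩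
    · intro y hy z hz hyz
      rcases Finset.mem_insert.1 hy with hy' | hy' <;> rcases Finset.mem_insert.1 hz with hz' | hz'
      · rw [hy', hz']
      · exfalso
        have hzx : z ≠ x := fun h => hx (h ▸ hz')
        rw [hy', Function.update_self, Function.update_of_ne hzx] at hyz
        exact absurd (Finset.mem_image.2 ⟨z, hz', hyz.symm⟩) hk.2
      · exfalso
        have hyx : y ≠ x := fun h => hx (h ▸ hy')
        rw [hz', Function.update_self, Function.update_of_ne hyx] at hyz
        exact absurd (Finset.mem_image.2 ⟨y, hy', hyz⟩) hk.2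
      · have h1 : y ≠ x := fun h => hx (h ▸ hy')
        have h2 : z ≠ x := fun h => hx (h ▸ hz')
        rw [Function.update_of_ne h1, Function.update_of_ne h2] at hyz
        exact hf1 y hy' z hz' hyz
    · intro y hy
      rcases Finset.mem_insert.1 hy with rfl | hy
      · rw [Function.update_self]; exact hk.1
      · have h1 : y ≠ x := fun h => hx (h ▸ hy)
        rw [Function.update_of_ne h1]
        exact hf2 y hy

/-- the difference `σ(u) - σ(t)`, `σ(u) = (u, u^2)` -/
def dsg {K : Type*} [Field K] (x : K × K) : K × K := (x.1 - x.2, x.1 ^ 2 - x.2 ^ 2)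

/-- assignment of reserved vectors to the exceptional pairs `(u, t)` -/
theorem assign (h20 : (2 : K) ≠ 0) (τ : K) (hτ : τ ≠ 0) {M : ℕ} (w : Fin M → K) (hw : LinearIndependent (ZMod p) w)
    (X : Finset (K × K)) (hX : ∀ x ∈ X, x.1 ≠ x.2) (hXt : ∀ x ∈ X, x.2 = 0 ∨ x.2 = τ)
    (hM : X.card + 2 * p ^ 2 ≤ M) :
    ∃ D : Fin M → K × K,
      (∀ k, D k = 0 ∨ (D k).1 ≠ 0) ∧
      (∀ k, D k = 0 ∨ ∃ x ∈ X, D k = dsg x) ∧
      (∀ x ∈ X, ∃ k, D k = dsg x) ∧
      (∀ k, ∀ t : K, (t = 0 ∨ t = τ) → ∀ e : K, e ≠ 0 → ((-e, -e ^ 2 - 2 * t * e) : K × K) ∈ Gk (D k) (w k) →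
        (t + e, t) ∈ X ∨ ∃ a : ZMod p, e = a • τ) := by
  classical
  have hp0 : 0 < p := (Fact.out : p.Prime).pos
  have hM0 : 0 < M := by
    have : 0 < p ^ 2 := pow_pos hp0 2
    omega
  -- forbidden values
  let val : K × K → (ZMod p × ZMod p) × Bool → K := fun x abt =>
    abt.1.2 • (-(-(abt.1.1 • (x.1 - x.2))) ^ 2 - 2 * (if abt.2 then τ else 0) *
      (-(abt.1.1 • (x.1 - x.2))) - abt.1.1 • (x.1 ^ 2 - x.2 ^ 2))
  let Fb : K × K → Finset (Fin M) := fun x => Finset.univ.filter (fun k => ∃ abt, w k = val x abt)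
  have hFb : ∀ x, (Fb x).card ≤ 2 * p ^ 2 := by
    intro x
    have h1 : (Fb x).card ≤ ((Finset.univ : Finset ((ZMod p × ZMod p) × Bool)).image (val x)).card := by
      apply Finset.card_le_card_of_injOn w
      · intro k hk
        obtain ⟨-, abt, h⟩ := Finset.mem_filter.1 hk
        simp only [Finset.coe_image, Finset.coe_univ, Set.image_univ, Set.mem_range]
        exact ⟨abt, h.symm⟩
      · intro k _ k' _ h
        exact hw.injective h
    refine h1.trans (Finset.card_image_le.trans ?_)
    simp [ZMod.card]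
    ring_nf
    exact le_refl _
  obtain ⟨f, hf1, hf2⟩ := exists_inj hM0 Fb hFb X hM
  let D : Fin M → K × K := fun k => if h : ∃ x ∈ X, f x = k then dsg h.choose else 0
  have hD : ∀ x ∈ X, D (f x) = dsg x := by
    intro x hx
    have h : ∃ y ∈ X, f y = f x := ⟨x, hx, rfl⟩
    simp only [D]
    rw [dif_pos h]
    have := h.choose_spec
    rw [hf1 _ this.1 _ hx this.2]
  have hD0 : ∀ k, D k = 0 ∨ ∃ x ∈ X, f x = k ∧ D k = dsg x := by
    intro k
    by_cases h : ∃ x ∈ X, f x = k
    · obtain ⟨x, hx, rfl⟩ := h
      exact Or.inr ⟨x, hx, rfl, hD x hx⟩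
    · left
      simp only [D]
      rw [dif_neg h]
  refine ⟨D, ?_, ?_, ?_, ?_⟩
  · intro k
    rcases hD0 k with h | ⟨x, hx, -, h⟩
    · exact Or.inl h
    · right
      rw [h]
      exact sub_ne_zero.2 (hX x hx)
  · intro k
    rcases hD0 k with h | ⟨x, hx, -, h⟩
    · exact Or.inl h
    · exact Or.inr ⟨x, hx, h⟩
  · intro x hx
    exact ⟨f x, hD x hx⟩
  · intro k t ht e he hmem
    obtain ⟨a, b, h⟩ := (mem_Gk (p := p)).1 hmem
    have h1 := congrArg Prod.fst h
    have h2 := congrArg Prod.snd h
    simp only [Prod.fst_add, Prod.smul_fst, Prod.snd_add, Prod.smul_snd, smul_zero, add_zero]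
      at h1 h2
    rcases hD0 k with h0 | ⟨x, hx, hfx, h0⟩
    · rw [h0] at h1
      simp at h1
      exact absurd h1 he
    · rw [h0] at h1 h2
      simp only [dsg] at h1 h2
      have he' : e = -(a • (x.1 - x.2)) := by rw [← h1]; ring
      by_cases hb : b = 0
      · -- no vertical component
        rw [hb, zero_smul, add_zero] at h2
        have ha : a ≠ 0 := by
          rintro rfl
          rw [zero_smul, neg_zero] at he'
          exact he he'
        -- work with scalars as field elements
        have hs : ∀ (c : ZMod p) (y : K), c • y = (algebraMap (ZMod p) K c) * y :=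
          fun c y => Algebra.smul_def c y
        set A : K := algebraMap (ZMod p) K a with hA
        have hA0 : A ≠ 0 := by
          rw [hA]
          simpa using ha
        rw [hs] at h2 he'
        have hx0 : x.1 - x.2 ≠ 0 := sub_ne_zero.2 (hX x hx)
        have key : (A + 1) * (x.1 - x.2) = 2 * (t - x.2) := by
          have h3 : A * (x.1 - x.2) * ((A + 1) * (x.1 - x.2) - 2 * (t - x.2)) = 0 := by
            rw [he'] at h2
            linear_combination (-1 : K) * h2
          rcases mul_eq_zero.1 h3 with h4 | h4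
          · rcases mul_eq_zero.1 h4 with h5 | h5
            · exact absurd h5 hA0
            · exact absurd h5 hx0
          · exact sub_eq_zero.1 h4
        by_cases htx : t = x.2
        · left
          rw [htx, sub_self, mul_zero] at key
          have hA1 : A + 1 = 0 := (mul_eq_zero.1 key).resolve_right hx0
          have : A = -1 := eq_neg_of_add_eq_zero_left hA1
          have he2 : e = x.1 - x.2 := by rw [he', ← hA, this]; ring
          have : (t + e, t) = x := by
            rw [he2, htx]
            ext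
            · simp
            · rfl
          rw [this]; exact hx
        · right
          -- `x.1 - x.2 = ± 2τ/(A+1)`
          have hA1 : A + 1 ≠ 0 := by
            intro h5
            rw [h5, zero_mul] at key
            have := (mul_eq_zero.1 key.symm).resolve_left h20
            exact htx (sub_eq_zero.1 this)
          have ha1 : a + 1 ≠ 0 := by
            intro h5
            apply hA1
            rw [hA, ← map_one (algebraMap (ZMod p) K), ← map_add, h5, map_zero]
          obtain ⟨s, hs'⟩ : ∃ s : ZMod p, t - x.2 = s • τ := by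
            rcases ht with rfl | rfl <;> rcases hXt x hx with h6 | h6
            · exact absurd h6.symm htx
            · exact ⟨-1, by rw [h6]; simp⟩
            · exact ⟨1, by rw [h6]; simp⟩
            · exact absurd h6.symm htx
          refine ⟨-(a + 1)⁻¹ * a * 2 * s, ?_⟩
          rw [hs] at hs' ⊢
          simp only [map_mul, map_neg, map_inv₀, map_add, map_one, map_ofNat, ← hA]
          have h8 : (A + 1) * e = -A * (2 * (t - x.2)) := by
            rw [← key, he', ← hA]; ring
          rw [hs'] at h8
          field_simp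
          linear_combination h8
      · exfalso
        apply hf2 x hx
        refine Finset.mem_filter.2 ⟨Finset.mem_univ _,
          ((a, b⁻¹), if t = τ then true else false), ?_⟩
        have ht' : (if (if t = τ then true else false) = true then τ else 0) = t := by
          by_cases h6 : t = τ
          · simp [h6]
          · have : t = 0 := ht.resolve_right h6
            have h0τ : ¬ (0 = τ) := fun h => hτ h.symm
            simp [this, h0τ]
        simp only [val]
        rw [ht', ← he', h2, hfx, add_sub_cancel_left, smul_smul, inv_mul_cancel₀ hb, one_smul]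

end assign

end Vale.Agent.P045.Vert
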