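import Vale.Agent.P045.Ext
import Vale.Agent.P045.Assign

/-!
# P045: the raw data of the design (output of the existence part)
-/

namespace Vale.Agent.P045

open Ext

/-- The raw data of the design, `p = 7`. -/
structure Raw (K : Type) [Field K] [Fintype K] [DecidableEq K] [Algebra (ZMod 7) K] where
  tau : K
  htau : tau ≠ 0
  h2 : (2 : K) ≠ 0
  J : Type
  [fJ : Fintype J]
  [dJ : DecidableEq J]
  hJ : Nonempty J
  lab : J → AddSubgroup K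
  E : J → Finset (K × K)
  H : J → AddSubgroup (K × K)
  good : ∀ j, Good {0, tau} (lab j) (H j) (E j)
  Emem : ∀ j, ∀ q ∈ E j, sg q.1 - sg q.2 ∈ H j
  Et : ∀ j, ∀ q ∈ E j, q.2 = 0 ∨ q.2 = tau
  Eexc : ∀ j, ∀ q ∈ E j, ∀ c : ZMod 7, q.1 - q.2 ≠ c • tau
  E0 : ∀ j, ((E j).filter fun q => q.2 = 0).card = 30
  Etau : ∀ j, ((E j).filter fun q => q.2 = tau).card = 30
  Edisj : ∀ j j', j ≠ j' → Disjoint (E j) (E j')
  labH : ∀ j, ∀ v ∈ lab j, ((0 : K), v) ∈ H j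
  labcard : ∀ j, Nat.card (lab j) ≤ 49
  K0 : ℕ
  hK0 : 49 ≤ K0
  Hcard : ∀ j, Nat.card (H j) ≤ K0
  M : ℕ
  w : Fin (M + 2) → K
  wli : LinearIndependent (ZMod 7) w
  labw : ∀ j, ∀ z ∈ Vert.Res 7 w, z ∉ lab j
  labRes : ∀ j, ∀ y : K, {z | z ∈ Vert.Res 7 w ∧ z - y ∈ lab j}.ncard ≤ 2
  cov : ∀ y : K, y ≠ 0 → (∃ j, y ∈ lab j) ∨ y ∈ Vert.Res 7 w
  X : Finset (K × K)
  XE : ∀ j, ∀ q ∈ E j, q ∉ X
  Xcov : ∀ t, (t = 0 ∨ t = tau) → ∀ x, x ≠ t → (∃ j, (x, t) ∈ E j) ∨ (x, t) ∈ X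
  D : Fin M → K × K
  D0 : ∀ k, D k = 0 ∨ (D k).1 ≠ 0
  DX : ∀ x ∈ X, ∃ k, D k = Vert.dsg x
  Dexc : ∀ k, ∀ t, (t = 0 ∨ t = tau) → ∀ e, e ≠ 0 →
    ((-e, -e ^ 2 - 2 * t * e) : K × K) ∈ Vert.Gk (D k) (w k.succ.succ) →
    (t + e, t) ∈ X ∨ ∃ a : ZMod 7, e = a • tau
  size : 2 * (Fintype.card J + 62 + 7 * M) + 6 ≤ Fintype.card K

attribute [instance] Raw.fJ Raw.dJ

/-- change of the decidability instance in `T` -/
theorem good_cast {F : Type} [Field F] {T T' : Finset F} (h : ∀ x, x ∈ T ↔ x ∈ T')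
    {V : AddSubgroup F} {H : AddSubgroup (F × F)} {E : Finset (F × F)} (g : Good T V H E) :
    Good T' V H E := by
  have e : T = T' := Finset.ext h
  rw [← e]; exact g

theorem card_filter_cast {α : Type} {s : Finset α} {p : α → Prop} {i1 i2 : DecidablePred p} :
    (@Finset.filter α p i1 s).card = (@Finset.filter α p i2 s).card := by
  have e : @Finset.filter α p i1 s = @Finset.filter α p i2 s := by
    ext x
    exact ⟨fun h => (@Finset.mem_filter α p i2 s x).2 ((@Finset.mem_filter α p i1 s x).1 h),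
      fun h => (@Finset.mem_filter α p i1 s x).2 ((@Finset.mem_filter α p i2 s x).1 h)⟩
  rw [e]

end Vale.Agent.P045
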