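import Vale.Agent.P045.CovMain
import Vale.Agent.P045.Raw
import Vale.Agent.P045.FromGood

/-!
# P045: from the output of the greedy construction to the interface of the cover analysis
-/

namespace Vale.Agent.P045

open Finset
open Vale.Agent.P045.Ext

variable {K : Type} [Field K] [Fintype K] [DecidableEq K] [Algebra (ZMod 7) K]

instance fact7 : Fact (Nat.Prime 7) := ⟨by norm_num⟩

namespace Raw

variable (R : Raw K)

/-- all the subgroups -/
def HH : R.J ⊕ Fin R.M → AddSubgroup (K × K)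
  | .inl j => R.H j
  | .inr k => Vert.Gk (R.D k) (R.w k.succ.succ)

/-- the column subgroups -/
def W (i : Fin (R.M + 2)) : AddSubgroup K := AddSubgroup.zmultiples (R.w i)

lemma mem_W (i : Fin (R.M + 2)) (v : K) : v ∈ R.W i ↔ ∃ c : ZMod 7, v = c • R.w i :=
  Vert.mem_zmultiples_iff_zmod

lemma w_ne (i : Fin (R.M + 2)) : R.w i ≠ 0 := R.wli.ne_zero i

lemma two_w {i j : Fin (R.M + 2)} (hij : i ≠ j) {a b : ZMod 7}
    (h : a • R.w i = b • R.w j) : a = 0 ∧ b = 0 := by
  have hli := Fintype.linearIndependent_iff.1 R.wli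
    (fun k => (if k = i then a else 0) - (if k = j then b else 0)) (by
      simp only [sub_smul, ite_smul, zero_smul, Finset.sum_sub_distrib, Finset.sum_ite_eq',
        Finset.mem_univ, if_true]
      rw [h, sub_self])
  have h1 := hli i
  have h2 := hli j
  simp only [if_true, if_neg hij, if_neg hij.symm, sub_zero, zero_sub, neg_eq_zero] at h1 h2
  exact ⟨h1, h2⟩

lemma card_W (i : Fin (R.M + 2)) : Nat.card (R.W i) = 7 := by
  unfold W
  rw [Nat.card_zmultiples]
  have : CharP K 7 := charP_of_injective_algebraMap (algebraMap (ZMod 7) K).injective 7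
  apply addOrderOf_eq_prime (p := 7)
  · rw [nsmul_eq_mul]
    have : ((7 : ℕ) : K) = 0 := CharP.cast_eq_zero K 7
    rw [this, zero_mul]
  · exact R.w_ne i

/-- second coordinates of the vertical elements -/
lemma vert_H (j : R.J) (v : K) (h : ((0 : K), v) ∈ R.H j) : v ∈ R.lab j := (R.good j).g6 v h

lemma vert_H3 (k : Fin R.M) (v : K) (h : ((0 : K), v) ∈ R.HH (.inr k)) :
    ∃ b : ZMod 7, v = b • R.w k.succ.succ := Vert.vert_Gk (R.D0 k) h

lemma w_mem_H3 (k : Fin R.M) (c : ZMod 7) :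
    ((0 : K), c • R.w k.succ.succ) ∈ R.HH (.inr k) := by
  change _ ∈ Vert.Gk (R.D k) (R.w k.succ.succ)
  rw [Vert.mem_Gk (p := 7)]
  exact ⟨0, c, by simp⟩

/-- the abscissas of weighted points -/
noncomputable def M0 : Finset K := by
  classical exact univ.filter fun e => ∃ j, (e, (0 : K)) ∈ R.E j

/-- the abscissas of weighted points -/
noncomputable def Mt : Finset K := by
  classical exact univ.filter fun e => ∃ j, (R.tau + e, R.tau) ∈ R.E j

/-- the reserved elements -/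
noncomputable def Re : Finset K := by
  classical exact univ.filter fun v => v ∈ Vert.Res 7 R.w

lemma mem_M0 {e : K} : e ∈ R.M0 ↔ ∃ j, (e, (0 : K)) ∈ R.E j := by simp [M0]
lemma mem_Mt {e : K} : e ∈ R.Mt ↔ ∃ j, (R.tau + e, R.tau) ∈ R.E j := by simp [Mt]
lemma mem_Re {v : K} : v ∈ R.Re ↔ v ∈ Vert.Res 7 R.w := by simp [Re]

/-- the private points -/
noncomputable def T : R.J ⊕ Fin R.M → Finset (K × K)
  | .inl j => (R.E j).image fun q => sg q.2 - sg q.1
  | .inr k => (univ.filter fun c : ZMod 7 => c ≠ 0).image fun c => ((0 : K), c • R.w k.succ.succ)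

lemma mem_T_inl {j : R.J} {Q : K × K} : Q ∈ R.T (.inl j) ↔ ∃ q ∈ R.E j, sg q.2 - sg q.1 = Q := by
  simp only [T, mem_image]

lemma mem_T_inr {k : Fin R.M} {Q : K × K} :
    Q ∈ R.T (.inr k) ↔ ∃ c : ZMod 7, c ≠ 0 ∧ ((0 : K), c • R.w k.succ.succ) = Q := by
  simp [T]

lemma smul_Res (i : Fin (R.M + 2)) {c : ZMod 7} (hc : c ≠ 0) : c • R.w i ∈ Vert.Res 7 R.w :=
  ⟨i, c, hc, rfl⟩

lemma ne_of_E {j : R.J} {q : K × K} (hq : q ∈ R.E j) : q.1 ≠ q.2 := by
  intro h
  apply R.Eexc j q hq 0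
  rw [h, sub_self, zero_smul]

omit [Fintype K] [DecidableEq K] [Algebra (ZMod 7) K] in
lemma sg_zero_sub (e : K) : sg 0 - sg e = (-e, -e ^ 2) := by
  ext <;> simp

lemma sg_tau_sub (e : K) : sg R.tau - sg (R.tau + e) = (-e, -e ^ 2 - 2 * R.tau * e) := by
  ext
  · simp
  · simp; ring

lemma T_H (y : R.J ⊕ Fin R.M) (Q : K × K) (hQ : Q ∈ R.T y) : Q ∈ R.HH y := by
  rcases y with j | k
  · obtain ⟨q, hq, rfl⟩ := R.mem_T_inl.1 hQ
    have := R.Emem j q hq
    have h := (R.H j).neg_mem this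
    rw [neg_sub] at h
    exact h
  · obtain ⟨c, -, rfl⟩ := R.mem_T_inr.1 hQ
    exact R.w_mem_H3 k c

lemma T_notH (y y' : R.J ⊕ Fin R.M) (hy : y' ≠ y) (Q : K × K) (hQ : Q ∈ R.T y) : Q ∉ R.HH y' := by
  rcases y with j | k
  · obtain ⟨q, hq, rfl⟩ := R.mem_T_inl.1 hQ
    rcases y' with j' | k'
    · have hjj : j' ≠ j := fun h => hy (by rw [h])
      exact FromGood.priv (R.good j') (R.Edisj j' j hjj) (by simpa using R.Et j q hq)
        (R.ne_of_E hq) hq
    · intro h
      have h1 : sg q.2 - sg q.1 = (-(q.1 - q.2), -(q.1 - q.2) ^ 2 - 2 * q.2 * (q.1 - q.2)) := by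
        ext
        · simp
        · simp; ring
      rw [h1] at h
      rcases R.Dexc k' q.2 (R.Et j q hq) (q.1 - q.2) (sub_ne_zero.2 (R.ne_of_E hq)) h with h2 | ⟨a, h2⟩
      · apply R.XE j q hq
        rw [add_sub_cancel] at h2
        exact h2
      · exact R.Eexc j q hq a h2
  · obtain ⟨c, hc, rfl⟩ := R.mem_T_inr.1 hQ
    rcases y' with j' | k'
    · intro h
      exact R.labw j' _ (R.smul_Res _ hc) (R.vert_H j' _ h)
    · intro h
      obtain ⟨b, hb⟩ := R.vert_H3 k' _ h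
      have hkk : k.succ.succ ≠ k'.succ.succ := by
        intro h'
        apply hy
        have := Fin.succ_injective _ (Fin.succ_injective _ h')
        rw [this]
      exact hc (R.two_w hkk hb).1

lemma T_form (y : R.J ⊕ Fin R.M) (Q : K × K) (hQ : Q ∈ R.T y) :
    (∃ e ∈ R.M0, Q = (-e, -e ^ 2)) ∨ (∃ e ∈ R.Mt, Q = (-e, -e ^ 2 - 2 * R.tau * e)) ∨
    (∃ v ∈ R.Re, v ∉ R.W 0 ∧ v ∉ R.W 1 ∧ Q = (0, v)) := by
  rcases y with j | k
  · obtain ⟨q, hq, rfl⟩ := R.mem_T_inl.1 hQ
    obtain ⟨u, t⟩ := q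
    rcases R.Et j _ hq with h | h
    · left
      simp only at h
      subst h
      exact ⟨u, R.mem_M0.2 ⟨j, hq⟩, sg_zero_sub u⟩
    · right; left
      simp only at h
      subst h
      refine ⟨u - R.tau, R.mem_Mt.2 ⟨j, by rwa [add_sub_cancel]⟩, ?_⟩
      rw [← R.sg_tau_sub (u - R.tau), add_sub_cancel]
  · obtain ⟨c, hc, rfl⟩ := R.mem_T_inr.1 hQ
    right; right
    refine ⟨c • R.w k.succ.succ, R.mem_Re.2 (R.smul_Res _ hc), ?_, ?_, rfl⟩
    · intro h
      obtain ⟨b, hb⟩ := (R.mem_W _ _).1 h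
      exact hc (R.two_w (Fin.succ_ne_zero _) hb).1
    · intro h
      obtain ⟨b, hb⟩ := (R.mem_W _ _).1 h
      refine hc (R.two_w ?_ hb).1
      intro h'
      have : k.succ.succ = (0 : Fin (R.M + 1)).succ := by rw [h']; rfl
      exact Fin.succ_ne_zero _ (Fin.succ_injective _ this)

lemma smul_w_injective (i : Fin (R.M + 2)) : Function.Injective fun c : ZMod 7 => c • R.w i :=
  smul_left_injective _ (R.w_ne i)

open Classical in
lemma T_card (y : R.J ⊕ Fin R.M) :
    60 ≤ (R.M0.filter (fun e => ((-e, -e ^ 2) : K × K) ∈ R.T y)).card +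
    (R.Mt.filter (fun e => ((-e, -e ^ 2 - 2 * R.tau * e) : K × K) ∈ R.T y)).card +
    10 * (R.Re.filter (fun v => ((0, v) : K × K) ∈ R.T y)).card := by
  rcases y with j | k
  · have h0 : 30 ≤ (R.M0.filter (fun e => ((-e, -e ^ 2) : K × K) ∈ R.T (.inl j))).card := by
      rw [← R.E0 j]
      apply Finset.card_le_card_of_injOn (fun q => q.1)
      · intro q hq
        obtain ⟨hq, hq2⟩ := mem_filter.1 (mem_coe.1 hq)
        apply mem_coe.2
        rw [mem_filter]
        obtain ⟨u, t⟩ := q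
        simp only at hq2
        subst hq2
        exact ⟨R.mem_M0.2 ⟨j, hq⟩, R.mem_T_inl.2 ⟨_, hq, sg_zero_sub u⟩⟩
      · intro q hq q' hq' h
        obtain ⟨hq, hq2⟩ := mem_filter.1 (mem_coe.1 hq)
        obtain ⟨hq', hq2'⟩ := mem_filter.1 (mem_coe.1 hq')
        exact Prod.ext h (hq2.trans hq2'.symm)
    have h1 : 30 ≤ (R.Mt.filter (fun e => ((-e, -e ^ 2 - 2 * R.tau * e) : K × K) ∈
        R.T (.inl j))).card := by
      rw [← R.Etau j]
      apply Finset.card_le_card_of_injOn (fun q => q.1 - R.tau)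
      · intro q hq
        obtain ⟨hq, hq2⟩ := mem_filter.1 (mem_coe.1 hq)
        apply mem_coe.2
        rw [mem_filter]
        obtain ⟨u, t⟩ := q
        simp only at hq2
        subst hq2
        refine ⟨R.mem_Mt.2 ⟨j, by rwa [add_sub_cancel]⟩, R.mem_T_inl.2 ⟨_, hq, ?_⟩⟩
        rw [← R.sg_tau_sub (u - R.tau), add_sub_cancel]
      · intro q hq q' hq' h
        obtain ⟨hq, hq2⟩ := mem_filter.1 (mem_coe.1 hq)
        obtain ⟨hq', hq2'⟩ := mem_filter.1 (mem_coe.1 hq')
        exact Prod.ext (sub_left_injective h) (hq2.trans hq2'.symm)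
    omega
  · have h0 : 6 ≤ (R.Re.filter (fun v => ((0, v) : K × K) ∈ R.T (.inr k))).card := by
      have h6 : (univ.filter fun c : ZMod 7 => c ≠ 0).card = 6 := by decide
      rw [← h6]
      apply Finset.card_le_card_of_injOn (fun c => c • R.w k.succ.succ)
      · intro c hc
        obtain ⟨-, hc⟩ := mem_filter.1 (mem_coe.1 hc)
        apply mem_coe.2
        rw [mem_filter]
        exact ⟨R.mem_Re.2 (R.smul_Res _ hc), R.mem_T_inr.2 ⟨c, hc, rfl⟩⟩
      · exact (R.smul_w_injective _).injOn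
    omega

lemma pair0 (e : K) (he : e ≠ 0) : ∃ y, ((e, e ^ 2) : K × K) ∈ R.HH y := by
  rcases R.Xcov 0 (Or.inl rfl) e he with ⟨j, h⟩ | h
  · refine ⟨.inl j, ?_⟩
    have := R.Emem j _ h
    have e1 : sg e - sg 0 = (e, e ^ 2) := by ext <;> simp
    rw [← e1]; exact this
  · obtain ⟨k, hk⟩ := R.DX _ h
    refine ⟨.inr k, ?_⟩
    have e1 : Vert.dsg (e, (0 : K)) = (e, e ^ 2) := by simp [Vert.dsg]
    rw [← e1, ← hk]
    exact Vert.D_mem_Gk _ _

lemma pairt (e : K) (he : e ≠ 0) : ∃ y, ((e, e ^ 2 + 2 * R.tau * e) : K × K) ∈ R.HH y := by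
  rcases R.Xcov R.tau (Or.inr rfl) (R.tau + e) (by intro h; exact he (by simpa using h)) with
    ⟨j, h⟩ | h
  · refine ⟨.inl j, ?_⟩
    have := R.Emem j _ h
    have e1 : sg (R.tau + e) - sg R.tau = (e, e ^ 2 + 2 * R.tau * e) := by
      ext
      · simp
      · simp; ring
    rw [← e1]; exact this
  · obtain ⟨k, hk⟩ := R.DX _ h
    refine ⟨.inr k, ?_⟩
    have e1 : Vert.dsg (R.tau + e, R.tau) = (e, e ^ 2 + 2 * R.tau * e) := by
      unfold Vert.dsg
      ext
      · simp
      · simp; ring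
    rw [← e1, ← hk]
    exact Vert.D_mem_Gk _ _

lemma pairv (v : K) : v ∈ R.W 0 ∨ v ∈ R.W 1 ∨ ∃ y, ((0, v) : K × K) ∈ R.HH y := by
  by_cases hv : v = 0
  · left; rw [hv]; exact zero_mem _
  rcases R.cov v hv with ⟨j, h⟩ | ⟨i, c, hc, rfl⟩
  · exact Or.inr (Or.inr ⟨.inl j, R.labH j v h⟩)
  · induction i using Fin.cases with
    | zero => exact Or.inl ((R.mem_W _ _).2 ⟨c, rfl⟩)
    | succ i =>
      induction i using Fin.cases with
      | zero => exact Or.inr (Or.inl ((R.mem_W _ _).2 ⟨c, rfl⟩))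
      | succ k => exact Or.inr (Or.inr ⟨.inr k, R.w_mem_H3 k c⟩)

open Classical in
lemma res_W (i : Fin (R.M + 2)) (u : K) (hu : u ∉ R.W i) :
    (R.Re.filter (fun v => u - v ∈ R.W i)).card ≤ 1 := by
  have h := Vert.res_line R.wli i u (fun b hb => hu ((R.mem_W _ _).2 ⟨b, hb⟩))
  refine le_trans (le_of_eq ?_) h
  rw [← Set.ncard_coe_finset]
  congr 1
  ext v
  simp only [coe_filter, Set.mem_ofPred_eq, R.mem_Re, R.mem_W]

open Classical in
lemma resH (y : R.J ⊕ Fin R.M) (P : K × K) (hP : P ∉ R.HH y) :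
    (R.Re.filter (fun v => P - (0, v) ∈ R.HH y)).card ≤ 2 := by
  rcases (R.Re.filter (fun v => P - (0, v) ∈ R.HH y)).eq_empty_or_nonempty with he | ⟨v0, hv0⟩
  · simp [he]
  obtain ⟨-, hv0⟩ := mem_filter.1 hv0
  have hdiff : ∀ v, P - (0, v) ∈ R.HH y → ((0 : K), v0 - v) ∈ R.HH y ∧
      ((0 : K), v - v0) ∈ R.HH y := by
    intro v hv
    constructor
    · have := (R.HH y).sub_mem hv hv0
      have e1 : P - (0, v) - (P - (0, v0)) = ((0 : K), v0 - v) := by
        ext <;> simp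
      rwa [e1] at this
    · have := (R.HH y).sub_mem hv0 hv
      have e1 : P - (0, v0) - (P - (0, v)) = ((0 : K), v - v0) := by
        ext <;> simp
      rwa [e1] at this
  rcases y with j | k
  · refine le_trans ?_ (R.labRes j v0)
    rw [← Set.ncard_coe_finset]
    apply Set.ncard_le_ncard _ (Set.toFinite _)
    intro v hv
    obtain ⟨hv, hv'⟩ := mem_filter.1 (mem_coe.1 hv)
    exact ⟨R.mem_Re.1 hv, R.vert_H j _ (hdiff v hv').2⟩
  · have hy : ∀ b : ZMod 7, v0 ≠ b • R.w k.succ.succ := by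
      intro b hb
      apply hP
      have h1 := R.w_mem_H3 k b
      rw [← hb] at h1
      have := (R.HH (.inr k)).add_mem hv0 h1
      rwa [sub_add_cancel] at this
    have h := Vert.res_line R.wli k.succ.succ v0 hy
    refine le_trans ?_ (h.trans one_le_two)
    rw [← Set.ncard_coe_finset]
    apply Set.ncard_le_ncard _ (Set.toFinite _)
    intro v hv
    obtain ⟨hv, hv'⟩ := mem_filter.1 (mem_coe.1 hv)
    exact ⟨R.mem_Re.1 hv, R.vert_H3 k _ (hdiff v hv').1⟩

lemma cardH (y : R.J ⊕ Fin R.M) : Nat.card (R.HH y) ≤ R.K0 := by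
  rcases y with j | k
  · exact R.Hcard j
  · exact (Vert.card_Gk_le 7 _ _).trans (le_trans (by norm_num) R.hK0)

open Classical in
lemma colH (y : R.J ⊕ Fin R.M) (P : K × K) : (univ.filter (fun Q : K × K => Q - P ∈ R.HH y ∧
    (Q.1 = 0 ∨ Q.1 = R.tau))).card ≤ 49 := by
  rcases y with j | k
  · have h := FromGood.col R.htau (V := R.lab j) (H := R.H j) (E := R.E j)
      (good_cast (by intro x; simp) (R.good j)) P (R.labcard j)
    exact le_trans (le_of_eq card_filter_cast) h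
  · have h49 : Nat.card (R.HH (.inr k)) ≤ 49 :=
      (Vert.card_Gk_le 7 _ _).trans (by norm_num)
    refine le_trans ?_ h49
    have hV : Nat.card (R.HH (.inr k)) = (univ.filter (fun v : K × K => v ∈ R.HH (.inr k))).card := by
      rw [← Fintype.card_subtype, ← Nat.card_eq_fintype_card]
    rw [hV]
    apply card_le_card_of_injOn (fun Q => Q - P)
    · intro Q hQ
      obtain ⟨-, hQ, -⟩ := mem_filter.1 (mem_coe.1 hQ)
      apply mem_coe.2
      rw [mem_filter]
      exact ⟨mem_univ _, hQ⟩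
    · intro a _ b _ h
      exact sub_left_injective h

open Classical in
lemma conic (y : R.J ⊕ Fin R.M) (P : K × K) (hP : P ∉ R.HH y) :
    (R.M0.filter (fun e => P + (e, e ^ 2) ∈ R.HH y)).card +
    (R.Mt.filter (fun e => P + (e, e ^ 2 + 2 * R.tau * e) ∈ R.HH y)).card ≤ 33 := by
  have : CharP K 7 := charP_of_injective_algebraMap (algebraMap (ZMod 7) K).injective 7
  rcases y with j | k
  · exact FromGood.conic' (p := 7) (by norm_num) R.htau (V := R.lab j) (H := R.HH (.inl j))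
      (E := R.E j) (good_cast (by intro x; simp) (R.good j)) (d := 30) (by norm_num)
      (by
        intro t ht
        rcases ht with rfl | rfl
        · exact le_of_eq (card_filter_cast.trans (R.E0 j))
        · exact le_of_eq (card_filter_cast.trans (R.Etau j))) hP R.M0 R.Mt
  · have h1 := Vert.curve_Gk 7 (D := R.D k) (v := R.w k.succ.succ) P (fun e => e ^ 2) R.M0
      (fun e => P + (e, e ^ 2) ∈ R.HH (.inr k)) (fun e h => h)
    have h2 := Vert.curve_Gk 7 (D := R.D k) (v := R.w k.succ.succ) P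
      (fun e => e ^ 2 + 2 * R.tau * e) R.Mt
      (fun e => P + (e, e ^ 2 + 2 * R.tau * e) ∈ R.HH (.inr k)) (fun e h => h)
    omega

open Classical in
lemma d8 (m : K) (hm : m ≠ 0) (hm' : m ≠ -R.tau) : 2 * (univ.filter (fun x : K => x ≠ 0 ∧
    ∃ y, ((x, x ^ 2 - 2 * m * x) : K × K) ∈ R.HH y)).card + 6 ≤ Fintype.card K := by
  have h1 : (univ : Finset R.J).card = Fintype.card R.J := rfl
  have hJ := FromGood.d8_family (univ : Finset R.J) R.lab R.H R.E (fun y _ => good_cast (by intro x; simp) (R.good y)) (d := 30)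
    (by
      intro j _ t ht
      rcases ht with rfl | rfl
      · exact le_of_eq (card_filter_cast.trans (R.E0 j))
      · exact le_of_eq (card_filter_cast.trans (R.Etau j)))
    (fun y _ y' _ h => R.Edisj y y' h) hm hm'
  have hM : ∑ k : Fin R.M, (univ.filter (fun x : K =>
      ((x, x ^ 2 - 2 * m * x) : K × K) ∈ R.HH (.inr k))).card ≤ 7 * R.M := by
    have : ∀ k ∈ (univ : Finset (Fin R.M)), (univ.filter (fun x : K =>
      ((x, x ^ 2 - 2 * m * x) : K × K) ∈ R.HH (.inr k))).card ≤ 7 := by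
      intro k _
      have := Vert.curve_Gk 7 (D := R.D k) (v := R.w k.succ.succ) 0 (fun x => x ^ 2 - 2 * m * x)
        univ (fun x => ((x, x ^ 2 - 2 * m * x) : K × K) ∈ R.HH (.inr k))
        (fun e h => by rw [zero_add]; exact h)
      exact this
    refine (Finset.sum_le_sum this).trans ?_
    rw [Finset.sum_const, smul_eq_mul, Finset.card_univ, Fintype.card_fin, mul_comm]
  have hsub : (univ.filter (fun x : K => x ≠ 0 ∧
      ∃ y, ((x, x ^ 2 - 2 * m * x) : K × K) ∈ R.HH y)) ⊆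
      (univ.biUnion fun j : R.J => FromGood.LS (R.H j) m) ∪
      (univ.biUnion fun k : Fin R.M => univ.filter (fun x : K =>
        ((x, x ^ 2 - 2 * m * x) : K × K) ∈ R.HH (.inr k))) := by
    intro x hx
    obtain ⟨-, hx0, y, hy⟩ := mem_filter.1 hx
    rcases y with j | k
    · apply mem_union_left
      rw [mem_biUnion]
      refine ⟨j, mem_univ _, ?_⟩
      have e1 : ((x, x ^ 2 - 2 * m * x) : K × K) = sg (x - m) - sg (-m) := by
        ext
        · simp
        · simp; ring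
      rw [FromGood.mem_LS, ← e1]
      exact ⟨hx0, hy⟩
    · apply mem_union_right
      rw [mem_biUnion]
      exact ⟨k, mem_univ _, mem_filter.2 ⟨mem_univ _, hy⟩⟩
  have hc := (card_le_card hsub).trans (card_union_le _ _)
  have hc1 : (univ.biUnion fun j : R.J => FromGood.LS (R.H j) m).card ≤
      ∑ j : R.J, (FromGood.LS (R.H j) m).card := card_biUnion_le
  have hc2 : (univ.biUnion fun k : Fin R.M => univ.filter (fun x : K =>
      ((x, x ^ 2 - 2 * m * x) : K × K) ∈ R.HH (.inr k))).card ≤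
      ∑ k : Fin R.M, (univ.filter (fun x : K =>
        ((x, x ^ 2 - 2 * m * x) : K × K) ∈ R.HH (.inr k))).card := card_biUnion_le
  have hs := R.size
  rw [h1] at hJ
  omega

lemma W_H (i : Fin (R.M + 2)) (hi : ∀ k : Fin R.M, i ≠ k.succ.succ) (v : K) (hv : v ∈ R.W i)
    (y : R.J ⊕ Fin R.M) (h : ((0, v) : K × K) ∈ R.HH y) : v = 0 := by
  obtain ⟨c, rfl⟩ := (R.mem_W _ _).1 hv
  by_cases hc : c = 0
  · rw [hc, zero_smul]
  exfalso
  rcases y with j | k
  · exact R.labw j _ (R.smul_Res _ hc) (R.vert_H j _ h)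
  · obtain ⟨b, hb⟩ := R.vert_H3 k _ h
    exact hc (R.two_w (hi k) hb).1

lemma Res_ne_zero {v : K} (h : v ∈ Vert.Res 7 R.w) : v ≠ 0 := by
  obtain ⟨i, c, hc, rfl⟩ := h
  exact smul_ne_zero hc (R.w_ne i)

/-- the interface of the cover analysis -/
noncomputable def toIface : Iface K where
  τ := R.tau
  Y := R.J ⊕ Fin R.M
  H := R.HH
  W1 := R.W 0
  W2 := R.W 1
  M0 := R.M0
  Mt := R.Mt
  Res := R.Re
  T := R.T
  K0 := R.K0
  hτ := R.htau
  h2 := R.h2
  pair0 := R.pair0
  pairt := R.pairt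
  pairv := R.pairv
  M0z := by
    rw [R.mem_M0]
    rintro ⟨j, h⟩
    exact R.ne_of_E h rfl
  Mtz := by
    rw [R.mem_Mt]
    rintro ⟨j, h⟩
    exact R.ne_of_E h (by simp)
  Resz := by
    rw [R.mem_Re]
    intro h
    exact R.Res_ne_zero h rfl
  hK0 := R.hK0
  cardH := R.cardH
  cardW1 := R.card_W 0
  cardW2 := R.card_W 1
  W12 := by
    intro v h1 h2
    obtain ⟨c, rfl⟩ := (R.mem_W _ _).1 h1
    obtain ⟨b, hb⟩ := (R.mem_W _ _).1 h2
    have h01 : (0 : Fin (R.M + 2)) ≠ 1 := by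
      intro h; exact absurd (congrArg Fin.val h) (by simp)
    rw [(R.two_w h01 hb).1, zero_smul]
  W1Res := by
    intro v hv hv0
    obtain ⟨c, rfl⟩ := (R.mem_W _ _).1 hv
    have hc : c ≠ 0 := by rintro rfl; exact hv0 (zero_smul _ _)
    exact R.mem_Re.2 (R.smul_Res _ hc)
  W2Res := by
    intro v hv hv0
    obtain ⟨c, rfl⟩ := (R.mem_W _ _).1 hv
    have hc : c ≠ 0 := by rintro rfl; exact hv0 (zero_smul _ _)
    exact R.mem_Re.2 (R.smul_Res _ hc)
  W1H := fun v hv y h => R.W_H 0 (fun k => (Fin.succ_ne_zero _).symm) v hv y h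
  W2H := fun v hv y h => R.W_H 1 (fun k h' => by
      have : (0 : Fin (R.M + 1)).succ = k.succ.succ := by rw [← h']; rfl
      exact (Fin.succ_ne_zero _).symm (Fin.succ_injective _ this)) v hv y h
  colH := R.colH
  conic := R.conic
  resH := R.resH
  resW1 := fun u hu => (R.res_W 0 u hu).trans one_le_two
  resW2 := fun u hu => (R.res_W 1 u hu).trans one_le_two
  T_H := R.T_H
  T_notH := R.T_notH
  T_form := R.T_form
  T_card := R.T_card
  d8 := R.d8

lemma card_Y : Fintype.card R.toIface.Y = Fintype.card R.J + R.M := by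
  change Fintype.card (R.J ⊕ Fin R.M) = _
  rw [Fintype.card_sum, Fintype.card_fin]

@[simp] lemma toIface_K0 : R.toIface.K0 = R.K0 := rfl

end Raw

end Vale.Agent.P045
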