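import Vale.Agent.P045.Ext

/-!
# P045 [GREEDY]: from the extension step to the whole family of blocks

Given finitely many labels (subgroups of `F`, each of order at most `N0`), the pairs `(u, t)`,
`t ∈ {0, τ}`, `u - t ∉ ℤ τ`, are distributed over blocks: every label is the label of exactly one
block, all other blocks have the label `⊥`, every block contains exactly `d` pairs for each of the
two centres, its group is `Good`, and only boundedly many pairs are left over.
-/

namespace Vale.Agent.P045.Greedy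

open Finset Ext

open Classical

noncomputable section

variable {F : Type} [Field F]

/-- cardinality of a join of two finite additive subgroups -/
lemma card_sup_le {G : Type*} [AddCommGroup G] [Finite G] (H K : AddSubgroup G) :
    Nat.card (H ⊔ K : AddSubgroup G) ≤ Nat.card H * Nat.card K := by
  rw [← Nat.card_prod]
  have hs : Function.Surjective (fun x : H × K =>
      (⟨(x.1 : G) + (x.2 : G), AddSubgroup.add_mem _ (AddSubgroup.mem_sup_left x.1.2)
        (AddSubgroup.mem_sup_right x.2.2)⟩ : (H ⊔ K : AddSubgroup G))) := by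
    rintro ⟨z, hz⟩
    obtain ⟨h, hh, k, hk, rfl⟩ := AddSubgroup.mem_sup.1 hz
    exact ⟨(⟨h, hh⟩, ⟨k, hk⟩), rfl⟩
  exact Nat.card_le_card_of_surjective _ hs

variable [Fintype F]

omit [Fintype F] in
lemma card_zmult (p : ℕ) [Fact p.Prime] [CharP F p] (g : F × F) :
    Nat.card (AddSubgroup.zmultiples g) ≤ p := by
  have hp : 0 < p := (Fact.out : p.Prime).pos
  rw [Nat.card_zmultiples]
  apply Nat.le_of_dvd hp
  apply addOrderOf_dvd_of_nsmul_eq_zero
  apply Prod.ext
  · rw [Prod.smul_fst, nsmul_eq_mul, CharP.cast_eq_zero F p]; simp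
  · rw [Prod.smul_snd, nsmul_eq_mul, CharP.cast_eq_zero F p]; simp

/-- the bound for the number of bad values in all steps -/
def Bd (p d N0 : ℕ) : ℕ := 12 * (2 + 1) ^ 2 * (N0 * p ^ (2 * d) + 1) ^ 2 * p ^ 2

/-- a partial block with `n` pairs -/
structure St (p : ℕ) (T : Finset F) (V : AddSubgroup F) (A : F → Finset F) (N0 n : ℕ)
    (H : AddSubgroup (F × F)) (E : Finset (F × F)) : Prop where
  good : Good T V H E
  mem : ∀ x ∈ E, sg x.1 - sg x.2 ∈ H
  lab : ∀ v ∈ V, ((0 : F), v) ∈ H
  av : ∀ x ∈ E, x.2 ∈ T ∧ x.1 ∈ A x.2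
  cardE : E.card = n
  cardH : Nat.card H ≤ N0 * p ^ n

omit [Fintype F] in
lemma st_start (p : ℕ) (T : Finset F) (V : AddSubgroup F) (A : F → Finset F) (N0 : ℕ)
    (hV : Nat.card V ≤ N0) : St p T V A N0 0 (V.map (AddMonoidHom.inr F F)) ∅ where
  good := good_start T V
  mem := by simp
  lab := fun v hv => ⟨v, hv, rfl⟩
  av := by simp
  cardE := by simp
  cardH := by
    rw [pow_zero, mul_one]
    refine le_trans (le_of_eq ?_) hV
    exact Nat.card_congr (AddSubgroup.equivMapOfInjective V (AddMonoidHom.inr F F)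
      (fun a b h => (Prod.mk.inj h).2)).symm.toEquiv

lemma st_step (p : ℕ) [Fact p.Prime] [CharP F p] (hp2 : p ≠ 2) (d : ℕ) (T : Finset F)
    (hT : T.card ≤ 2) (V : AddSubgroup F) (A : F → Finset F) (N0 n : ℕ) (hn : n ≤ 2 * d)
    (H : AddSubgroup (F × F)) (E : Finset (F × F)) (hS : St p T V A N0 n H E)
    (t₀ : F) (ht₀ : t₀ ∈ T) (hA : Bd p d N0 + n < (A t₀).card) :
    ∃ u, (u, t₀) ∉ E ∧ u ∈ A t₀ ∧
      St p T V A N0 (n + 1) (H ⊔ AddSubgroup.zmultiples (sg u - sg t₀)) (insert (u, t₀) E) := by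
  have hp1 : 1 ≤ p := (Fact.out : p.Prime).pos
  set HF : Finset (F × F) := Finset.univ.filter fun x : F × F => x ∈ H with hHF
  have hHFc : HF.card ≤ N0 * p ^ (2 * d) := by
    have h1 : HF.card = Nat.card H := by
      rw [Nat.card_eq_fintype_card, hHF, Fintype.card_subtype]
    rw [h1]
    exact hS.cardH.trans (Nat.mul_le_mul_left _ (Nat.pow_le_pow_right hp1 hn))
  have hB : (Bad p T HF t₀).card ≤ Bd p d N0 := by
    refine (Bad_card p hp1 T HF t₀).trans ?_
    unfold Bd
    gcongr
  have hE : (E.image Prod.fst).card ≤ n := Finset.card_image_le.trans (le_of_eq hS.cardE)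
  have hex : ((A t₀) \ (Bad p T HF t₀ ∪ E.image Prod.fst)).Nonempty := by
    rw [← Finset.card_pos]
    have h1 := Finset.le_card_sdiff (Bad p T HF t₀ ∪ E.image Prod.fst) (A t₀)
    have h2 := Finset.card_union_le (Bad p T HF t₀) (E.image Prod.fst)
    omega
  obtain ⟨u, hu⟩ := hex
  rw [Finset.mem_sdiff, Finset.mem_union, not_or] at hu
  obtain ⟨huA, huB, huE⟩ := hu
  have hnE : (u, t₀) ∉ E := fun h => huE (Finset.mem_image.2 ⟨_, h, rfl⟩)
  refine ⟨u, hnE, huA, ?_⟩
  refine ⟨ext_step p hp2 T V H E hS.good t₀ ht₀ u huB, ?_, ?_, ?_, ?_, ?_⟩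
  · intro x hx
    rcases Finset.mem_insert.1 hx with rfl | hx
    · exact AddSubgroup.mem_sup_right (AddSubgroup.mem_zmultiples _)
    · exact AddSubgroup.mem_sup_left (hS.mem x hx)
  · intro v hv
    exact AddSubgroup.mem_sup_left (hS.lab v hv)
  · intro x hx
    rcases Finset.mem_insert.1 hx with rfl | hx
    · exact ⟨ht₀, huA⟩
    · exact hS.av x hx
  · rw [Finset.card_insert_of_notMem hnE, hS.cardE]
  · refine (card_sup_le _ _).trans ?_
    calc Nat.card H * Nat.card (AddSubgroup.zmultiples (sg u - sg t₀))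
        ≤ (N0 * p ^ n) * p := Nat.mul_le_mul hS.cardH (card_zmult p _)
      _ = N0 * p ^ (n + 1) := by ring

/-- `k` further pairs with the same centre -/
lemma st_iter (p : ℕ) [Fact p.Prime] [CharP F p] (hp2 : p ≠ 2) (d : ℕ) (T : Finset F)
    (hT : T.card ≤ 2) (V : AddSubgroup F) (A : F → Finset F) (N0 : ℕ)
    (t₀ : F) (ht₀ : t₀ ∈ T) (hA : Bd p d N0 + 2 * d < (A t₀).card) (n : ℕ)
    (H : AddSubgroup (F × F)) (E : Finset (F × F)) (hS : St p T V A N0 n H E) :
    ∀ k : ℕ, n + k ≤ 2 * d → ∃ (H' : AddSubgroup (F × F)) (E' : Finset (F × F)),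
      St p T V A N0 (n + k) H' E' ∧
      (E'.filter (fun x => x.2 = t₀)).card = (E.filter (fun x => x.2 = t₀)).card + k ∧
      ∀ s, s ≠ t₀ → (E'.filter (fun x => x.2 = s)).card = (E.filter (fun x => x.2 = s)).card := by
  intro k
  induction k with
  | zero => exact fun _ => ⟨H, E, hS, rfl, fun _ _ => rfl⟩
  | succ k ih =>
    intro hk
    obtain ⟨H', E', hS', h1, h2⟩ := ih (by omega)
    obtain ⟨u, hnE, -, hS''⟩ := st_step p hp2 d T hT V A N0 (n + k) (by omega) H' E' hS' t₀ ht₀
      (by omega)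
    refine ⟨_, _, hS'', ?_, ?_⟩
    · rw [Finset.filter_insert, if_pos rfl, Finset.card_insert_of_notMem, h1]
      · ring
      · intro h
        exact hnE (Finset.mem_filter.1 h).1
    · intro s hs
      rw [Finset.filter_insert, if_neg (fun h => hs h.symm), h2 s hs]

/-- a block -/
structure Block (p : ℕ) (τ : F) (V : AddSubgroup F) (A : F → Finset F) (N0 d : ℕ)
    (H : AddSubgroup (F × F)) (E : Finset (F × F)) : Prop where
  good : Good {0, τ} V H E
  mem : ∀ x ∈ E, sg x.1 - sg x.2 ∈ H
  lab : ∀ v ∈ V, ((0 : F), v) ∈ H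
  av : ∀ x ∈ E, (x.2 = 0 ∨ x.2 = τ) ∧ x.1 ∈ A x.2
  card0 : (E.filter (fun x => x.2 = 0)).card = d
  cardt : (E.filter (fun x => x.2 = τ)).card = d
  cardE : E.card = 2 * d
  cardH : Nat.card H ≤ N0 * p ^ (2 * d)

lemma exists_block (p : ℕ) [Fact p.Prime] [CharP F p] (hp2 : p ≠ 2) (d : ℕ) (τ : F)
    (hτ : τ ≠ 0) (V : AddSubgroup F) (A : F → Finset F) (N0 : ℕ) (hV : Nat.card V ≤ N0)
    (h0 : Bd p d N0 + 2 * d < (A 0).card) (ht : Bd p d N0 + 2 * d < (A τ).card) :
    ∃ (H : AddSubgroup (F × F)) (E : Finset (F × F)), Block p τ V A N0 d H E := by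
  have hT : ({0, τ} : Finset F).card ≤ 2 := Finset.card_le_two
  obtain ⟨H1, E1, hS1, h11, h12⟩ := st_iter p hp2 d {0, τ} hT V A N0 0 (by simp) h0 0 _ _
    (st_start p {0, τ} V A N0 hV) d (by omega)
  rw [zero_add] at hS1
  obtain ⟨H2, E2, hS2, h21, h22⟩ := st_iter p hp2 d {0, τ} hT V A N0 τ (by simp) ht d _ _
    hS1 d (by omega)
  refine ⟨H2, E2, hS2.good, hS2.mem, hS2.lab, ?_, ?_, ?_, ?_, ?_⟩
  · intro x hx
    have := hS2.av x hx
    simpa using this
  · rw [h22 0 hτ.symm, h11]
    simp
  · rw [h21, h12 τ hτ]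
    simp
  · rw [hS2.cardE]; ring
  · have := hS2.cardH
    rwa [← two_mul] at this

omit [Fintype F] in
lemma Block.mono {p : ℕ} {τ : F} {V : AddSubgroup F} {A A' : F → Finset F} {N0 d : ℕ}
    {H : AddSubgroup (F × F)} {E : Finset (F × F)} (h : Block p τ V A N0 d H E)
    (hA : ∀ t, A t ⊆ A' t) : Block p τ V A' N0 d H E :=
  ⟨h.good, h.mem, h.lab, fun x hx => ⟨(h.av x hx).1, hA _ (h.av x hx).2⟩, h.card0, h.cardt,
    h.cardE, h.cardH⟩

/-- the family of blocks with a given list of labels -/
lemma exists_family (p : ℕ) [Fact p.Prime] [CharP F p] (hp2 : p ≠ 2) (d : ℕ)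
    (τ : F) (hτ : τ ≠ 0) (N0 : ℕ) : ∀ (ls : List (AddSubgroup F)) (A : F → Finset F),
    (∀ V ∈ ls, Nat.card V ≤ N0) →
    ls.length * d + Bd p d N0 + 2 * d < (A 0).card + d →
    ls.length * d + Bd p d N0 + 2 * d < (A τ).card + d →
    ∃ (H : Fin ls.length → AddSubgroup (F × F)) (E : Fin ls.length → Finset (F × F)),
      (∀ j, Block p τ (ls.get j) A N0 d (H j) (E j)) ∧
      (∀ i j, i ≠ j → Disjoint (E i) (E j)) := by
  intro ls
  induction ls with
  | nil =>
    intro A _ _ _
    exact ⟨fun _ => ⊥, fun _ => ∅, fun j => j.elim0, fun i => i.elim0⟩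
  | cons V ls ih =>
    intro A hV h0 ht
    rw [List.length_cons, Nat.add_mul, one_mul] at h0 ht
    obtain ⟨H0, E0, hB⟩ := exists_block p hp2 d τ hτ V A N0 (hV V (by simp)) (by
      have := Nat.zero_le (ls.length * d); omega) (by
      have := Nat.zero_le (ls.length * d); omega)
    -- remove the used pairs
    set A' : F → Finset F := fun t => A t \ (E0.filter (fun x => x.2 = t)).image Prod.fst with hA'
    have hc : ∀ t, (E0.filter (fun x => x.2 = t)).card = d → (A t).card ≤ (A' t).card + d := by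
      intro t htd
      have h1 := Finset.le_card_sdiff ((E0.filter (fun x => x.2 = t)).image Prod.fst) (A t)
      have h2 : ((E0.filter (fun x => x.2 = t)).image Prod.fst).card ≤ d :=
        Finset.card_image_le.trans (le_of_eq htd)
      have h3 : (A' t).card = (A t \ (E0.filter (fun x => x.2 = t)).image Prod.fst).card := rfl
      omega
    have hc0 := hc 0 hB.card0
    have hct := hc τ hB.cardt
    obtain ⟨H, E, hHE, hdis⟩ := ih A' (fun W hW => hV W (by simp [hW])) (by omega) (by omega)
    have hsub : ∀ t, A' t ⊆ A t := fun t => Finset.sdiff_subset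
    have hd0 : ∀ j, Disjoint E0 (E j) := by
      intro j
      rw [Finset.disjoint_left]
      intro x hx0 hxj
      have h1 := ((hHE j).av x hxj).2
      rw [hA', Finset.mem_sdiff] at h1
      exact h1.2 (Finset.mem_image.2 ⟨x, Finset.mem_filter.2 ⟨hx0, rfl⟩, rfl⟩)
    refine ⟨Fin.cons H0 H, Fin.cons E0 E, ?_, ?_⟩
    · intro j
      refine Fin.cases ?_ (fun j => ?_) j
      · simpa using hB
      · simpa using (hHE j).mono hsub
    · intro i j hij
      induction i using Fin.cases with
      | zero =>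
        induction j using Fin.cases with
        | zero => exact absurd rfl hij
        | succ j => simpa using hd0 j
      | succ i =>
        induction j using Fin.cases with
        | zero => simpa using (hd0 i).symm
        | succ j => simpa using hdis i j (fun h => hij (by rw [h]))

/-- number of elements of a coset of the prime field -/
lemma card_coset (p : ℕ) [Fact p.Prime] [CharP F p] (τ t : F) :
    (univ.filter (fun u : F => u - t ∈ AddSubgroup.zmultiples τ)).card ≤ p := by
  have hp : 0 < p := (Fact.out : p.Prime).pos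
  have h1 : Nat.card (AddSubgroup.zmultiples τ) ≤ p := by
    rw [Nat.card_zmultiples]
    apply Nat.le_of_dvd hp
    apply addOrderOf_dvd_of_nsmul_eq_zero
    rw [nsmul_eq_mul, CharP.cast_eq_zero F p, zero_mul]
  have h2 : (univ.filter (fun u : F => u - t ∈ AddSubgroup.zmultiples τ)).card
      ≤ (univ.filter (fun u : F => u ∈ AddSubgroup.zmultiples τ)).card := by
    refine Finset.card_le_card_of_injOn (fun u => u - t) ?_ ?_
    · intro u hu
      simpa using hu
    · intro u _ v _ h
      simpa using h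
  have h3 : (univ.filter (fun u : F => u ∈ AddSubgroup.zmultiples τ)).card
      = Nat.card (AddSubgroup.zmultiples τ) := by
    rw [Nat.card_eq_fintype_card, Fintype.card_subtype]
  omega

/-- The output of the greedy construction. -/
structure Fam (p : ℕ) (τ : F) (d N0 : ℕ) (L : Finset (AddSubgroup F)) where
  n : ℕ
  lab : Fin n → AddSubgroup F
  H : Fin n → AddSubgroup (F × F)
  E : Fin n → Finset (F × F)
  /-- number of blocks -/
  hn : n * d ≤ Fintype.card F
  /-- every label is used -/
  lab_ex : ∀ V ∈ L, ∃ j, lab j = V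
  lab_mem : ∀ j, lab j ∈ L ∨ lab j = ⊥
  /-- nontrivial labels are used once -/
  lab_inj : ∀ i j, lab i = lab j → lab i ≠ ⊥ → i = j
  good : ∀ j, Good {0, τ} (lab j) (H j) (E j)
  memE : ∀ j, ∀ x ∈ E j, sg x.1 - sg x.2 ∈ H j
  memlab : ∀ j, ∀ v ∈ lab j, ((0 : F), v) ∈ H j
  centre : ∀ j, ∀ x ∈ E j, x.2 = 0 ∨ x.2 = τ
  off : ∀ j, ∀ x ∈ E j, x.1 - x.2 ∉ AddSubgroup.zmultiples τ
  card0 : ∀ j, ((E j).filter (fun x => x.2 = 0)).card = d
  cardt : ∀ j, ((E j).filter (fun x => x.2 = τ)).card = d
  cardE : ∀ j, (E j).card = 2 * d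
  cardH : ∀ j, Nat.card (H j) ≤ N0 * p ^ (2 * d)
  disj : ∀ i j, i ≠ j → Disjoint (E i) (E j)
  /-- few pairs are left over -/
  left : (univ.filter (fun x : F × F => (x.2 = 0 ∨ x.2 = τ) ∧ x.1 ≠ x.2 ∧ ∀ j, x ∉ E j)).card
    ≤ 2 * (Bd p d N0 + 2 * d + 1 + p)

lemma left_aux {n d : ℕ} (E : Fin n → Finset (F × F)) (t : F)
    (hc : ∀ j, ((E j).filter (fun x => x.2 = t)).card = d)
    (hdis : ∀ i j, i ≠ j → Disjoint (E i) (E j)) :
    (univ.filter (fun x : F × F => x.2 = t ∧ ∀ j, x ∉ E j)).card + n * d = Fintype.card F := by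
  have h1 : (univ.biUnion (fun j => (E j).filter (fun x => x.2 = t))).card = n * d := by
    rw [Finset.card_biUnion]
    · rw [Finset.sum_congr rfl (fun j _ => hc j), Finset.sum_const, Finset.card_univ,
        Fintype.card_fin, smul_eq_mul]
    · intro i _ j _ hij
      exact Finset.disjoint_of_subset_left (Finset.filter_subset _ _)
        (Finset.disjoint_of_subset_right (Finset.filter_subset _ _) (hdis i j hij))
  have h2 : Disjoint (univ.filter (fun x : F × F => x.2 = t ∧ ∀ j, x ∉ E j))
      (univ.biUnion (fun j => (E j).filter (fun x => x.2 = t))) := by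
    rw [Finset.disjoint_left]
    intro x hx hx'
    obtain ⟨j, -, hj⟩ := Finset.mem_biUnion.1 hx'
    exact (Finset.mem_filter.1 hx).2.2 j (Finset.mem_filter.1 hj).1
  have h3 : (univ.filter (fun x : F × F => x.2 = t ∧ ∀ j, x ∉ E j)) ∪
      (univ.biUnion (fun j => (E j).filter (fun x => x.2 = t)))
      = univ.image (fun u : F => (u, t)) := by
    ext x
    simp only [Finset.mem_union, Finset.mem_filter, Finset.mem_univ, true_and,
      Finset.mem_biUnion, Finset.mem_image]
    constructor
    · rintro (⟨h, -⟩ | ⟨j, -, h⟩)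
      · exact ⟨x.1, by rw [← h]⟩
      · exact ⟨x.1, by rw [← h]⟩
    · rintro ⟨u, rfl⟩
      by_cases h : ∀ j, (u, t) ∉ E j
      · exact Or.inl ⟨rfl, h⟩
      · push Not at h
        obtain ⟨j, hj⟩ := h
        exact Or.inr ⟨j, hj, rfl⟩
  rw [← h1, ← Finset.card_union_of_disjoint h2, h3,
    Finset.card_image_of_injective _ (fun a b h => (Prod.mk.inj h).1), Finset.card_univ]

/-- The greedy construction. -/
theorem greedy (p : ℕ) [Fact p.Prime] [CharP F p] (hp2 : p ≠ 2) (d : ℕ) (hd : 1 ≤ d)
    (τ : F) (hτ : τ ≠ 0) (N0 : ℕ) (hN : 1 ≤ N0) (L : Finset (AddSubgroup F))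
    (hL : ∀ V ∈ L, Nat.card V ≤ N0)
    (hLc : L.card * d + Bd p d N0 + d + 1 + p ≤ Fintype.card F) :
    Nonempty (Fam p τ d N0 L) := by
  set q := Fintype.card F with hq
  set n := (q - p - Bd p d N0 - d - 1) / d with hn
  have hdpos : 0 < d := hd
  have hLn : L.card ≤ n := by
    rw [hn, Nat.le_div_iff_mul_le hdpos]
    omega
  have hn1 : n * d ≤ q - p - Bd p d N0 - d - 1 := Nat.div_mul_le_self _ _
  have hn2 : q - p - Bd p d N0 - d - 1 < n * d + d := by
    have := Nat.lt_div_mul_add (a := q - p - Bd p d N0 - d - 1) hdpos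
    rwa [← hn] at this
  set ls : List (AddSubgroup F) := L.toList ++ List.replicate (n - L.card) ⊥ with hls
  have hlen : ls.length = n := by
    rw [hls, List.length_append, Finset.length_toList, List.length_replicate]
    omega
  set A : F → Finset F := fun t => univ.filter (fun u => u - t ∉ AddSubgroup.zmultiples τ) with hA
  have hAc : ∀ t, q ≤ (A t).card + p := by
    intro t
    have h1 := Finset.card_filter_add_card_filter_not (s := (univ : Finset F))
      (fun u : F => u - t ∈ AddSubgroup.zmultiples τ)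
    have h2 := card_coset p τ t
    rw [Finset.card_univ] at h1
    have h3 : (A t).card = (univ.filter (fun u => ¬ (u - t ∈ AddSubgroup.zmultiples τ))).card := rfl
    omega
  have hV : ∀ V ∈ ls, Nat.card V ≤ N0 := by
    intro V hV
    rw [hls, List.mem_append] at hV
    rcases hV with hV | hV
    · exact hL V (Finset.mem_toList.1 hV)
    · rw [List.eq_of_mem_replicate hV]
      simpa using hN
  obtain ⟨H, E, hB, hdis⟩ := exists_family p hp2 d τ hτ N0 ls A hV
    (by rw [hlen]; have := hAc 0; omega) (by rw [hlen]; have := hAc τ; omega)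
  have hmem : ∀ j : Fin ls.length, ls.get j ∈ L ∨ ls.get j = ⊥ := by
    intro j
    have h1 : ls.get j ∈ L.toList ++ List.replicate (n - L.card) ⊥ := List.get_mem ls j
    rw [List.mem_append] at h1
    rcases h1 with h1 | h1
    · exact Or.inl (Finset.mem_toList.1 h1)
    · exact Or.inr (List.eq_of_mem_replicate h1)
  have hlt : ∀ j : Fin ls.length, ls.get j ≠ ⊥ → j.1 < L.toList.length := by
    intro j hj
    by_contra hcon
    push Not at hcon
    apply hj
    rw [List.get_eq_getElem]
    simp only [hls]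
    rw [List.getElem_append_right hcon, List.getElem_replicate]
  have hinj : ∀ i j : Fin ls.length, ls.get i = ls.get j → ls.get i ≠ ⊥ → i = j := by
    intro i j hij hi
    have h1 := hlt i hi
    have h2 := hlt j (hij ▸ hi)
    have h3 : ls.get i = L.toList[i.1] := by
      rw [List.get_eq_getElem]
      simp only [hls]
      rw [List.getElem_append_left h1]
    have h4 : ls.get j = L.toList[j.1] := by
      rw [List.get_eq_getElem]
      simp only [hls]
      rw [List.getElem_append_left h2]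
    rw [h3, h4] at hij
    have h5 := (List.Nodup.getElem_inj_iff (Finset.nodup_toList L)).1 hij
    exact Fin.ext h5
  have hleft : (univ.filter (fun x : F × F => (x.2 = 0 ∨ x.2 = τ) ∧ x.1 ≠ x.2 ∧
      ∀ j, x ∉ E j)).card ≤ 2 * (Bd p d N0 + 2 * d + 1 + p) := by
    have e0 := left_aux E 0 (fun j => (hB j).card0) hdis
    have e1 := left_aux E τ (fun j => (hB j).cardt) hdis
    have hlen' : ls.length * d = n * d := by rw [hlen]
    have hsub : (univ.filter (fun x : F × F => (x.2 = 0 ∨ x.2 = τ) ∧ x.1 ≠ x.2 ∧ ∀ j, x ∉ E j))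
        ⊆ (univ.filter (fun x : F × F => x.2 = 0 ∧ ∀ j, x ∉ E j)) ∪
          (univ.filter (fun x : F × F => x.2 = τ ∧ ∀ j, x ∉ E j)) := by
      intro x hx
      simp only [Finset.mem_union, Finset.mem_filter, Finset.mem_univ, true_and] at hx ⊢
      tauto
    have h1 := (Finset.card_le_card hsub).trans (Finset.card_union_le _ _)
    omega
  exact ⟨{
    n := ls.length
    lab := ls.get
    H := H
    E := E
    hn := by rw [hlen]; omega
    lab_ex := by
      intro V hV
      have h1 : V ∈ ls := by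
        rw [hls, List.mem_append]
        exact Or.inl (Finset.mem_toList.2 hV)
      obtain ⟨j, hj⟩ := List.mem_iff_get.1 h1
      exact ⟨j, hj⟩
    lab_mem := hmem
    lab_inj := hinj
    good := fun j => (hB j).good
    memE := fun j => (hB j).mem
    memlab := fun j => (hB j).lab
    centre := fun j x hx => ((hB j).av x hx).1
    off := fun j x hx => (Finset.mem_filter.1 ((hB j).av x hx).2).2
    card0 := fun j => (hB j).card0
    cardt := fun j => (hB j).cardt
    cardE := fun j => (hB j).cardE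
    cardH := fun j => (hB j).cardH
    disj := hdis
    left := hleft }⟩

end

end Vale.Agent.P045.Greedy
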