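import Vale.Agent.P045.Raw
import Vale.Agent.P045.Greedy

/-!
# P045 [MKRAW]: the raw data of the design exist for all large `h`
-/

namespace Vale.Agent.P045

open Ext

instance fact7 : Fact (Nat.Prime 7) := ⟨by norm_num⟩

/-- the bound of the greedy construction -/
def BB : ℕ := Greedy.Bd 7 30 49

/-- the number of reserved vectors for the exceptional classes -/
def MM : ℕ := 2 * (BB + 2 * 30 + 1 + 7) + 98

theorem arith1 (l q c B : ℕ) (h5 : l * 42 ≤ q + c) (hq1 : 30 * c + 42 * (B + 38) ≤ 12 * q) :
    l * 30 + B + 30 + 1 + 7 ≤ q := by omega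

theorem arith2 (n q m : ℕ) (hn : n * 30 ≤ q) (hq2 : 870 * m + 500 ≤ q) :
    2 * (n + 62 + 7 * m) + 6 ≤ q := by omega

theorem arith3 (n q m : ℕ) (hn : n * 30 ≤ q) (hq2 : 870 * m + 500 ≤ q) :
    29 * (n + m) ≤ q := by omega

theorem arith4 (x B m : ℕ) (hm : m = 2 * (B + 2 * 30 + 1 + 7) + 98)
    (h : x ≤ 2 * (B + 2 * 30 + 1 + 7)) : x + 2 * 7 ^ 2 ≤ m := by omega

theorem arith5 (x B m q : ℕ) (hm : m = 2 * (B + 2 * 30 + 1 + 7) + 98)
    (h : x ≤ 2 * (B + 2 * 30 + 1 + 7)) (hc : q - 1 ≤ x) (hq : 870 * m + 500 ≤ q) : False := by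
  omega

theorem BB_eq : Greedy.Bd 7 30 49 = BB := rfl

theorem MM_eq : MM = 2 * (BB + 2 * 30 + 1 + 7) + 98 := rfl

/-- the raw data from the vertical part, the greedy family and the assignment -/
theorem exists_raw_of {K : Type} [Field K] [Fintype K] [DecidableEq K] [Algebra (ZMod 7) K]
    {h : ℕ} (hK : Fintype.card K = 7 ^ h) (hM : MM + 2 + 1 ≤ h)
    (hq1 : 30 * (((MM + 2) * 7 + 1) * 49) + 42 * (BB + 38) ≤ 12 * 7 ^ h)
    (hq2 : 870 * MM + 500 ≤ 7 ^ h) :
    ∃ R : Raw K, R.K0 ≤ 49 * 7 ^ 60 ∧ 29 * (Fintype.card R.J + R.M) ≤ 7 ^ h := by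
  have : CharP K 7 := charP_of_injective_algebraMap (algebraMap (ZMod 7) K).injective 7
  have h2 : (2 : K) ≠ 0 := by
    intro h0
    have h0' : ((2 : ℕ) : K) = 0 := by exact_mod_cast h0
    rw [CharP.cast_eq_zero_iff K 7] at h0'
    omega
  obtain ⟨w, L, hw, hL1, hL2, hL3, hL4, hL5⟩ := Vert.vert (p := 7) (M := MM + 2) hK hM
  have hLc : L.card * 30 + Greedy.Bd 7 30 49 + 30 + 1 + 7 ≤ Fintype.card K := by
    rw [hK]
    have h5 : L.card * 42 ≤ 7 ^ h + ((MM + 2) * 7 + 1) * 49 := by
      have := hL5
      norm_num at this ⊢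
      exact this
    rw [BB_eq]
    exact arith1 _ _ _ _ h5 hq1
  obtain ⟨G⟩ := Greedy.greedy (F := K) 7 (by norm_num) 30 (by norm_num) 1 one_ne_zero 49
    (by norm_num) L (fun V hV => by simpa using hL1 V hV) hLc
  classical
  let X : Finset (K × K) := Finset.univ.filter
    (fun x : K × K => (x.2 = 0 ∨ x.2 = 1) ∧ x.1 ≠ x.2 ∧ ∀ j, x ∉ G.E j)
  have hXc : X.card ≤ 2 * (BB + 2 * 30 + 1 + 7) := by
    have := G.left
    rw [BB_eq] at this
    refine (Finset.card_le_card ?_).trans this
    intro x hx
    simpa [X] using hx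
  obtain ⟨D, hD0, hD1, hD2, hD3⟩ := Vert.assign (p := 7) h2 (1 : K) one_ne_zero
    (M := MM) (fun k => w k.succ.succ) (hw.comp _ (by
      intro a b hab
      exact Fin.succ_injective _ (Fin.succ_injective _ hab))) X
    (fun x hx => (Finset.mem_filter.1 hx).2.2.1) (fun x hx => (Finset.mem_filter.1 hx).2.1) (arith4 _ _ _ MM_eq hXc)
  have hn := G.hn
  rw [hK] at hn
  let R : Raw K :=
    { tau := 1
      htau := one_ne_zero
      h2 := h2
      J := Fin G.n
      hJ := by
        by_contra hne
        rw [not_nonempty_iff] at hne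
        have hsub : (Finset.univ.erase (0 : K)).image (fun x => ((x, 0) : K × K)) ⊆ X := by
          intro z hz
          obtain ⟨x, hx, rfl⟩ := Finset.mem_image.1 hz
          refine Finset.mem_filter.2 ⟨Finset.mem_univ _, Or.inl rfl, ?_, fun j => (hne.false j).elim⟩
          exact (Finset.mem_erase.1 hx).1
        have hc := Finset.card_le_card hsub
        rw [Finset.card_image_of_injective _ (fun a b hab => (Prod.mk.inj hab).1),
          Finset.card_erase_of_mem (Finset.mem_univ _), Finset.card_univ, hK] at hc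
        exact arith5 _ _ _ _ MM_eq hXc hc hq2
      lab := G.lab
      E := G.E
      H := G.H
      good := fun j => good_cast (by intro x; simp) (G.good j)
      Emem := G.memE
      Et := G.centre
      Eexc := by
        intro j x hx c hc
        exact G.off j x hx ((Vert.mem_zmultiples_iff_zmod (p := 7)).2 ⟨c, hc⟩)
      E0 := fun j => card_filter_cast.trans (G.card0 j)
      Etau := fun j => card_filter_cast.trans (G.cardt j)
      Edisj := G.disj
      labH := G.memlab
      labcard := by
        intro j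
        rcases G.lab_mem j with hj | hj
        · exact (hL1 _ hj).trans (by norm_num)
        · rw [hj]
          simp
      K0 := 49 * 7 ^ 60
      hK0 := by norm_num
      Hcard := by
        intro j
        have := G.cardH j
        norm_num at this ⊢
        exact this
      M := MM
      w := w
      wli := hw
      labw := by
        intro j z hz
        rcases G.lab_mem j with hj | hj
        · exact hL2 _ hj z hz
        · rw [hj]
          intro h0
          rw [AddSubgroup.mem_bot] at h0
          obtain ⟨i, c, hc, rfl⟩ := hz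
          rcases smul_eq_zero.1 h0 with h1 | h1
          · exact hc h1
          · exact hw.ne_zero i h1
      labRes := by
        intro j y
        rcases G.lab_mem j with hj | hj
        · exact hL3 _ hj y
        · rw [hj]
          refine le_trans (Set.ncard_le_ncard (t := {y}) ?_ (Set.finite_singleton y)) ?_
          · rintro z ⟨-, hz⟩
            rw [AddSubgroup.mem_bot] at hz
            exact sub_eq_zero.1 hz
          · rw [Set.ncard_singleton]; norm_num
      cov := by
        intro y hy
        rcases hL4 y hy with ⟨S, hS, hyS⟩ | hy'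
        · obtain ⟨j, rfl⟩ := G.lab_ex S hS
          exact Or.inl ⟨j, hyS⟩
        · exact Or.inr hy'
      X := X
      XE := by
        intro j x hx hxX
        exact (Finset.mem_filter.1 hxX).2.2.2 j hx
      Xcov := by
        intro t ht x hx
        by_cases hex : ∃ j, (x, t) ∈ G.E j
        · exact Or.inl hex
        · right
          push Not at hex
          exact Finset.mem_filter.2 ⟨Finset.mem_univ _, ht, hx, hex⟩
      D := D
      D0 := hD0
      DX := hD2
      Dexc := hD3
      size := by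
        rw [hK, Fintype.card_fin]
        exact arith2 _ _ _ hn hq2 }
  refine ⟨R, le_refl _, ?_⟩
  change 29 * (Fintype.card (Fin G.n) + MM) ≤ 7 ^ h
  rw [Fintype.card_fin]
  exact arith3 _ _ _ hn hq2

theorem arith6 (a b c d h q : ℕ) (hq : h ≤ q) (hh : a + b + c + d ≤ h) :
    d ≤ h ∧ a + b ≤ 12 * q ∧ c ≤ q := by omega

/-- **the raw data exist for every field of order `7 ^ h`, `h` large** -/
theorem exists_raw : ∃ h0 : ℕ, ∀ h : ℕ, h0 ≤ h →
    ∀ (K : Type) [Field K] [Fintype K] [DecidableEq K] [Algebra (ZMod 7) K],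
    Fintype.card K = 7 ^ h →
    ∃ R : Raw K, R.K0 ≤ 49 * 7 ^ 60 ∧ 29 * (Fintype.card R.J + R.M) ≤ 7 ^ h := by
  refine ⟨30 * (((MM + 2) * 7 + 1) * 49) + 42 * (BB + 38) + (870 * MM + 500) + (MM + 2 + 1), ?_⟩
  intro h hh K _ _ _ _ hK
  have hlt : h ≤ 7 ^ h := (Nat.lt_pow_self (by norm_num)).le
  obtain ⟨h1, h2, h3⟩ := arith6 _ _ _ _ h (7 ^ h) hlt hh
  exact exists_raw_of hK h1 h2 h3

/-- a field of order `7 ^ h` -/
theorem exists_field (h : ℕ) (hh : h ≠ 0) : ∃ (K : Type) (_ : Field K) (_ : Fintype K)
    (_ : DecidableEq K) (_ : Algebra (ZMod 7) K), Fintype.card K = 7 ^ h := by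
  classical
  letI : Fintype (GaloisField 7 h) := Fintype.ofFinite _
  refine ⟨GaloisField 7 h, inferInstance, inferInstance, inferInstance, inferInstance, ?_⟩
  rw [← Nat.card_eq_fintype_card, GaloisField.card 7 h hh]

end Vale.Agent.P045
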