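import Vale.Agent.P045.CovPencil

/-!
# P045: every cover of the design has at least `q + |Y|` blocks, given the near cover theorem
-/

namespace Vale.Agent.P045

open Finset

open Classical in
/-- near cover hypothesis: at most `n` lines missing at most `N` points contain all but `e0`
lines of a pencil -/
def NCHyp (K : Type) [Field K] [Fintype K] (n N e0 : ℕ) : Prop :=
  ∀ L : Finset (NC.Ln K), L.card ≤ n →
    (univ.filter (fun P : K × K => ∀ M ∈ L, ¬ NC.On P M)).card ≤ N →
    ∃ T ⊆ L, Fintype.card K ≤ T.card + e0 ∧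
      ((∀ M ∈ T, ∀ M' ∈ T, NC.Par M M') ∨ ∃ P, ∀ M ∈ T, NC.On P M)

namespace Iface

variable {K : Type} [Field K] [Fintype K] [DecidableEq K]

/-- a point of the line `(m,c)` that is not a centre -/
def pt (D : Iface K) (mc : K × K) : K × K := (mc.1 - D.τ, D.τ ^ 2 + mc.2)

/-- the block of the line `(m,c)` -/
noncomputable def blk (D : Iface K) (mc : K × K) : (K ⊕ D.Y) × (K × K) :=
  (Sum.inl mc.1, D.cls (Sum.inl mc.1) (D.pt mc))

/-- the line `(m,c)` in straightened coordinates -/
def lin (mc : K × K) : NC.Ln K := Sum.inl (-(2 * mc.1), mc.1 ^ 2 + mc.2)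

theorem pt_ne (D : Iface K) (mc : K × K) : (D.pt mc).1 ≠ mc.1 := by
  intro h
  simp only [pt] at h
  exact D.hτ (by linear_combination -h)

theorem pt_ne' (D : Iface K) (mc : K × K) : (D.pt mc).1 ≠ mc.1 + D.τ := by
  intro h
  simp only [pt] at h
  have : 2 * D.τ = 0 := by linear_combination -h
  rcases mul_eq_zero.1 this with h | h
  · exact D.h2 h
  · exact D.hτ h

theorem pt_line (D : Iface K) (mc : K × K) :
    (D.pt mc).2 - ((D.pt mc).1 - mc.1) ^ 2 = mc.2 := by
  simp only [pt]; ring

theorem blk_inj (D : Iface K) : Function.Injective D.blk := by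
  rintro ⟨m, c⟩ ⟨m', c'⟩ h
  simp only [blk, Prod.mk.injEq] at h
  obtain ⟨h1, h2⟩ := h
  have h1' : m = m' := Sum.inl_injective h1
  subst h1'
  rw [cls_eq] at h2
  rcases h2 with ⟨g1, _⟩ | ⟨g1, _⟩ | ⟨_, _, _, _, g5⟩
  · exact absurd g1 (D.pt_ne (m, c))
  · exact absurd g1 (D.pt_ne' (m, c))
  · have e1 := D.pt_line (m, c)
    have e2 := D.pt_line (m, c')
    simp only at e1 e2
    rw [e1, e2] at g5
    rw [g5]

theorem lin_inj (D : Iface K) : Function.Injective (lin (K := K)) := by
  rintro ⟨m, c⟩ ⟨m', c'⟩ h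
  simp only [lin, Sum.inl.injEq, Prod.mk.injEq] at h
  obtain ⟨h1, h2⟩ := h
  have : 2 * (m - m') = 0 := by linear_combination -h1
  rcases mul_eq_zero.1 this with h | h
  · exact absurd h D.h2
  · have hm : m = m' := sub_eq_zero.1 h
    subst hm
    have : c = c' := by linear_combination h2
    rw [this]

/-- a non-centre point `P` of class `m` is in the block of its line -/
theorem blk_eq (D : Iface K) (m : K) (P : K × K) (h1 : P.1 ≠ m) (h2 : P.1 ≠ m + D.τ) (c : K)
    (hc : P.2 = (P.1 - m) ^ 2 + c) :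
    D.blk (m, c) = (Sum.inl m, D.cls (Sum.inl m) P) := by
  simp only [blk, Prod.mk.injEq, true_and]
  rw [cls_eq]
  right; right
  refine ⟨D.pt_ne (m, c), D.pt_ne' (m, c), h1, h2, ?_⟩
  have e1 := D.pt_line (m, c)
  simp only at e1
  rw [e1, hc]; ring

open Classical in
theorem card_coset_H (D : Iface K) (y : D.Y) (P : K × K) (S : Finset (K × K))
    (hS : ∀ Q ∈ S, Q - P ∈ D.H y) : S.card ≤ D.K0 := by
  refine le_trans ?_ (D.cardH y)
  rw [Nat.card_eq_fintype_card, Fintype.card_subtype]
  refine card_le_card_of_injOn (fun Q => Q - P) ?_ ?_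
  · intro Q hQ
    rw [mem_coe, mem_filter]
    exact ⟨mem_univ _, hS Q hQ⟩
  · intro Q _ Q' _ h
    exact sub_left_injective h

omit [DecidableEq K] in
open Classical in
theorem card_coset_W (W : AddSubgroup K) (hW : Nat.card W = 7) (P : K × K) (x0 : K)
    (S : Finset (K × K)) (hS : ∀ Q ∈ S, Q.1 = x0 ∧ Q.2 - P.2 ∈ W) : S.card ≤ 7 := by
  rw [← hW]
  rw [Nat.card_eq_fintype_card, Fintype.card_subtype]
  refine card_le_card_of_injOn (fun Q => Q.2 - P.2) ?_ ?_
  · intro Q hQ
    rw [mem_coe, mem_filter]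
    exact ⟨mem_univ _, (hS Q hQ).2⟩
  · intro Q hQ Q' hQ' h
    refine Prod.ext ?_ ?_
    · rw [(hS Q hQ).1, (hS Q' hQ').1]
    · simpa using h

open Classical in
/-- points of the small blocks -/
theorem card_small (D : Iface K) (b : (K ⊕ D.Y) × (K × K)) (S : Finset (K × K))
    (hS : ∀ Q ∈ S, D.cls b.1 Q = b.2)
    (hS' : ∀ m : K, b.1 = Sum.inl m → ∀ Q ∈ S, Q.1 = m ∨ Q.1 = m + D.τ) : S.card ≤ D.K0 := by
  rcases S.eq_empty_or_nonempty with h | ⟨P, hP⟩
  · rw [h]; simp
  obtain ⟨i, l⟩ := b
  rcases i with m | y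
  · have hrel : ∀ Q ∈ S, D.rel (.inl m) P Q := by
      intro Q hQ
      rw [← cls_eq]
      exact (hS P hP).trans (hS Q hQ).symm
    refine le_trans ?_ (le_trans (by norm_num : 7 ≤ 49) D.hK0)
    rcases hS' m rfl P hP with h1 | h1
    · refine card_coset_W D.W1 D.cardW1 P m S ?_
      intro Q hQ
      rcases hrel Q hQ with ⟨_, g2, g3⟩ | ⟨g1, _, _⟩ | ⟨g1, _⟩
      · exact ⟨g2, g3⟩
      · exact absurd (by rw [h1] at g1; simpa using g1.symm) D.hτ
      · exact absurd h1 g1
    · refine card_coset_W D.W2 D.cardW2 P (m + D.τ) S ?_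
      intro Q hQ
      rcases hrel Q hQ with ⟨g1, _, _⟩ | ⟨_, g2, g3⟩ | ⟨_, g1, _⟩
      · exact absurd (by rw [h1] at g1; simpa using g1) D.hτ
      · exact ⟨g2, g3⟩
      · exact absurd h1 g1
  · refine D.card_coset_H y P S ?_
    intro Q hQ
    have : D.rel (.inr y) P Q := by
      rw [← cls_eq]
      exact (hS P hP).trans (hS Q hQ).symm
    exact this

open Classical in
/-- **Parallel case.** -/
theorem parallel_case (D : Iface K) (C : Finset ((K ⊕ D.Y) × (K × K)))
    (hC : Cov.IsCover D.cls C) (m0 : K) (e0 : ℕ)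
    (hc : Fintype.card K ≤ (univ.filter (fun c : K => D.blk (m0, c) ∈ C)).card + e0)
    (h1 : 49 * (Fintype.card D.Y + e0) < 2 * Fintype.card K) :
    Fintype.card K + Fintype.card D.Y ≤ C.card := by
  set G := (univ.filter (fun c : K => D.blk (m0, c) ∈ C)).image (fun c => D.blk (m0, c)) with hG
  have hGcard : G.card = (univ.filter (fun c : K => D.blk (m0, c) ∈ C)).card := by
    rw [hG]
    refine card_image_of_injective _ ?_
    intro c c' h
    have := D.blk_inj h
    simpa using this
  have hGC : G ⊆ C := by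
    intro b hb
    rw [hG, mem_image] at hb
    obtain ⟨c, hc, rfl⟩ := hb
    rw [mem_filter] at hc
    exact hc.2
  set Y := univ.filter (fun P : K × K => P.1 = m0 ∨ P.1 = m0 + D.τ) with hY
  have hYcard : Y.card = 2 * Fintype.card K := by
    have h3 : Y = ({m0, m0 + D.τ} : Finset K) ×ˢ (univ : Finset K) := by
      ext P
      rw [hY, mem_filter, mem_product, mem_insert, mem_singleton]
      simp
    rw [h3, card_product, card_univ, card_pair]
    intro h
    exact D.hτ (by simpa using h.symm)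
  have hP := Cov.covP D.cls C hC G hGC Y 49 ?_ ?_
  · rw [hYcard, hGcard] at hP
    omega
  · intro b hb x hx hbx
    rw [hG, mem_image] at hb
    obtain ⟨c, hc, rfl⟩ := hb
    simp only [blk] at hbx
    rw [cls_eq] at hbx
    rw [hY, mem_filter] at hx
    rcases hbx with ⟨_, g1, _⟩ | ⟨_, g1, _⟩ | ⟨g1, g2, _⟩
    · exact D.pt_ne (m0, c) g1
    · exact D.pt_ne' (m0, c) g1
    · rcases hx.2 with h | h
      · exact g1 h
      · exact g2 h
  · intro b hb hbG
    obtain ⟨i, l⟩ := b
    rcases (Y.filter (fun x => D.cls i x = l)).eq_empty_or_nonempty with h | ⟨P, hP⟩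
    · rw [h]; simp
    have hP2 := (mem_filter.1 hP).2
    have hP1 := (mem_filter.1 (mem_filter.1 hP).1).2
    rcases i with m | y
    · have hrel : ∀ Q ∈ Y.filter (fun x => D.cls (.inl m) x = l), D.rel (.inl m) P Q := by
        intro Q hQ
        rw [← cls_eq]
        exact hP2.trans (mem_filter.1 hQ).2.symm
      by_cases g1 : P.1 = m
      · refine le_trans (card_coset_W D.W1 D.cardW1 P m _ ?_) (by norm_num)
        intro Q hQ
        rcases hrel Q hQ with ⟨_, g2, g3⟩ | ⟨g2, _, _⟩ | ⟨g2, _⟩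
        · exact ⟨g2, g3⟩
        · exact absurd (by rw [g1] at g2; simpa using g2.symm) D.hτ
        · exact absurd g1 g2
      by_cases g2 : P.1 = m + D.τ
      · refine le_trans (card_coset_W D.W2 D.cardW2 P (m + D.τ) _ ?_) (by norm_num)
        intro Q hQ
        rcases hrel Q hQ with ⟨g3, _, _⟩ | ⟨_, g3, g4⟩ | ⟨_, g3, _⟩
        · exact absurd g3 g1
        · exact ⟨g3, g4⟩
        · exact absurd g2 g3
      · refine le_trans ?_ (by norm_num : 2 ≤ 49)
        have h3 : (Y.filter (fun x => D.cls (Sum.inl m) x = l)).card ≤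
            ({m0, m0 + D.τ} : Finset K).card := by
          refine card_le_card_of_injOn (fun Q => Q.1) ?_ ?_
          · intro Q hQ
            rw [mem_coe, mem_filter, hY, mem_filter] at hQ
            rw [mem_coe, mem_insert, mem_singleton]
            exact hQ.1.2
          · intro Q hQ Q' hQ' h
            have e1 := hrel Q hQ
            have e2 := hrel Q' hQ'
            rcases e1 with ⟨g3, _, _⟩ | ⟨g3, _, _⟩ | ⟨_, _, _, _, g3⟩
            · exact absurd g3 g1
            · exact absurd g3 g2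
            rcases e2 with ⟨g4, _, _⟩ | ⟨g4, _, _⟩ | ⟨_, _, _, _, g4⟩
            · exact absurd g4 g1
            · exact absurd g4 g2
            simp only at h
            refine Prod.ext h ?_
            rw [h] at g3
            linear_combination g4 - g3
        refine h3.trans card_le_two
    · have h3 := D.colH y (P - (m0, 0))
      refine le_trans ?_ h3
      refine card_le_card_of_injOn (fun Q => Q - (m0, 0)) ?_ ?_
      · intro Q hQ
        rw [mem_coe, mem_filter] at hQ
        rw [mem_coe, mem_filter]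
        refine ⟨mem_univ _, ?_, ?_⟩
        · have : D.rel (.inr y) P Q := by
            rw [← cls_eq]; exact hP2.trans hQ.2.symm
          have h4 : Q - (m0, 0) - (P - (m0, 0)) = Q - P := by abel
          rw [h4]; exact this
        · have h5 := (mem_filter.1 hQ.1).2
          simp only [Prod.fst_sub]
          rcases h5 with h | h
          · left; rw [h]; ring
          · right; rw [h]; ring
      · intro Q _ Q' _ h
        exact sub_left_injective h

omit [Fintype K] [DecidableEq K] in
theorem on_lin (m c x z : K) : NC.On (x, z - x ^ 2) (lin (m, c)) ↔ z = (x - m) ^ 2 + c := by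
  simp only [lin, NC.On]
  constructor
  · intro h; linear_combination h
  · intro h; linear_combination h

omit [Fintype K] [DecidableEq K] in
theorem on_lin' (m c : K) (P : K × K) :
    NC.On P (lin (m, c)) ↔ P.2 + P.1 ^ 2 = (P.1 - m) ^ 2 + c := by
  simp only [lin, NC.On]
  constructor
  · intro h; linear_combination h
  · intro h; linear_combination h

open Classical in
/-- the lines used by a family of blocks, as pairs `(m,c)` -/
noncomputable def lines (D : Iface K) (C : Finset ((K ⊕ D.Y) × (K × K))) : Finset (NC.Ln K) :=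
  (univ.filter (fun mc => D.blk mc ∈ C)).map ⟨lin, D.lin_inj⟩

theorem mem_lines (D : Iface K) (C : Finset ((K ⊕ D.Y) × (K × K))) (M : NC.Ln K) :
    M ∈ D.lines C ↔ ∃ mc : K × K, D.blk mc ∈ C ∧ lin mc = M := by
  classical
  unfold lines
  rw [mem_map]
  constructor
  · rintro ⟨mc, h1, h2⟩
    rw [mem_filter] at h1
    exact ⟨mc, h1.2, h2⟩
  · rintro ⟨mc, h1, h2⟩
    exact ⟨mc, by rw [mem_filter]; exact ⟨mem_univ _, h1⟩, h2⟩

theorem lines_card (D : Iface K) (C : Finset ((K ⊕ D.Y) × (K × K))) :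
    (D.lines C).card ≤ C.card := by
  classical
  unfold lines
  rw [card_map]
  refine card_le_card_of_injOn D.blk ?_ (D.blk_inj.injOn)
  intro mc hmc
  rw [mem_coe, mem_filter] at hmc
  exact hmc.2

/-- straightening -/
def str (P : K × K) : K × K := (P.1, P.2 + P.1 ^ 2)

omit [Fintype K] [DecidableEq K] in
theorem str_inj : Function.Injective (str (K := K)) := by
  intro a b h
  simp only [str, Prod.mk.injEq] at h
  refine Prod.ext h.1 ?_
  have := h.2
  rw [h.1] at this
  linear_combination this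

open Classical in
theorem uncovered_col (D : Iface K) (C : Finset ((K ⊕ D.Y) × (K × K))) (P : K × K)
    (hP : ∀ M ∈ D.lines C, ¬ NC.On P M) (m : K)
    (hm : ((Sum.inl m : K ⊕ D.Y), D.cls (Sum.inl m) (str P)) ∈ C) :
    (str P).1 = m ∨ (str P).1 = m + D.τ := by
  by_contra hcon
  push Not at hcon
  have hb := D.blk_eq m (str P) hcon.1 hcon.2 ((str P).2 - ((str P).1 - m) ^ 2) (by ring)
  rw [← hb] at hm
  refine hP (lin (m, (str P).2 - ((str P).1 - m) ^ 2)) ?_ ?_
  · rw [mem_lines]
    exact ⟨_, hm, rfl⟩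
  · rw [on_lin']
    simp only [str]
    ring

open Classical in
theorem uncovered_card (D : Iface K) (C : Finset ((K ⊕ D.Y) × (K × K)))
    (hC : Cov.IsCover D.cls C) :
    (univ.filter (fun P : K × K => ∀ M ∈ D.lines C, ¬ NC.On P M)).card ≤ C.card * D.K0 := by
  set Z := univ.filter (fun P : K × K => ∀ M ∈ D.lines C, ¬ NC.On P M) with hZdef
  rw [← card_image_of_injective Z str_inj]
  have hsub : Z.image str ⊆
      C.biUnion (fun b => (Z.image str).filter (fun P => D.cls b.1 P = b.2)) := by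
    intro P hP
    obtain ⟨i, hi⟩ := hC P
    rw [mem_biUnion]
    exact ⟨_, hi, by rw [mem_filter]; exact ⟨hP, rfl⟩⟩
  refine (card_le_card hsub).trans (card_biUnion_le_card_mul _ _ _ ?_)
  intro b hb
  refine D.card_small b _ ?_ ?_
  · intro Q hQ; exact (mem_filter.1 hQ).2
  · intro m hm Q hQ
    rw [mem_filter, mem_image] at hQ
    obtain ⟨⟨P, hP, rfl⟩, hQ2⟩ := hQ
    rw [hZdef, mem_filter] at hP
    refine D.uncovered_col C P hP.2 m ?_
    have : ((Sum.inl m : K ⊕ D.Y), D.cls (Sum.inl m) (str P)) = b := by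
      rw [← hm, hQ2]
    rw [this]; exact hb

open Classical in
theorem concurrent_case (D : Iface K) (C : Finset ((K ⊕ D.Y) × (K × K)))
    (hC : Cov.IsCover D.cls C) (T : Finset (NC.Ln K)) (hT : T ⊆ D.lines C) (P : K × K)
    (hP : ∀ M ∈ T, NC.On P M) (e0 : ℕ) (hTcard : Fintype.card K ≤ T.card + e0)
    (h2 : 18 * D.K0 * e0 < Fintype.card K) :
    Fintype.card K + Fintype.card D.Y ≤ C.card := by
  set R : K × K := str P with hR
  have hRon : ∀ m c, lin (m, c) ∈ T → R.2 = (R.1 - m) ^ 2 + c := by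
    intro m c hmc
    have h3 := hP _ hmc
    rw [on_lin'] at h3
    exact h3
  refine D.pencil_case C hC R e0 ?_ h2
  set B := univ.filter (fun m : K => (m ≠ R.1 ∧ m ≠ R.1 - D.τ) ∧
    ((Sum.inl m : K ⊕ D.Y), D.cls (.inl m) R) ∉ C) with hB
  set A := univ.filter (fun m : K => ∃ c, lin (m, c) ∈ T) with hA
  have hAB : Disjoint A B := by
    rw [Finset.disjoint_left]
    intro m hmA hmB
    rw [hA, mem_filter] at hmA
    rw [hB, mem_filter] at hmB
    obtain ⟨-, c, hc⟩ := hmA
    obtain ⟨-, ⟨g1, g2⟩, g3⟩ := hmB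
    apply g3
    have h5 := hRon m c hc
    obtain ⟨mc', hb, hlin⟩ := (D.mem_lines C _).1 (hT hc)
    have h6 : mc' = (m, c) := D.lin_inj hlin
    rw [h6] at hb
    have h7 := D.blk_eq m R (Ne.symm g1) (by intro h; apply g2; rw [h]; ring) c h5
    rw [h7] at hb
    exact hb
  have hAcard : T.card ≤ A.card := by
    refine card_le_card_of_surjOn (fun m => lin (m, R.2 - (R.1 - m) ^ 2)) ?_
    intro M hM
    obtain ⟨⟨m, c⟩, hb, rfl⟩ := (D.mem_lines C _).1 (hT hM)
    have h5 := hRon m c hM
    have h6 : R.2 - (R.1 - m) ^ 2 = c := by rw [h5]; ring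
    refine ⟨m, ?_, ?_⟩
    · rw [mem_coe, hA, mem_filter]
      exact ⟨mem_univ _, c, hM⟩
    · simp only [h6]
  have h5 : A.card + B.card ≤ Fintype.card K := by
    rw [← card_union_of_disjoint hAB, ← card_univ]
    exact card_le_card (subset_univ _)
  omega

open Classical in
theorem parallel_case' (D : Iface K) (C : Finset ((K ⊕ D.Y) × (K × K)))
    (hC : Cov.IsCover D.cls C) (T : Finset (NC.Ln K)) (hT : T ⊆ D.lines C)
    (hpar : ∀ M ∈ T, ∀ M' ∈ T, NC.Par M M') (e0 : ℕ) (hTcard : Fintype.card K ≤ T.card + e0)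
    (hne : T.Nonempty)
    (h1 : 49 * (Fintype.card D.Y + e0) < 2 * Fintype.card K) :
    Fintype.card K + Fintype.card D.Y ≤ C.card := by
  obtain ⟨M0, hM0⟩ := hne
  obtain ⟨⟨m0, c0⟩, hb0, rfl⟩ := (D.mem_lines C _).1 (hT hM0)
  have h3 : T.card ≤ (univ.filter (fun c : K => D.blk (m0, c) ∈ C)).card := by
    refine card_le_card_of_surjOn (fun c => lin (m0, c)) ?_
    intro M hM
    obtain ⟨⟨m, c⟩, hb, rfl⟩ := (D.mem_lines C _).1 (hT hM)
    have h4 := hpar _ hM0 _ hM
    simp only [lin, NC.Par] at h4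
    have h5 : 2 * (m0 - m) = 0 := by linear_combination -h4
    have h6 : m0 = m := by
      rcases mul_eq_zero.1 h5 with h | h
      · exact absurd h D.h2
      · exact sub_eq_zero.1 h
    subst h6
    refine ⟨c, ?_, rfl⟩
    rw [mem_coe, mem_filter]
    exact ⟨mem_univ _, hb⟩
  exact D.parallel_case C hC m0 e0 (by omega) h1

/-- **Main theorem of the cover analysis.** -/
theorem cover_lower (D : Iface K) (e0 N : ℕ)
    (hNC : NCHyp K (Fintype.card K + Fintype.card D.Y) N e0)
    (hN : D.K0 * (Fintype.card K + Fintype.card D.Y) ≤ N)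
    (h1 : 49 * (Fintype.card D.Y + e0) < 2 * Fintype.card K)
    (h2 : 18 * D.K0 * e0 < Fintype.card K)
    (C : Finset ((K ⊕ D.Y) × (K × K))) (hC : Cov.IsCover D.cls C) :
    Fintype.card K + Fintype.card D.Y ≤ C.card := by
  classical
  by_contra hlt
  push Not at hlt
  have hZ := D.uncovered_card C hC
  have hZ2 : C.card * D.K0 ≤ N := by
    calc C.card * D.K0 ≤ (Fintype.card K + Fintype.card D.Y) * D.K0 :=
          Nat.mul_le_mul_right _ hlt.le
      _ = D.K0 * (Fintype.card K + Fintype.card D.Y) := mul_comm _ _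
      _ ≤ N := hN
  obtain ⟨T, hTL, hTcard, hT⟩ := hNC (D.lines C) ((D.lines_card C).trans hlt.le) (by
    refine le_trans (le_of_eq ?_) (hZ.trans hZ2)
    congr)
  have hK : 0 < Fintype.card K := Fintype.card_pos
  rcases hT with hpar | ⟨P, hP⟩
  · have hTne : T.Nonempty := by
      rw [← card_pos]
      have h49 : 49 ≤ D.K0 := D.hK0
      have : e0 ≤ 18 * D.K0 * e0 := by nlinarith
      omega
    have := D.parallel_case' C hC T hTL hpar e0 hTcard hTne h1
    omega
  · have := D.concurrent_case C hC T hTL P hP e0 hTcard h2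
    omega

end Iface

end Vale.Agent.P045
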