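import Mathlib

/-!
P045, [GEXIST]: a nonzero bivariate polynomial of total degree at most `d` vanishing on a set with
fewer than `(d + 1) (d + 2) / 2` points.
-/

open Finset Polynomial

namespace Vale.Agent.P045

variable {K : Type*} [Field K]

/-- The exponents `(i, j)` with `i + j ≤ d`. -/
def expo (d : ℕ) : Finset (ℕ × ℕ) :=
  ((range (d + 1)) ×ˢ (range (d + 1))).filter fun ij => ij.1 + ij.2 ≤ d

theorem mem_expo {d : ℕ} {ij : ℕ × ℕ} : ij ∈ expo d ↔ ij.1 + ij.2 ≤ d := by
  simp only [expo, mem_filter, mem_product, mem_range]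
  omega

theorem card_expo (d : ℕ) : 2 * (expo d).card = (d + 1) * (d + 2) := by
  have h1 := Finset.card_eq_sum_card_fiberwise (s := expo d) (t := range (d + 1))
    (f := fun ij : ℕ × ℕ => ij.1 + ij.2) (fun ij hij => by
      rw [Finset.mem_coe, mem_expo] at hij
      simp only [Finset.coe_range, Set.mem_Iio]
      omega)
  have h3 : ∀ n ∈ range (d + 1), ((expo d).filter fun ij => ij.1 + ij.2 = n).card = n + 1 := by
    intro n hn
    rw [mem_range] at hn
    have : (expo d).filter (fun ij => ij.1 + ij.2 = n) = HasAntidiagonal.antidiagonal n := by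
      ext ⟨i, j⟩
      rw [mem_filter, mem_expo, HasAntidiagonal.mem_antidiagonal]
      simp only
      omega
    rw [this, Finset.Nat.card_antidiagonal]
  rw [h1, Finset.sum_congr rfl h3]
  have h2 := Finset.sum_range_id_mul_two (d + 2)
  rw [Finset.sum_range_succ'] at h2
  simp only [add_zero] at h2
  rw [mul_comm, h2]
  simp
  ring

/-- Coefficient form. -/
theorem exists_coeff (Z : Finset (K × K)) (d : ℕ) (h : 2 * Z.card < (d + 1) * (d + 2)) :
    ∃ c : ℕ × ℕ → K, (∃ ij ∈ expo d, c ij ≠ 0) ∧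
      ∀ z ∈ Z, ∑ ij ∈ expo d, c ij * (z.1 ^ ij.1 * z.2 ^ ij.2) = 0 := by
  classical
  let Φ : (expo d → K) →ₗ[K] (Z → K) :=
    { toFun := fun c z => ∑ ij : expo d, c ij * (z.1.1 ^ ij.1.1 * z.1.2 ^ ij.1.2)
      map_add' := by
        intro c c'
        funext z
        simp only [Pi.add_apply, add_mul, sum_add_distrib]
      map_smul' := by
        intro a c
        funext z
        simp only [Pi.smul_apply, smul_eq_mul, mul_assoc, ← mul_sum, RingHom.id_apply] }
  have hlt : Module.finrank K (Z → K) < Module.finrank K (expo d → K) := by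
    rw [Module.finrank_fintype_fun_eq_card, Module.finrank_fintype_fun_eq_card,
      Fintype.card_coe, Fintype.card_coe]
    have := card_expo d
    omega
  have hker := LinearMap.ker_ne_bot_of_finrank_lt (f := Φ) hlt
  obtain ⟨c, hc, hc0⟩ := Submodule.exists_mem_ne_zero_of_ne_bot hker
  refine ⟨fun ij => if h : ij ∈ expo d then c ⟨ij, h⟩ else 0, ?_, ?_⟩
  · obtain ⟨ij, hij⟩ := Function.ne_iff.1 hc0
    exact ⟨ij.1, ij.2, by simpa using hij⟩
  · intro z hz
    have h1 : Φ c ⟨z, hz⟩ = 0 := by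
      rw [LinearMap.mem_ker.1 hc]; rfl
    rw [← h1]
    change _ = ∑ ij : expo d, c ij * (z.1 ^ ij.1.1 * z.2 ^ ij.1.2)
    rw [← Finset.sum_coe_sort (expo d)]
    exact Finset.sum_congr rfl fun ij _ => by simp

/-- Exponents as finitely supported functions on `Fin 2`. -/
noncomputable def toExp (ij : ℕ × ℕ) : Fin 2 →₀ ℕ :=
  Finsupp.single 0 ij.1 + Finsupp.single 1 ij.2

theorem toExp_zero (ij : ℕ × ℕ) : toExp ij 0 = ij.1 := by simp [toExp]

theorem toExp_one (ij : ℕ × ℕ) : toExp ij 1 = ij.2 := by simp [toExp]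

theorem toExp_injective : Function.Injective toExp := by
  intro a b h
  have h0 := DFunLike.congr_fun h 0
  have h1 := DFunLike.congr_fun h 1
  rw [toExp_zero, toExp_zero] at h0
  rw [toExp_one, toExp_one] at h1
  exact Prod.ext h0 h1

/-- `MvPolynomial` form. -/
theorem exists_mvPolynomial (Z : Finset (Fin 2 → K)) (d : ℕ)
    (h : 2 * Z.card < (d + 1) * (d + 2)) :
    ∃ g : MvPolynomial (Fin 2) K, g ≠ 0 ∧ g.totalDegree ≤ d ∧
      ∀ z ∈ Z, MvPolynomial.eval z g = 0 := by
  classical
  have hle : (Z.image fun z => (z 0, z 1)).card ≤ Z.card := Finset.card_image_le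
  obtain ⟨c, ⟨ij, hij, hc⟩, hz⟩ := exists_coeff (Z.image fun z => (z 0, z 1)) d (by omega)
  refine ⟨∑ ij ∈ expo d, MvPolynomial.monomial (toExp ij) (c ij), ?_, ?_, ?_⟩
  · intro h0
    apply hc
    have h1 := congrArg (MvPolynomial.coeff (toExp ij)) h0
    rw [MvPolynomial.coeff_sum, MvPolynomial.coeff_zero] at h1
    rw [Finset.sum_eq_single ij] at h1
    · rwa [MvPolynomial.coeff_monomial, if_pos rfl] at h1
    · intro b _ hb
      rw [MvPolynomial.coeff_monomial, if_neg fun hh => hb (toExp_injective hh)]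
    · exact fun hh => absurd hij hh
  · refine (MvPolynomial.totalDegree_finsetSum _ _).trans ?_
    refine Finset.sup_le fun b hb => ?_
    refine (MvPolynomial.totalDegree_monomial_le _ _).trans ?_
    rw [mem_expo] at hb
    refine le_trans (le_of_eq ?_) hb
    rw [Finsupp.sum_fintype _ _ (fun _ => rfl)]
    simp [toExp_zero, toExp_one]
  · intro z hzZ
    rw [map_sum]
    have h1 := hz (z 0, z 1) (Finset.mem_image_of_mem _ hzZ)
    rw [← h1]
    refine Finset.sum_congr rfl fun b _ => ?_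
    rw [MvPolynomial.eval_monomial, Finsupp.prod_fintype _ _ (fun _ => pow_zero _)]
    simp [toExp_zero, toExp_one]

/-- `K[X][Y]` form. -/
theorem exists_bivariate (Z : Finset (K × K)) (d : ℕ) (h : 2 * Z.card < (d + 1) * (d + 2)) :
    ∃ g : K[X][X], g ≠ 0 ∧ (∀ j, g.coeff j ≠ 0 → (g.coeff j).natDegree + j ≤ d) ∧
      ∀ z ∈ Z, (g.eval (C z.2)).eval z.1 = 0 := by
  classical
  obtain ⟨c, ⟨ij, hij, hc⟩, hz⟩ := exists_coeff Z d h
  have hco : ∀ i j, ((∑ ij ∈ expo d, C (C (c ij) * X ^ ij.1) * X ^ ij.2 : K[X][X]).coeff j).coeff i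
      = if (i, j) ∈ expo d then c (i, j) else 0 := by
    intro i j
    rw [Polynomial.finsetSum_coeff, Polynomial.finsetSum_coeff]
    have : ∀ b ∈ expo d, ((C (C (c b) * X ^ b.1) * X ^ b.2 : K[X][X]).coeff j).coeff i =
        if b = (i, j) then c b else 0 := by
      intro b _
      rw [Polynomial.coeff_C_mul_X_pow]
      split_ifs with h1 h2 h2
      · rw [Polynomial.coeff_C_mul_X_pow, if_pos (by rw [h2])]
      · rw [Polynomial.coeff_C_mul_X_pow, if_neg fun h3 => h2 (Prod.ext h3.symm h1.symm)]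
      · exact absurd (by rw [h2]) h1
      · exact Polynomial.coeff_zero _
    rw [Finset.sum_congr rfl this]
    simp
  refine ⟨∑ ij ∈ expo d, C (C (c ij) * X ^ ij.1) * X ^ ij.2, ?_, ?_, ?_⟩
  · intro h0
    apply hc
    have h1 := hco ij.1 ij.2
    rw [h0, Polynomial.coeff_zero, Polynomial.coeff_zero, if_pos hij] at h1
    exact h1.symm
  · intro j hj
    set g : K[X][X] := ∑ ij ∈ expo d, C (C (c ij) * X ^ ij.1) * X ^ ij.2 with hg
    have h1 : (g.coeff j).coeff (g.coeff j).natDegree ≠ 0 := by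
      rw [Polynomial.coeff_natDegree]
      exact Polynomial.leadingCoeff_ne_zero.2 hj
    rw [hco] at h1
    by_contra hcon
    apply h1
    rw [if_neg]
    rw [mem_expo]
    simpa using hcon
  · intro z hzZ
    rw [Polynomial.eval_finsetSum, Polynomial.eval_finsetSum, ← hz z hzZ]
    refine Finset.sum_congr rfl fun b _ => ?_
    simp [mul_assoc]

end Vale.Agent.P045
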