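import Vale.Agent.P045.NCStruct

/-!
# P045: the two degenerate cases of the near cover theorem
-/

namespace Vale.Agent.P045.NC

open MvPolynomial

/-- same direction -/
def Par {K : Type*} : Ln K → Ln K → Prop
  | .inl ab, .inl cd => ab.1 = cd.1
  | .inl _, .inr _ => False
  | .inr _, .inl _ => False
  | .inr _, .inr _ => True

lemma par_iff {K : Type*} [Field K] (L M : Ln K) :
    Par L M ↔ vy M * vx L - vx M * vy L = 0 := by
  rcases L with ⟨a, b⟩ | c <;> rcases M with ⟨a', b'⟩ | c'
  · simp only [Par, vx, vy, mul_one, one_mul, sub_eq_zero]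
    exact eq_comm
  · simp [Par, vx, vy]
  · simp [Par, vx, vy]
  · simp [Par, vx, vy]

/-- C1 (helper59): if `D = 0` then all but `κ` of the lines are parallel to any one -/
theorem Red.parallel {K : Type*} [Field K] [Fintype K] [DecidableEq K] (R : Red K)
    (hD : R.D = 0) (L : Ln K) (hL : L ∈ R.S) :
    ∃ T ⊆ R.S, R.S.card ≤ T.card + R.κ ∧ ∀ M ∈ T, Par L M := by
  classical
  refine ⟨R.S.filter fun M => Par L M, Finset.filter_subset _ _, ?_,
    fun M hM => (Finset.mem_filter.1 hM).2⟩
  have hq := R.quot L hL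
  rw [hD, map_zero, mul_zero, sub_zero] at hq
  have hA : R.A = R.b := by rw [Red.A, hD, mul_zero, add_zero]
  have hB : R.B = -R.a := by rw [Red.B, hD, mul_zero, zero_sub]
  have hrel := R.rel L hL
  -- the right-hand side is not zero
  have hne : res L (Red.ZZ R.A R.B L) ≠ 0 := by
    intro h0
    have hab : res L R.a = 0 ∧ res L R.b = 0 := by
      rcases L with ⟨α, β⟩ | γ
      · simp only [Red.ZZ] at h0
        rw [hA] at h0
        rw [h0] at hrel
        simp only [vx, map_one, one_mul, mul_zero, add_zero] at hrel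
        exact ⟨hrel, h0⟩
      · simp only [Red.ZZ] at h0
        rw [hB, map_neg, neg_eq_zero] at h0
        rw [h0] at hrel
        simp only [vy, map_one, one_mul, mul_zero, zero_add] at hrel
        exact ⟨h0, hrel⟩
    have h1 := R.hrel ((dvd_iff_res L R.a).2 hab.1) ((dvd_iff_res L R.b).2 hab.2)
    exact (ell_prime L).not_isUnit h1
  have hdeg : (res L (Red.ZZ R.A R.B L)).natDegree ≤ R.κ := by
    refine (natDegree_res _ _).trans ?_
    rcases L with ⟨α, β⟩ | γ
    · exact R.A_deg
    · exact R.B_deg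
  rw [← hq] at hne hdeg
  have hg0 := right_ne_zero_of_mul hne
  have hp0 := left_ne_zero_of_mul hne
  rw [Polynomial.natDegree_mul hp0 hg0, map_prod, Polynomial.natDegree_prod _ _ (fun M hM =>
    res_ell_ne L M fun h => (Finset.mem_erase.1 hM).1 h.symm)] at hdeg
  -- every non parallel line contributes one
  have hcount : (R.S.filter fun M => ¬ Par L M).card ≤
      ∑ M ∈ R.S.erase L, (res L (ell M)).natDegree := by
    have hsub : (R.S.filter fun M => ¬ Par L M) ⊆ R.S.erase L := by
      intro M hM
      rw [Finset.mem_filter] at hM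
      refine Finset.mem_erase.2 ⟨?_, hM.1⟩
      rintro rfl
      apply hM.2
      rw [par_iff]
      ring
    calc (R.S.filter fun M => ¬ Par L M).card
        = ∑ M ∈ R.S.filter (fun M => ¬ Par L M), 1 := by simp
      _ ≤ ∑ M ∈ R.S.filter (fun M => ¬ Par L M), (res L (ell M)).natDegree := by
          refine Finset.sum_le_sum fun M hM => ?_
          have h1 := (Finset.mem_filter.1 hM).2
          rw [par_iff] at h1
          rw [res_ell, add_comm, Polynomial.natDegree_linear h1]
      _ ≤ _ := Finset.sum_le_sum_of_subset hsub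
  have hsplit := Finset.card_filter_add_card_filter_not (s := R.S) (fun M => Par L M)
  omega

/-- C2 (helper59): all constant -/
theorem Red.pencil {K : Type*} [Field K] [Fintype K] [DecidableEq K] (R : Red K)
    (hA : R.A.totalDegree = 0) (hB : R.B.totalDegree = 0) (hD : R.D.totalDegree = 0)
    (hD0 : R.D ≠ 0) : ∃ P : K × K, ∀ L ∈ R.S, On P L := by
  rw [totalDegree_eq_zero_iff_eq_C] at hA hB hD
  obtain ⟨α, hα⟩ : ∃ α, α = coeff 0 R.A := ⟨_, rfl⟩
  obtain ⟨β, hβ⟩ : ∃ β, β = coeff 0 R.B := ⟨_, rfl⟩
  obtain ⟨δ, hδ⟩ : ∃ δ, δ = coeff 0 R.D := ⟨_, rfl⟩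
  rw [← hα] at hA
  rw [← hβ] at hB
  rw [← hδ] at hD
  have hδ0 : δ ≠ 0 := by
    rintro rfl
    exact hD0 (by rw [hD, map_zero])
  refine ⟨(α / δ, β / δ), fun L hL => ?_⟩
  have h := R.rel' L hL
  rw [hA, hB, hD, res_C, res_C, res_C, ← map_mul, ← map_sub, ← map_mul, ← map_mul, ← map_sub,
    ← map_mul, ← map_add] at h
  have h1 := Polynomial.C_eq_zero.1 h
  rcases L with ⟨a, b⟩ | c
  · simp only [vx, vy, px, py] at h1
    simp only [On]
    field_simp
    linear_combination -h1
  · simp only [vx, vy, px, py] at h1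
    simp only [On]
    field_simp
    linear_combination h1

end Vale.Agent.P045.NC
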