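import Vale.Agent.P045.NCStruct

/-!
# P045, [W1]: on some line the Wronskian of the reduced pair does not vanish
-/

namespace Vale.Agent.P045.NC

open MvPolynomial

namespace WronskAux

lemma pow_inj' {R : Type*} [CommRing R] [IsDomain R] (p : ℕ) [Fact p.Prime] [CharP R p] (e : ℕ)
    {x y : R} (h : x ^ p ^ e = y ^ p ^ e) : x = y := by
  have h1 : (x - y) ^ p ^ e = 0 := by rw [sub_pow_char_pow, h, sub_self]
  have h2 : p ^ e ≠ 0 := pow_ne_zero _ (Fact.out : p.Prime).ne_zero
  exact sub_eq_zero.1 ((pow_eq_zero_iff h2).1 h1)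

lemma exists_root' {K : Type*} [Field K] [Fintype K] (p : ℕ) [Fact p.Prime] [CharP K p] (e : ℕ)
    (c : K) : ∃ c', c' ^ p ^ e = c := by
  have hinj : Function.Injective (fun x : K => x ^ p ^ e) := fun x y h => pow_inj' p e h
  exact (Finite.injective_iff_surjective.1 hinj) c

lemma root_rel {K : Type*} [Field K] [Fintype K] (p : ℕ) [Fact p.Prime] [CharP K p] (e : ℕ)
    (u v w : Polynomial K) (α β : K)
    (h : u ^ p ^ e = Polynomial.C α * v ^ p ^ e + Polynomial.C β * w ^ p ^ e) :
    ∃ α' β' : K, u = Polynomial.C α' * v + Polynomial.C β' * w := by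
  obtain ⟨α', hα⟩ := exists_root' p e α
  obtain ⟨β', hβ⟩ := exists_root' p e β
  refine ⟨α', β', pow_inj' p e ?_⟩
  rw [add_pow_char_pow, mul_pow, mul_pow, ← Polynomial.C_pow, ← Polynomial.C_pow, hα, hβ, h]

/-- two dividends with coprime cofactors -/
lemma dvd_of_dvd_mul_both {M : Type*} [CommRing M] [IsDomain M] [DecompositionMonoid M]
    {a b c D : M} (hD : D ≠ 0) (hab : IsRelPrime a b) (h1 : D ∣ a * c) (h2 : D ∣ b * c) :
    D ∣ c := by
  obtain ⟨d1, d2, hd1, hd2, rfl⟩ := exists_dvd_and_dvd_of_dvd_mul h1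
  obtain ⟨c', rfl⟩ := hd2
  have hd20 : d2 ≠ 0 := by
    rintro rfl
    exact hD (mul_zero _)
  have h3 : d2 * d1 ∣ d2 * (b * c') := by
    have e1 : d2 * d1 = d1 * d2 := mul_comm _ _
    have e2 : d2 * (b * c') = b * (d2 * c') := by ring
    rw [e1, e2]
    exact h2
  have h4 : d1 ∣ b * c' := (mul_dvd_mul_iff_left hd20).1 h3
  have h5 : IsRelPrime d1 b := hab.of_dvd_left hd1
  have h6 : d1 ∣ c' := h5.dvd_of_dvd_mul_left h4
  rw [mul_comm d1 d2]
  exact mul_dvd_mul_left d2 h6

variable {K : Type*} [Field K]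

lemma zero_of_dvd_deg {f N : MvPolynomial (Fin 2) K} (h : f ∣ N)
    (hd : N.totalDegree < f.totalDegree) : N = 0 := by
  by_contra hN
  obtain ⟨g, hg⟩ := h
  have hf0 : f ≠ 0 := by rintro rfl; rw [zero_mul] at hg; exact hN hg
  have hg0 : g ≠ 0 := by rintro rfl; rw [mul_zero] at hg; exact hN hg
  rw [hg, totalDegree_mul_of_isDomain hf0 hg0] at hd
  omega

lemma totalDegree_wr (D A : MvPolynomial (Fin 2) K) (i : Fin 2) :
    (D * pderiv i A - A * pderiv i D).totalDegree ≤ D.totalDegree + A.totalDegree := by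
  refine (totalDegree_sub _ _).trans (max_le ?_ ?_)
  · refine (totalDegree_mul _ _).trans ?_
    have := totalDegree_pderiv_le i A
    omega
  · refine (totalDegree_mul _ _).trans ?_
    have := totalDegree_pderiv_le i D
    omega

/-- the one-polynomial argument -/
lemma core {f g D A : MvPolynomial (Fin 2) K} (i j : Fin 2) (hfg : IsRelPrime f g)
    (h : f * (D * pderiv i A - A * pderiv i D) = g * (D * pderiv j A - A * pderiv j D))
    (hd : D.totalDegree + A.totalDegree < f.totalDegree) :
    D * pderiv i A = A * pderiv i D ∧ D * pderiv j A = A * pderiv j D := by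
  have hf0 : f ≠ 0 := by
    rintro rfl
    simp at hd
  have h1 : f ∣ g * (D * pderiv j A - A * pderiv j D) := ⟨_, h.symm⟩
  have h2 : f ∣ D * pderiv j A - A * pderiv j D := hfg.dvd_of_dvd_mul_left h1
  have h3 := zero_of_dvd_deg h2 ((totalDegree_wr D A j).trans_lt hd)
  rw [h3, mul_zero] at h
  have h4 := (mul_eq_zero.1 h).resolve_left hf0
  exact ⟨sub_eq_zero.1 h4, sub_eq_zero.1 h3⟩

end WronskAux

open WronskAux

namespace Red

variable {K : Type*} [Field K] [Fintype K] [DecidableEq K] (R : Red K)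

lemma wr_b_deg (p e : ℕ) [Fact p.Prime] (he : 1 ≤ e) (hD : R.D ≠ 0)
    (A D : MvPolynomial (Fin 2) K) (hA1 : R.A = A ^ p ^ e)
    (hD1 : R.D = D ^ p ^ e) : D.totalDegree + A.totalDegree < R.b.totalDegree := by
  have hp2 : 2 ≤ p ^ e := by
    have h2 := (Fact.out : p.Prime).two_le
    calc 2 ≤ p := h2
      _ = p ^ 1 := (pow_one p).symm
      _ ≤ p ^ e := Nat.pow_le_pow_right (by omega) he
  have h1 : R.D.totalDegree ≤ R.b.totalDegree - 1 := by
    have := totalDegree_pderiv_le 0 R.b
    rw [R.b_x, totalDegree_neg] at this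
    exact this
  have h0 : R.b.totalDegree ≠ 0 := by
    intro h0
    apply hD
    rw [totalDegree_eq_zero_iff_eq_C] at h0
    have h2 := R.b_x
    rw [h0, pderiv_C] at h2
    exact neg_eq_zero.1 h2.symm
  have h2 : R.A.totalDegree ≤ R.b.totalDegree := by
    refine (totalDegree_add _ _).trans (max_le le_rfl ?_)
    refine (totalDegree_mul _ _).trans ?_
    rw [totalDegree_X]
    omega
  rw [hA1, totalDegree_pow'] at h2
  rw [hD1, totalDegree_pow'] at h1
  have h3 : 2 * A.totalDegree ≤ p ^ e * A.totalDegree := Nat.mul_le_mul_right _ hp2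
  have h4 : 2 * D.totalDegree ≤ p ^ e * D.totalDegree := Nat.mul_le_mul_right _ hp2
  omega

lemma wr_a_deg (p e : ℕ) [Fact p.Prime] (he : 1 ≤ e) (hD : R.D ≠ 0)
    (B D : MvPolynomial (Fin 2) K) (hB1 : R.B = B ^ p ^ e)
    (hD1 : R.D = D ^ p ^ e) : D.totalDegree + B.totalDegree < R.a.totalDegree := by
  have hp2 : 2 ≤ p ^ e := by
    have h2 := (Fact.out : p.Prime).two_le
    calc 2 ≤ p := h2
      _ = p ^ 1 := (pow_one p).symm
      _ ≤ p ^ e := Nat.pow_le_pow_right (by omega) he
  have h1 : R.D.totalDegree ≤ R.a.totalDegree - 1 := by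
    have := totalDegree_pderiv_le 1 R.a
    rw [R.a_y] at this
    exact this
  have h0 : R.a.totalDegree ≠ 0 := by
    intro h0
    apply hD
    rw [totalDegree_eq_zero_iff_eq_C] at h0
    have h2 := R.a_y
    rw [h0, pderiv_C] at h2
    exact h2.symm
  have h2 : R.B.totalDegree ≤ R.a.totalDegree := by
    refine (totalDegree_sub _ _).trans (max_le ?_ le_rfl)
    refine (totalDegree_mul _ _).trans ?_
    rw [totalDegree_X]
    omega
  rw [hB1, totalDegree_pow'] at h2
  rw [hD1, totalDegree_pow'] at h1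
  have h3 : 2 * B.totalDegree ≤ p ^ e * B.totalDegree := Nat.mul_le_mul_right _ hp2
  have h4 : 2 * D.totalDegree ≤ p ^ e * D.totalDegree := Nat.mul_le_mul_right _ hp2
  omega

/-- the polynomial `b (D A_x - A D_x) - a (D A_y - A D_y)` -/
noncomputable def TT (D A : MvPolynomial (Fin 2) K) : MvPolynomial (Fin 2) K :=
  R.b * (D * pderiv 0 A - A * pderiv 0 D) - R.a * (D * pderiv 1 A - A * pderiv 1 D)

lemma res_TT (D A : MvPolynomial (Fin 2) K) (L : Ln K) (hL : L ∈ R.S)
    (hW : Polynomial.derivative (res L D) * res L A = res L D * Polynomial.derivative (res L A)) :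
    res L (R.TT D A) = 0 := by
  have h := R.rel L hL
  obtain ⟨g, hg1, hg2⟩ := solve_rel L _ _ h
  rw [derivative_res, derivative_res] at hW
  unfold TT
  simp only [map_sub, map_mul]
  rw [hg1, hg2]
  linear_combination (-g) * hW

lemma TT_zero (D A : MvPolynomial (Fin 2) K) (hd : D.totalDegree + A.totalDegree < R.κ)
    (hW : ∀ L ∈ R.S, Polynomial.derivative (res L D) * res L A =
      res L D * Polynomial.derivative (res L A)) : R.TT D A = 0 := by
  apply eq_zero_of_lines R.S
  · intro L hL
    exact R.res_TT D A L hL (hW L hL)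
  · have h3 := R.h3
    have ha := R.ha
    have hb := R.hb
    have h1 := totalDegree_wr D A 0
    have h2 := totalDegree_wr D A 1
    have : (R.TT D A).totalDegree ≤ R.κ + (D.totalDegree + A.totalDegree) := by
      refine (totalDegree_sub _ _).trans (max_le ?_ ?_)
      · exact (totalDegree_mul _ _).trans (by omega)
      · exact (totalDegree_mul _ _).trans (by omega)
    omega

end Red

/-- W1 (helper22) -/
theorem Red.wronsk {K : Type*} [Field K] [Fintype K] [DecidableEq K] (R : Red K) (p e : ℕ)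
    [Fact p.Prime] [CharP K p] (he : 1 ≤ e) (hD : R.D ≠ 0)
    (A B D : MvPolynomial (Fin 2) K) (hA1 : R.A = A ^ p ^ e) (hB1 : R.B = B ^ p ^ e)
    (hD1 : R.D = D ^ p ^ e)
    (hgrad : ¬ ((∀ i, pderiv i A = 0) ∧ (∀ i, pderiv i B = 0) ∧ (∀ i, pderiv i D = 0))) :
    ∃ L ∈ R.S, Polynomial.derivative (res L D) * res L (Red.ZZ A B L) -
      res L D * Polynomial.derivative (res L (Red.ZZ A B L)) ≠ 0 := by
  by_contra hcon
  push Not at hcon
  apply hgrad
  have hbd := R.wr_b_deg p e he hD A D hA1 hD1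
  have had := R.wr_a_deg p e he hD B D hB1 hD1
  have hκb := R.hb
  have hκa := R.ha
  -- the Wronskians of `A` and of `B` vanish on every line
  have hrel : ∀ L ∈ R.S, Polynomial.C (vx L) * (Polynomial.C (py L) * (res L D) ^ p ^ e -
      (res L B) ^ p ^ e) + Polynomial.C (vy L) * ((res L A) ^ p ^ e -
        Polynomial.C (px L) * (res L D) ^ p ^ e) = 0 := by
    intro L hL
    have h := R.rel' L hL
    rw [hA1, hB1, hD1, map_pow, map_pow, map_pow] at h
    exact h
  have hWA : ∀ L ∈ R.S, Polynomial.derivative (res L D) * res L A =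
      res L D * Polynomial.derivative (res L A) := by
    intro L hL
    rcases L with ⟨α, β⟩ | γ
    · exact sub_eq_zero.1 (hcon _ hL)
    · have h := hrel _ hL
      simp only [vx, vy, px, py, map_zero, map_one, zero_mul, one_mul, zero_add] at h
      obtain ⟨c, c', hc⟩ := root_rel p e (res (.inr γ) A) (res (.inr γ) D) (res (.inr γ) D) γ 0
        (by rw [map_zero, zero_mul, add_zero]; linear_combination h)
      rw [hc]
      simp only [map_add, Polynomial.derivative_mul, Polynomial.derivative_C]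
      ring
  have hWB : ∀ L ∈ R.S, Polynomial.derivative (res L D) * res L B =
      res L D * Polynomial.derivative (res L B) := by
    intro L hL
    rcases L with ⟨α, β⟩ | γ
    · have h := hrel _ hL
      simp only [vx, vy, px, py, map_zero, map_one, zero_mul, one_mul, sub_zero] at h
      obtain ⟨c, c', hc⟩ := root_rel p e (res (.inl (α, β)) B) (res (.inl (α, β)) D)
        (res (.inl (α, β)) A) β α (by linear_combination -h)
      have hA := hWA _ hL
      rw [hc]
      simp only [map_add, Polynomial.derivative_mul, Polynomial.derivative_C]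
      linear_combination Polynomial.C c' * hA
    · exact sub_eq_zero.1 (hcon _ hL)
  have t1 := R.TT_zero D A (hbd.trans_le hκb) hWA
  have t2 := R.TT_zero D B (had.trans_le hκa) hWB
  have c1 := core (f := R.b) (g := R.a) (D := D) (A := A) 0 1 R.hrel.symm
    (sub_eq_zero.1 t1) hbd
  have c2 := core (f := R.a) (g := R.b) (D := D) (A := B) 1 0 R.hrel
    (sub_eq_zero.1 t2).symm had
  have hs : p ^ e ≠ 0 := pow_ne_zero _ (Fact.out : p.Prime).ne_zero
  have hD0 : D ≠ 0 := by
    rintro rfl
    rw [zero_pow hs] at hD1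
    exact hD hD1
  -- `D` divides its derivatives
  have hdvd : ∀ i : Fin 2, D * pderiv i A = A * pderiv i D → D * pderiv i B = B * pderiv i D →
      pderiv i D = 0 := by
    intro i h1 h2
    apply pderiv_eq_zero_of_dvd
    have k1 : D ∣ A * pderiv i D := ⟨_, h1.symm⟩
    have k2 : D ∣ B * pderiv i D := ⟨_, h2.symm⟩
    have k3 : D ∣ R.D := by rw [hD1]; exact dvd_pow_self D hs
    have k4 : D ∣ R.A * pderiv i D := by
      rw [hA1, ← Nat.sub_add_cancel (Nat.one_le_iff_ne_zero.2 hs), pow_succ, mul_assoc]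
      exact k1.mul_left _
    have k5 : D ∣ R.B * pderiv i D := by
      rw [hB1, ← Nat.sub_add_cancel (Nat.one_le_iff_ne_zero.2 hs), pow_succ, mul_assoc]
      exact k2.mul_left _
    apply dvd_of_dvd_mul_both hD0 R.hrel
    · rw [R.a_eq, sub_mul, mul_assoc]
      exact dvd_sub ((k3.mul_right _).mul_left _) k5
    · rw [R.b_eq, sub_mul, mul_assoc]
      exact dvd_sub k4 ((k3.mul_right _).mul_left _)
  have d0 := hdvd 0 c1.1 c2.2
  have d1 := hdvd 1 c1.2 c2.1
  refine ⟨?_, ?_, ?_⟩
  · intro i
    fin_cases i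
    · have := c1.1
      rw [d0, mul_zero] at this
      exact (mul_eq_zero.1 this).resolve_left hD0
    · have := c1.2
      rw [d1, mul_zero] at this
      exact (mul_eq_zero.1 this).resolve_left hD0
  · intro i
    fin_cases i
    · have := c2.2
      rw [d0, mul_zero] at this
      exact (mul_eq_zero.1 this).resolve_left hD0
    · have := c2.1
      rw [d1, mul_zero] at this
      exact (mul_eq_zero.1 this).resolve_left hD0
  · intro i
    fin_cases i
    · exact d0
    · exact d1

end Vale.Agent.P045.NC
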