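import Vale.Agent.P045.NCLineP
import Vale.Agent.P045.NCWronsk
import Vale.Agent.P045.NCCases
import Vale.Agent.P045.GExist
import Vale.Agent.P045.CovThm

/-!
# P045: the near cover theorem
-/

namespace Vale.Agent.P045.NC

open MvPolynomial

lemma Par.symm' {K : Type*} {L M : Ln K} (h : Par L M) : Par M L := by
  rcases L with ⟨a, b⟩ | c <;> rcases M with ⟨a', b'⟩ | c'
  · exact Eq.symm h
  · exact h
  · exact h
  · trivial

lemma Par.trans' {K : Type*} {L M N : Ln K} (h : Par L M) (h' : Par M N) : Par L N := by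
  rcases L with ⟨a, b⟩ | c <;> rcases M with ⟨a', b'⟩ | c' <;> rcases N with ⟨a'', b''⟩ | c''
  · exact Eq.trans h h'
  · exact h'
  · exact absurd h (by simp [Par])
  · exact absurd h (by simp [Par])
  · exact absurd h (by simp [Par])
  · exact absurd h (by simp [Par])
  · exact h'
  · trivial

variable {K : Type*} [Field K] [Fintype K] [DecidableEq K]

/-- the trichotomy for a reduced near cover -/
theorem Red.cases (R : Red K) (p : ℕ) [Fact p.Prime] [CharP K p] (h d : ℕ)
    (hK : Fintype.card K = p ^ h) (hh : h.Prime) (hgd : R.g.totalDegree ≤ d)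
    (hnum : (p + 1) * R.κ + 3 * d ≤ Fintype.card K) :
    ∃ T ⊆ R.S, R.S.card ≤ T.card + R.κ ∧
      ((∀ M ∈ T, ∀ M' ∈ T, Par M M') ∨ ∃ P, ∀ M ∈ T, On P M) := by
  have hp : p.Prime := Fact.out
  have hS := R.hS
  obtain ⟨L, hL⟩ := Finset.card_pos.mp (by omega : 0 < R.S.card)
  by_cases hD : R.D = 0
  · obtain ⟨T, hT, hc, hp⟩ := R.parallel hD L hL
    exact ⟨T, hT, hc, Or.inl fun M hM M' hM' => (hp M hM).symm'.trans' (hp M' hM')⟩
  by_cases hdeg : R.A.totalDegree + R.B.totalDegree + R.D.totalDegree = 0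
  · obtain ⟨P, hP⟩ := R.pencil (by omega) (by omega) (by omega) hD
    exact ⟨R.S, Finset.Subset.refl _, by omega, Or.inr ⟨P, hP⟩⟩
  exfalso
  obtain ⟨e, A, B, D, hA, hB, hD1, hgrad⟩ := exists_max p _ R.A R.B R.D rfl hdeg
  have he : 1 ≤ e := by
    by_contra h0
    have h0 : e = 0 := by omega
    subst h0
    rw [pow_zero, pow_one] at hA hB hD1
    exact hgrad ⟨fun i => by rw [← hA]; exact R.A_grad i, fun i => by rw [← hB]; exact R.B_grad i,
      fun i => by rw [← hD1]; exact R.D_grad i⟩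
  have he2 : e < h := by
    have h1 := R.A_deg
    have h2 := R.B_deg
    have h3 := R.D_deg
    have hκ := R.hκ
    have h4 : p ^ e ≤ R.κ := by
      rw [hA, hB, hD1, totalDegree_pow', totalDegree_pow', totalDegree_pow'] at hdeg
      rw [hA, totalDegree_pow'] at h1
      rw [hB, totalDegree_pow'] at h2
      rw [hD1, totalDegree_pow'] at h3
      rcases Nat.eq_zero_or_pos A.totalDegree with h5 | h5
      · rcases Nat.eq_zero_or_pos B.totalDegree with h6 | h6
        · rcases Nat.eq_zero_or_pos D.totalDegree with h7 | h7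
          · exfalso; apply hdeg; rw [h5, h6, h7]; simp
          · exact ((Nat.le_mul_of_pos_right _ h7).trans h3).trans (Nat.sub_le _ _)
        · exact (Nat.le_mul_of_pos_right _ h6).trans h2
      · exact (Nat.le_mul_of_pos_right _ h5).trans h1
    by_contra hcon
    push Not at hcon
    have h5 : p ^ h ≤ p ^ e := Nat.pow_le_pow_right hp.pos hcon
    omega
  obtain ⟨M, hM, hw⟩ := R.wronsk p e he hD A B D hA hB hD1 hgrad
  exact R.line_absurdP p h e d hK hh he he2 A B D hA hB hD1 hgd hnum M hM hw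

/-- the near cover theorem -/
theorem near_coverP (p : ℕ) [Fact p.Prime] [CharP K p] (h d : ℕ)
    (hK : Fintype.card K = p ^ h) (hh : h.Prime) (S : Finset (Ln K))
    (g : MvPolynomial (Fin 2) K) (hg0 : g ≠ 0) (hgd : g.totalDegree ≤ d)
    (hcov : ∀ P : K × K, (∃ L ∈ S, On P L) ∨ ev P g = 0)
    (hnum : (p + 1) * (S.card + d - Fintype.card K) + 3 * d ≤ Fintype.card K) (hd : 0 < Fintype.card K - d) :
    ∃ T ⊆ S, Fintype.card K ≤ T.card + d ∧
      ((∀ M ∈ T, ∀ M' ∈ T, Par M M') ∨ ∃ P, ∀ M ∈ T, On P M) := by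
  have hp : p.Prime := Fact.out
  have hp2 := hp.two_le
  obtain ⟨a, b, g', S', δ, hSS, hc, hrel, hF, hg'0, hg'd, ha, hb⟩ := reduce S g d hg0 hgd hcov
  set q := Fintype.card K with hq
  obtain ⟨κ, hκ⟩ : ∃ κ, κ = S.card + d - q - δ := ⟨_, rfl⟩
  have hκ1 : 3 * κ ≤ (p + 1) * κ := Nat.mul_le_mul_right _ (by omega)
  have hκ2 : (p + 1) * κ ≤ (p + 1) * (S.card + d - q) := Nat.mul_le_mul_left _ (by omega)
  let R : Red K :=
    { a := a, b := b, g := g', S := S', κ := κ, hrel := hrel, hF := hF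
      ha := by omega
      hb := by omega
      h3 := by omega
      hS := by omega
      hκ := by omega }
  obtain ⟨T, hT, hTc, hT2⟩ := R.cases p h d hK hh hg'd (by
    show (p + 1) * κ + 3 * d ≤ Fintype.card K
    omega)
  refine ⟨T, hT.trans hSS, ?_, hT2⟩
  have : S'.card ≤ T.card + κ := hTc
  omega

open Classical in
/-- the near cover theorem for `p = 7`, in the form used by the assembly -/
theorem near_cover (h : ℕ) (K : Type) [Field K] [Fintype K] (hh : h.Prime)
    (hK : Fintype.card K = 7 ^ h) (n N d : ℕ) (hn : 29 * n ≤ 30 * 7 ^ h) (hd : 1000 * d ≤ 7 ^ h)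
    (hN : 2 * N < (d + 1) * (d + 2)) : NCHyp K n N d := by
  intro L hL hmiss
  have : Fact (Nat.Prime 7) := ⟨by norm_num⟩
  have : CharP K 7 := charP_of_card_eq_prime_pow hK
  obtain ⟨g, hg0, hgd, hg⟩ := exists_mvPolynomial
    ((Finset.univ.filter (fun P : K × K => ∀ M ∈ L, ¬ On P M)).image
      (fun P : K × K => (![P.1, P.2] : Fin 2 → K))) d (by
        have := Finset.card_image_le (s := Finset.univ.filter (fun P : K × K => ∀ M ∈ L, ¬ On P M))
          (f := fun P : K × K => (![P.1, P.2] : Fin 2 → K))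
        omega)
  have hq : 0 < 7 ^ h := by positivity
  refine near_coverP 7 h d hK hh L g hg0 hgd ?_ (by rw [hK]; omega) (by rw [hK]; omega)
  intro P
  by_cases hP : ∃ M ∈ L, On P M
  · exact Or.inl hP
  · right
    push Not at hP
    refine hg _ (Finset.mem_image.2 ⟨P, ?_, rfl⟩)
    rw [Finset.mem_filter]
    exact ⟨Finset.mem_univ _, hP⟩

end Vale.Agent.P045.NC
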