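import Vale.Agent.P045.Main
import Vale.Agent.P045.NCFinal
import Vale.Agent.P045.MkIface
import Vale.Agent.P045.MkRaw

/-!
# P045: the counterexamples to Ryser's conjecture
-/

namespace Vale.Agent.P045

/-- the designs exist for all large prime exponents -/
theorem exists_iface : ∃ Kc h0 : ℕ, ∀ h : ℕ, h0 ≤ h → h.Prime →
    ∃ (K : Type) (_ : Field K) (_ : Fintype K) (_ : DecidableEq K) (D : Iface K),
      Fintype.card K = 7 ^ h ∧ D.K0 ≤ Kc ∧ 29 * Fintype.card D.Y ≤ 7 ^ h := by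
  obtain ⟨h0, H⟩ := exists_raw
  refine ⟨49 * 7 ^ 60, h0, fun h hh hp => ?_⟩
  obtain ⟨K, i1, i2, i3, i4, hK⟩ := exists_field h hp.ne_zero
  obtain ⟨R, hR1, hR2⟩ := H h hh K hK
  refine ⟨K, i1, i2, i3, R.toIface, hK, hR1, ?_⟩
  rw [R.card_Y]
  exact hR2

/-- dual examples for arbitrarily large `r` -/
theorem exists_dual : ∀ N : ℕ, ∃ r ≥ N, DualExample r :=
  main_of (fun h K _ _ hh hK n N d h1 h2 h3 => NC.near_cover h K hh hK n N d h1 h2 h3)
    exists_iface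

/-- Ryser's conjecture fails -/
theorem ryser_false :
    (¬ ∀ r : ℕ, 2 ≤ r → ∀ H : PartiteHypergraph r, H.tau ≤ (r - 1) * H.nu) ∧
    (¬ ∀ r : ℕ, 2 ≤ r → ∀ H : PartiteHypergraph r, H.Intersecting → H.tau ≤ r - 1) ∧
    {r : ℕ | 2 ≤ r ∧ (∃ H : PartiteHypergraph r, H.Intersecting ∧ H.tau = r) ∧
      ∀ m : ℕ, 1 ≤ m → ∃ H : PartiteHypergraph r,
        H.nu = m ∧ H.tau = r * m ∧ ¬ H.tau ≤ (r - 1) * H.nu}.Infinite := by
  have hinf := final_of_dual exists_dual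
  obtain ⟨r, hr, ⟨H, hH, hHr⟩, hm⟩ := hinf.nonempty
  refine ⟨?_, ?_, hinf⟩
  · intro hall
    obtain ⟨H', -, -, h3⟩ := hm 1 le_rfl
    exact h3 (hall r hr H')
  · intro hall
    have h1 := hall r hr H hH
    omega

end Vale.Agent.P045
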