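import Mathlib

/-!
# P045: counting lemmas for covers of a system of partitions

A class `i` of blocks is given by a function `cls i : P → Lab`, its blocks are the fibres.
A family of blocks is a finite set of pairs `(i, label)`.
-/

namespace Vale.Agent.P045.Cov

open Finset

variable {I P Lab : Type*} [DecidableEq I] [DecidableEq P] [DecidableEq Lab]

/-- every point is in one of the blocks of `C` -/
def IsCover (cls : I → P → Lab) (C : Finset (I × Lab)) : Prop :=
  ∀ x : P, ∃ i, (i, cls i x) ∈ C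

/-- `x` is in the block of class `i` through `R`, and in no other block through `R` -/
def Priv (cls : I → P → Lab) (R : P) (i : I) (x : P) : Prop :=
  cls i x = cls i R ∧ ∀ j, j ≠ i → cls j x ≠ cls j R

theorem sum_biUnion_le_sum_sum {β : Type*} [DecidableEq β] (w : P → ℚ) (hw : ∀ x, 0 ≤ w x)
    (N : Finset β) (f : β → Finset P) :
    ∑ x ∈ N.biUnion f, w x ≤ ∑ b ∈ N, ∑ x ∈ f b, w x := by
  classical
  induction N using Finset.induction_on with
  | empty => simp
  | insert a s ha ih =>
    rw [biUnion_insert, sum_insert ha]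
    have h := sum_union_inter (s₁ := f a) (s₂ := s.biUnion f) (f := w)
    have h0 : 0 ≤ ∑ x ∈ f a ∩ s.biUnion f, w x := sum_nonneg (fun x _ => hw x)
    linarith

/-- **Parallel count.** -/
theorem covP (cls : I → P → Lab) (C : Finset (I × Lab)) (hC : IsCover cls C)
    (G : Finset (I × Lab)) (hG : G ⊆ C) (Y : Finset P) (K1 : ℕ)
    (hGY : ∀ b ∈ G, ∀ x ∈ Y, cls b.1 x ≠ b.2)
    (hK : ∀ b ∈ C, b ∉ G → (Y.filter (fun x => cls b.1 x = b.2)).card ≤ K1) :
    Y.card + K1 * G.card ≤ K1 * C.card := by
  classical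
  have h1 : Y ⊆ (C \ G).biUnion (fun b => Y.filter (fun x => cls b.1 x = b.2)) := by
    intro x hx
    obtain ⟨i, hi⟩ := hC x
    rw [mem_biUnion]
    refine ⟨(i, cls i x), ?_, ?_⟩
    · rw [mem_sdiff]
      exact ⟨hi, fun h => hGY _ h x hx rfl⟩
    · rw [mem_filter]
      exact ⟨hx, rfl⟩
  have h2 : Y.card ≤ (C \ G).card * K1 := by
    refine (card_le_card h1).trans (card_biUnion_le_card_mul _ _ _ ?_)
    intro b hb
    rw [mem_sdiff] at hb
    exact hK b hb.1 hb.2
  have h3 : (C \ G).card + G.card = C.card := card_sdiff_add_card_eq_card hG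
  calc Y.card + K1 * G.card ≤ (C \ G).card * K1 + K1 * G.card := by omega
    _ = K1 * C.card := by rw [← h3]; ring

/-- **Pencil count.** -/
theorem covR [Fintype I] [Fintype P] (cls : I → P → Lab) (C : Finset (I × Lab)) (hC : IsCover cls C)
    (R : P) (Big Bdd : Finset I) (hBB : Big ∪ Bdd = univ)
    (w : P → ℚ) (hw : ∀ x, 0 ≤ w x)
    (ha : ∀ i ∈ Bdd, ∃ T : Finset P, (∀ x ∈ T, Priv cls R i x) ∧ 1 ≤ ∑ x ∈ T, w x)
    (hb : ∀ i l, l ≠ cls i R → ∑ x ∈ univ.filter (fun x => cls i x = l), w x ≤ 53 / 60)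
    (e0 K0 q : ℕ)
    (hc : (Big.filter (fun i => (i, cls i R) ∉ C)).card ≤ e0)
    (hd : ∀ i ∈ Big, ∃ T : Finset P, (∀ x ∈ T, Priv cls R i x) ∧ q ≤ 2 * T.card ∧
      ∀ j l, l ≠ cls j R → (T.filter (fun x => cls j x = l)).card ≤ K0)
    (he : 18 * K0 * e0 < q) :
    Fintype.card I ≤ C.card := by
  classical
  by_contra hlt
  push Not at hlt
  -- own / non-own blocks of the cover
  set N : Finset (I × Lab) := C.filter (fun b => b.2 ≠ cls b.1 R) with hN
  set O : Finset (I × Lab) := C.filter (fun b => ¬ (b.2 ≠ cls b.1 R)) with hO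
  have hNO : N.card + O.card = C.card := card_filter_add_card_filter_not _
  set M : Finset I := univ.filter (fun i => (i, cls i R) ∉ C) with hM
  have hMO : O.card + M.card = Fintype.card I := by
    have h1 : O.card = (univ.filter (fun i => (i, cls i R) ∈ C)).card := by
      refine card_bij (fun b _ => b.1) ?_ ?_ ?_
      · rintro ⟨i, l⟩ hb
        simp only [hO, mem_filter, not_not] at hb
        simp only [mem_filter, mem_univ, true_and]
        obtain ⟨h1, h2⟩ := hb
        rw [← h2]; exact h1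
      · rintro ⟨i, l⟩ hb ⟨j, l'⟩ hb' heq
        simp only [hO, mem_filter, not_not] at hb hb'
        simp only at heq
        subst heq
        rw [hb.2, hb'.2]
      · intro i hi
        simp only [mem_filter, mem_univ, true_and] at hi
        exact ⟨(i, cls i R), by simp [hO, hi], rfl⟩
    rw [h1, hM]
    have := card_filter_add_card_filter_not (s := (univ : Finset I))
      (fun i => (i, cls i R) ∈ C)
    rw [card_univ] at this
    exact this
  -- a private point of a missing own block is in a non-own block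
  have hcov : ∀ i ∈ M, ∀ x, Priv cls R i x → ∃ b ∈ N, cls b.1 x = b.2 := by
    intro i hi x hx
    obtain ⟨j, hj⟩ := hC x
    refine ⟨(j, cls j x), ?_, rfl⟩
    simp only [hN, mem_filter]
    refine ⟨hj, ?_⟩
    by_cases hij : j = i
    · exfalso
      subst hij
      simp only [hM, mem_filter, mem_univ, true_and] at hi
      rw [hx.1] at hj
      exact hi hj
    · exact hx.2 j hij
  set c := (Big.filter (fun i => (i, cls i R) ∉ C)).card with hcdef
  set g := (Bdd.filter (fun i => (i, cls i R) ∉ C)).card with hgdef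
  have hMcg : M.card ≤ c + g := by
    have : M ⊆ Big.filter (fun i => (i, cls i R) ∉ C) ∪
        Bdd.filter (fun i => (i, cls i R) ∉ C) := by
      intro i hi
      simp only [hM, mem_filter, mem_univ, true_and] at hi
      have : i ∈ Big ∪ Bdd := by rw [hBB]; exact mem_univ i
      rw [mem_union] at this ⊢
      rcases this with h | h
      · left; simp [h, hi]
      · right; simp [h, hi]
    exact (card_le_card this).trans (card_union_le _ _)
  have hv1 : N.card + 1 ≤ c + g := by omega
  -- the weight inequality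
  choose! T hT1 hT2 using ha
  have hwt : (g : ℚ) ≤ 53 / 60 * N.card := by
    set S := Bdd.filter (fun i => (i, cls i R) ∉ C) with hS
    have hdisj : ∀ i ∈ S, ∀ j ∈ S, i ≠ j → Disjoint (T i) (T j) := by
      intro i hi j hj hij
      rw [Finset.disjoint_left]
      intro x hxi hxj
      have hi' : i ∈ Bdd := (mem_filter.1 hi).1
      have hj' : j ∈ Bdd := (mem_filter.1 hj).1
      exact (hT1 i hi' x hxi).2 j (Ne.symm hij) (hT1 j hj' x hxj).1
    have h1 : (g : ℚ) ≤ ∑ i ∈ S, ∑ x ∈ T i, w x := by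
      have : (g : ℚ) = ∑ i ∈ S, (1 : ℚ) := by simp [hgdef]
      rw [this]
      exact sum_le_sum (fun i hi => hT2 i (mem_filter.1 hi).1)
    have h2 : ∑ i ∈ S, ∑ x ∈ T i, w x = ∑ x ∈ S.biUnion T, w x := by
      rw [sum_biUnion]
      intro i hi j hj hij
      exact hdisj i hi j hj hij
    have h3 : ∑ x ∈ S.biUnion T, w x ≤
        ∑ b ∈ N, ∑ x ∈ univ.filter (fun x => cls b.1 x = b.2), w x := by
      have hsub : S.biUnion T ⊆ N.biUnion (fun b => univ.filter (fun x => cls b.1 x = b.2)) := by
        intro x hx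
        rw [mem_biUnion] at hx
        obtain ⟨i, hi, hxi⟩ := hx
        have hi' := mem_filter.1 hi
        have hiM : i ∈ M := by simp [hM, hi'.2]
        obtain ⟨b, hbN, hb2⟩ := hcov i hiM x (hT1 i hi'.1 x hxi)
        rw [mem_biUnion]
        exact ⟨b, hbN, by simp [hb2]⟩
      refine (sum_le_sum_of_subset_of_nonneg hsub (fun x _ _ => hw x)).trans ?_
      exact sum_biUnion_le_sum_sum w hw N _
    have h4 : ∑ b ∈ N, ∑ x ∈ univ.filter (fun x => cls b.1 x = b.2), w x ≤
        ∑ b ∈ N, (53 / 60 : ℚ) := by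
      refine sum_le_sum (fun b hb' => ?_)
      have := (mem_filter.1 hb').2
      exact hb b.1 b.2 this
    rw [sum_const, nsmul_eq_mul] at h4
    linarith
  have hv1' : (N.card : ℚ) + 1 ≤ c + g := by exact_mod_cast hv1
  have hv2 : (7 : ℚ) * N.card + 60 ≤ 60 * c := by linarith
  have hv3 : 7 * N.card + 60 ≤ 60 * c := by exact_mod_cast hv2
  have hcpos : 0 < c := by omega
  obtain ⟨i, hi⟩ := card_pos.1 hcpos
  rw [mem_filter] at hi
  obtain ⟨T', hT'1, hT'2, hT'3⟩ := hd i hi.1
  have hiM : i ∈ M := by simp [hM, hi.2]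
  have hsub : T' ⊆ N.biUnion (fun b => T'.filter (fun x => cls b.1 x = b.2)) := by
    intro x hx
    obtain ⟨b, hbN, hb2⟩ := hcov i hiM x (hT'1 x hx)
    rw [mem_biUnion]
    exact ⟨b, hbN, by simp [hb2, hx]⟩
  have h5 : T'.card ≤ N.card * K0 := by
    refine (card_le_card hsub).trans (card_biUnion_le_card_mul _ _ _ ?_)
    intro b hb'
    exact hT'3 b.1 b.2 (mem_filter.1 hb').2
  have h6 : N.card ≤ 9 * e0 := by omega
  have h7 : q ≤ 2 * (9 * e0 * K0) := by
    calc q ≤ 2 * T'.card := hT'2
      _ ≤ 2 * (N.card * K0) := by omega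
      _ ≤ 2 * (9 * e0 * K0) := by
        have := Nat.mul_le_mul_right K0 h6
        omega
  have h8 : 2 * (9 * e0 * K0) = 18 * K0 * e0 := by ring
  omega

end Vale.Agent.P045.Cov
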