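import Vale.Agent.P045.Cov
import Vale.Agent.P045.NCCases

/-!
# P045: cover analysis of the design, from an interface structure

Points `K × K`.  The line `(m,c)` is `z = (x-m)^2 + c`, its centres are its points with
`x = m` and `x = m + τ`.
-/

namespace Vale.Agent.P045

open Finset

open Classical in
/-- What the cover analysis needs to know about the design.  `H y` are the subgroups whose cosets
form the additional classes, `W1`, `W2` cut the two centre columns of a class of lines. -/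
structure Iface (K : Type) [Field K] [Fintype K] [DecidableEq K] where
  τ : K
  Y : Type
  [fY : Fintype Y]
  [dY : DecidableEq Y]
  H : Y → AddSubgroup (K × K)
  W1 : AddSubgroup K
  W2 : AddSubgroup K
  /-- abscissas of the weighted points -/
  M0 : Finset K
  Mt : Finset K
  Res : Finset K
  T : Y → Finset (K × K)
  K0 : ℕ
  hτ : τ ≠ 0
  h2 : (2 : K) ≠ 0
  pair0 : ∀ e : K, e ≠ 0 → ∃ y, ((e, e ^ 2) : K × K) ∈ H y
  pairt : ∀ e : K, e ≠ 0 → ∃ y, ((e, e ^ 2 + 2 * τ * e) : K × K) ∈ H y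
  pairv : ∀ v : K, v ∈ W1 ∨ v ∈ W2 ∨ ∃ y, ((0, v) : K × K) ∈ H y
  M0z : (0 : K) ∉ M0
  Mtz : (0 : K) ∉ Mt
  Resz : (0 : K) ∉ Res
  hK0 : 49 ≤ K0
  cardH : ∀ y, Nat.card (H y) ≤ K0
  cardW1 : Nat.card W1 = 7
  cardW2 : Nat.card W2 = 7
  W12 : ∀ v, v ∈ W1 → v ∈ W2 → v = 0
  W1Res : ∀ v ∈ W1, v ≠ 0 → v ∈ Res
  W2Res : ∀ v ∈ W2, v ≠ 0 → v ∈ Res
  W1H : ∀ v ∈ W1, ∀ y, ((0, v) : K × K) ∈ H y → v = 0
  W2H : ∀ v ∈ W2, ∀ y, ((0, v) : K × K) ∈ H y → v = 0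
  /-- columns -/
  colH : ∀ y, ∀ P : K × K, (univ.filter (fun Q : K × K => Q - P ∈ H y ∧
    (Q.1 = 0 ∨ Q.1 = τ))).card ≤ 49
  /-- weights of non-own cosets -/
  conic : ∀ y, ∀ P : K × K, P ∉ H y →
    (M0.filter (fun e => P + (e, e ^ 2) ∈ H y)).card +
    (Mt.filter (fun e => P + (e, e ^ 2 + 2 * τ * e) ∈ H y)).card ≤ 33
  resH : ∀ y, ∀ P : K × K, P ∉ H y → (Res.filter (fun v => P - (0, v) ∈ H y)).card ≤ 2
  resW1 : ∀ u : K, u ∉ W1 → (Res.filter (fun v => u - v ∈ W1)).card ≤ 2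
  resW2 : ∀ u : K, u ∉ W2 → (Res.filter (fun v => u - v ∈ W2)).card ≤ 2
  /-- private points -/
  T_H : ∀ y, ∀ Q ∈ T y, Q ∈ H y
  T_notH : ∀ y y', y' ≠ y → ∀ Q ∈ T y, Q ∉ H y'
  T_form : ∀ y, ∀ Q ∈ T y,
    (∃ e ∈ M0, Q = (-e, -e ^ 2)) ∨ (∃ e ∈ Mt, Q = (-e, -e ^ 2 - 2 * τ * e)) ∨
    (∃ v ∈ Res, v ∉ W1 ∧ v ∉ W2 ∧ Q = (0, v))
  T_card : ∀ y, 60 ≤ (M0.filter (fun e => ((-e, -e ^ 2) : K × K) ∈ T y)).card +
    (Mt.filter (fun e => ((-e, -e ^ 2 - 2 * τ * e) : K × K) ∈ T y)).card +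
    10 * (Res.filter (fun v => ((0, v) : K × K) ∈ T y)).card
  /-- own lines are not covered by own cosets -/
  d8 : ∀ m : K, m ≠ 0 → m ≠ -τ → 2 * (univ.filter (fun x : K => x ≠ 0 ∧
    ∃ y, ((x, x ^ 2 - 2 * m * x) : K × K) ∈ H y)).card + 6 ≤ Fintype.card K

attribute [instance] Iface.fY Iface.dY

end Vale.Agent.P045
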