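import Vale.Agent.P045.CovWt

/-!
# P045: covers that contain almost all lines through a point `R`
-/

namespace Vale.Agent.P045.Cov

open Finset

/-- `covR` with natural weights -/
theorem covN {I P Lab : Type*} [DecidableEq I] [DecidableEq P] [DecidableEq Lab]
    [Fintype I] [Fintype P] (cls : I → P → Lab) (C : Finset (I × Lab)) (hC : IsCover cls C)
    (R : P) (Big Bdd : Finset I) (hBB : Big ∪ Bdd = univ)
    (w : P → ℕ)
    (ha : ∀ i ∈ Bdd, ∃ T : Finset P, (∀ x ∈ T, Priv cls R i x) ∧ 60 ≤ ∑ x ∈ T, w x)
    (hb : ∀ i l, l ≠ cls i R → ∑ x ∈ univ.filter (fun x => cls i x = l), w x ≤ 53)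
    (e0 K0 q : ℕ)
    (hc : (Big.filter (fun i => (i, cls i R) ∉ C)).card ≤ e0)
    (hd : ∀ i ∈ Big, ∃ T : Finset P, (∀ x ∈ T, Priv cls R i x) ∧ q ≤ 2 * T.card ∧
      ∀ j l, l ≠ cls j R → (T.filter (fun x => cls j x = l)).card ≤ K0)
    (he : 18 * K0 * e0 < q) :
    Fintype.card I ≤ C.card := by
  refine covR cls C hC R Big Bdd hBB (fun x => (w x : ℚ) / 60) (fun x => by positivity)
    ?_ ?_ e0 K0 q hc hd he
  · intro i hi
    obtain ⟨T, hT, hT2⟩ := ha i hi
    refine ⟨T, hT, ?_⟩
    rw [← sum_div]
    have h : (60 : ℚ) ≤ ∑ x ∈ T, (w x : ℚ) := by exact_mod_cast hT2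
    rw [le_div_iff₀ (by norm_num)]
    linarith
  · intro i l hl
    have h := hb i l hl
    rw [← sum_div]
    have h : ∑ x ∈ univ.filter (fun x => cls i x = l), (w x : ℚ) ≤ 53 := by exact_mod_cast h
    rw [div_le_div_iff_of_pos_right (by norm_num)]
    exact h

end Vale.Agent.P045.Cov

namespace Vale.Agent.P045.Iface

open Finset

variable {K : Type} [Field K] [Fintype K] [DecidableEq K]

/-- private points of the coset `R + H y` -/
theorem priv_H (D : Iface K) (R : K × K) (y : D.Y) :
    ∃ T : Finset (K × K), (∀ x ∈ T, Cov.Priv D.cls R (.inr y) x) ∧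
      60 ≤ ∑ x ∈ T, D.wt (x - R) := by
  classical
  refine ⟨(D.T y).map (addRightEmbedding R), ?_, ?_⟩
  · intro x hx
    rw [mem_map] at hx
    obtain ⟨Q, hQ, rfl⟩ := hx
    simp only [addRightEmbedding_apply]
    refine ⟨?_, ?_⟩
    · rw [cls_eq]
      change R - (Q + R) ∈ D.H y
      have : R - (Q + R) = -Q := by abel
      rw [this]; exact neg_mem (D.T_H y Q hQ)
    · rintro (m | y') hj h
      · rw [cls_eq] at h
        rcases h with ⟨g1, g2, g3⟩ | ⟨g1, g2, g3⟩ | ⟨g1, g2, g3, g4, g5⟩
        · have hQ1 : Q.1 = 0 := by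
            simp only [Prod.fst_add] at g1
            rw [g2] at g1; simpa using g1
          rcases D.T_form y Q hQ with ⟨e, he, rfl⟩ | ⟨e, he, rfl⟩ | ⟨v, hv, h1, h2, rfl⟩
          · simp only at hQ1
            rw [neg_eq_zero.1 hQ1] at he; exact D.M0z he
          · simp only at hQ1
            rw [neg_eq_zero.1 hQ1] at he; exact D.Mtz he
          · apply h1
            have : v = -(R.2 - ((0, v) + R : K × K).2) := by simp
            rw [this]; exact neg_mem g3
        · have hQ1 : Q.1 = 0 := by
            simp only [Prod.fst_add] at g1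
            rw [g2] at g1; simpa using g1
          rcases D.T_form y Q hQ with ⟨e, he, rfl⟩ | ⟨e, he, rfl⟩ | ⟨v, hv, h1, h2, rfl⟩
          · simp only at hQ1
            rw [neg_eq_zero.1 hQ1] at he; exact D.M0z he
          · simp only at hQ1
            rw [neg_eq_zero.1 hQ1] at he; exact D.Mtz he
          · apply h2
            have : v = -(R.2 - ((0, v) + R : K × K).2) := by simp
            rw [this]; exact neg_mem g3
        · have h2 := D.h2
          rcases D.T_form y Q hQ with ⟨e, he, rfl⟩ | ⟨e, he, rfl⟩ | ⟨v, hv, h1, h2', rfl⟩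
          · have he0 : e ≠ 0 := by rintro rfl; exact D.M0z he
            simp only [Prod.fst_add, Prod.snd_add] at g1 g2 g5
            apply g1
            have : 2 * e * (e - (R.1 - m)) = 0 := by linear_combination -g5
            rcases mul_eq_zero.1 this with h | h
            · rcases mul_eq_zero.1 h with h | h
              · exact absurd h h2
              · exact absurd h he0
            · linear_combination -h
          · have he0 : e ≠ 0 := by rintro rfl; exact D.Mtz he
            simp only [Prod.fst_add, Prod.snd_add] at g1 g2 g5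
            apply g2
            have : 2 * e * (e + D.τ - (R.1 - m)) = 0 := by linear_combination -g5
            rcases mul_eq_zero.1 this with h | h
            · rcases mul_eq_zero.1 h with h | h
              · exact absurd h h2
              · exact absurd h he0
            · linear_combination -h
          · simp only [Prod.fst_add, Prod.snd_add] at g5
            have : v = 0 := by linear_combination g5
            rw [this] at hv
            exact D.Resz hv
      · rw [cls_eq] at h
        have h' : R - (Q + R) ∈ D.H y' := h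
        have hy : y' ≠ y := by
          rintro rfl; exact hj rfl
        apply D.T_notH y y' hy Q hQ
        have : Q = -(R - (Q + R)) := by abel
        rw [this]; exact neg_mem h'
  · rw [sum_map]
    have h0 : ∑ x ∈ D.T y, D.wt (addRightEmbedding R x - R) = ∑ x ∈ D.T y, D.wt (x - 0) := by
      refine sum_congr rfl (fun x _ => ?_)
      simp
    rw [h0, wt_sum]
    refine (D.T_card y).trans ?_
    have e1 : (D.M0.filter (fun e => ((-e, -e ^ 2) : K × K) ∈ D.T y)).card ≤
        ((D.T y).filter (fun Q => -(Q - 0).1 ∈ D.M0 ∧ (Q - 0).2 = -(Q - 0).1 ^ 2)).card := by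
      refine card_le_card_of_injOn (fun e => ((-e, -e ^ 2) : K × K)) ?_ ?_
      · intro e he
        rw [mem_coe, mem_filter] at he
        rw [mem_coe, mem_filter]
        refine ⟨he.2, ?_, ?_⟩
        · simpa using he.1
        · simp
      · intro e he e' he' h
        simpa using (congrArg Prod.fst h)
    have e2 : (D.Mt.filter (fun e => ((-e, -e ^ 2 - 2 * D.τ * e) : K × K) ∈ D.T y)).card ≤
        ((D.T y).filter (fun Q => -(Q - 0).1 ∈ D.Mt ∧
          (Q - 0).2 = -(Q - 0).1 ^ 2 + 2 * D.τ * (Q - 0).1)).card := by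
      refine card_le_card_of_injOn (fun e => ((-e, -e ^ 2 - 2 * D.τ * e) : K × K)) ?_ ?_
      · intro e he
        rw [mem_coe, mem_filter] at he
        rw [mem_coe, mem_filter]
        refine ⟨he.2, ?_, ?_⟩
        · simpa using he.1
        · simp only [sub_zero]; ring
      · intro e he e' he' h
        simpa using (congrArg Prod.fst h)
    have e3 : (D.Res.filter (fun v => ((0, v) : K × K) ∈ D.T y)).card ≤
        ((D.T y).filter (fun Q => (Q - 0).1 = 0 ∧ (Q - 0).2 ∈ D.Res)).card := by
      refine card_le_card_of_injOn (fun v => ((0, v) : K × K)) ?_ ?_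
      · intro e he
        rw [mem_coe, mem_filter] at he
        rw [mem_coe, mem_filter]
        refine ⟨he.2, ?_, ?_⟩
        · simp
        · simpa using he.1
      · intro e he e' he' h
        simpa using (congrArg Prod.snd h)
    omega

/-- private points of the small blocks of the classes of lines -/
theorem priv_W (D : Iface K) (R : K × K) (m : K) (hm : ¬ (m ≠ R.1 ∧ m ≠ R.1 - D.τ)) :
    ∃ T : Finset (K × K), (∀ x ∈ T, Cov.Priv D.cls R (.inl m) x) ∧
      60 ≤ ∑ x ∈ T, D.wt (x - R) := by
  classical
  have h2 := D.h2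
  have hcard : ∀ W : AddSubgroup K, Nat.card W = 7 →
      (univ.filter (fun v : K => v ∈ W ∧ v ≠ 0)).card = 6 := by
    intro W hW
    have h1 : (univ.filter (fun v : K => v ∈ W)).card = 7 := by
      rw [← hW, Nat.card_eq_fintype_card, Fintype.card_subtype]
    have h3 : (univ.filter (fun v : K => v ∈ W ∧ v ≠ 0)) =
        (univ.filter (fun v : K => v ∈ W)).erase 0 := by
      ext v
      simp only [mem_filter, mem_univ, true_and, mem_erase]
      tauto
    rw [h3, card_erase_of_mem, h1]
    simp only [mem_filter, mem_univ, true_and]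
    exact zero_mem W
  have hinj : Function.Injective (fun v : K => ((R.1, R.2 + v) : K × K)) := by
    intro a b h
    simpa using h
  have key : ∀ W : AddSubgroup K, (∀ v ∈ W, v ≠ 0 → v ∈ D.Res) → Nat.card W = 7 →
      60 ≤ ∑ x ∈ (univ.filter (fun v : K => v ∈ W ∧ v ≠ 0)).map
        ⟨_, hinj⟩, D.wt (x - R) := by
    intro W hW hW7
    rw [sum_map]
    have : ∀ v ∈ univ.filter (fun v : K => v ∈ W ∧ v ≠ 0),
        10 ≤ D.wt (((R.1, R.2 + v) : K × K) - R) := by
      intro v hv
      rw [mem_filter] at hv
      have h3 : ((R.1, R.2 + v) : K × K) - R = (0, v) := by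
        ext <;> simp
      rw [h3]
      unfold wt
      simp [hW v hv.2.1 hv.2.2]
    calc 60 = ∑ v ∈ univ.filter (fun v : K => v ∈ W ∧ v ≠ 0), 10 := by
          rw [sum_const, hcard W hW7]; rfl
      _ ≤ _ := sum_le_sum this
  by_cases h1 : m = R.1
  · refine ⟨_, ?_, key D.W1 D.W1Res D.cardW1⟩
    intro x hx
    rw [mem_map] at hx
    obtain ⟨v, hv, rfl⟩ := hx
    rw [mem_filter] at hv
    obtain ⟨-, hv1, hv0⟩ := hv
    simp only [Function.Embedding.coeFn_mk]
    refine ⟨?_, ?_⟩
    · rw [cls_eq]
      left
      refine ⟨h1.symm, h1.symm, ?_⟩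
      have : R.2 - (R.2 + v) = -v := by ring
      simp only [this]
      exact neg_mem hv1
    · rintro (m' | y) hj h
      · rw [cls_eq] at h
        rcases h with ⟨g1, g2, g3⟩ | ⟨g1, g2, g3⟩ | ⟨g1, g2, g3, g4, g5⟩
        · exact hj (by rw [← g2, h1])
        · have : R.2 - (R.2 + v) = -v := by ring
          simp only [this] at g3
          exact hv0 (D.W12 v hv1 (by simpa using neg_mem g3))
        · simp only at g5
          exact hv0 (by linear_combination g5)
      · rw [cls_eq] at h
        have h' : R - ((R.1, R.2 + v) : K × K) ∈ D.H y := h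
        have : ((0, v) : K × K) = -(R - ((R.1, R.2 + v) : K × K)) := by
          ext <;> simp
        exact hv0 (D.W1H v hv1 y (by rw [this]; exact neg_mem h'))
  · have h3 : m = R.1 - D.τ := by
      by_contra h; exact hm ⟨h1, h⟩
    have h4 : R.1 = m + D.τ := by rw [h3]; ring
    refine ⟨_, ?_, key D.W2 D.W2Res D.cardW2⟩
    intro x hx
    rw [mem_map] at hx
    obtain ⟨v, hv, rfl⟩ := hx
    rw [mem_filter] at hv
    obtain ⟨-, hv1, hv0⟩ := hv
    simp only [Function.Embedding.coeFn_mk]
    refine ⟨?_, ?_⟩
    · rw [cls_eq]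
      right; left
      refine ⟨h4, h4, ?_⟩
      have : R.2 - (R.2 + v) = -v := by ring
      simp only [this]
      exact neg_mem hv1
    · rintro (m' | y) hj h
      · rw [cls_eq] at h
        rcases h with ⟨g1, g2, g3⟩ | ⟨g1, g2, g3⟩ | ⟨g1, g2, g3, g4, g5⟩
        · have : R.2 - (R.2 + v) = -v := by ring
          simp only [this] at g3
          exact hv0 (D.W12 v (by simpa using neg_mem g3) hv1)
        · apply hj
          have : m' = m := by
            rw [h4] at g2
            exact (add_right_cancel g2).symm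
          rw [this]
        · simp only at g5
          exact hv0 (by linear_combination g5)
      · rw [cls_eq] at h
        have h' : R - ((R.1, R.2 + v) : K × K) ∈ D.H y := h
        have : ((0, v) : K × K) = -(R - ((R.1, R.2 + v) : K × K)) := by
          ext <;> simp
        exact hv0 (D.W2H v hv1 y (by rw [this]; exact neg_mem h'))

/-- private points of the lines through `R` -/
theorem priv_line (D : Iface K) (R : K × K) (m : K) (hm : m ≠ R.1 ∧ m ≠ R.1 - D.τ) :
    ∃ T : Finset (K × K), (∀ x ∈ T, Cov.Priv D.cls R (.inl m) x) ∧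
      Fintype.card K ≤ 2 * T.card ∧
      ∀ j l, l ≠ D.cls j R → (T.filter (fun x => D.cls j x = l)).card ≤ D.K0 := by
  classical
  have h2 := D.h2
  set n := m - R.1 with hn
  have hn0 : n ≠ 0 := sub_ne_zero.2 hm.1
  have hnt : n ≠ -D.τ := by
    intro h
    apply hm.2
    rw [hn] at h
    linear_combination h
  have hd8 := D.d8 n hn0 hnt
  set B := univ.filter (fun x : K => x ≠ 0 ∧
    ∃ y, ((x, x ^ 2 - 2 * n * x) : K × K) ∈ D.H y) with hB
  set X := (((univ \ B).erase 0).erase n).erase (n + D.τ) with hX
  have hXcard : Fintype.card K ≤ 2 * X.card := by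
    have h1 : (univ \ B).card + B.card = Fintype.card K := by
      rw [card_sdiff_add_card_eq_card (subset_univ B), card_univ]
    have h3 : (univ \ B).card - 1 ≤ ((univ \ B).erase 0).card := pred_card_le_card_erase
    have h4 : ((univ \ B).erase 0).card - 1 ≤ (((univ \ B).erase 0).erase n).card :=
      pred_card_le_card_erase
    have h5 : (((univ \ B).erase 0).erase n).card - 1 ≤ X.card := pred_card_le_card_erase
    omega
  have hXmem : ∀ x ∈ X, x ≠ 0 ∧ x ≠ n ∧ x ≠ n + D.τ ∧
      ∀ y, ((x, x ^ 2 - 2 * n * x) : K × K) ∉ D.H y := by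
    intro x hx
    rw [hX, mem_erase, mem_erase, mem_erase, mem_sdiff] at hx
    obtain ⟨h1, h3, h4, h5, h6⟩ := hx
    refine ⟨h4, h3, h1, ?_⟩
    intro y hy
    apply h6
    rw [hB, mem_filter]
    exact ⟨mem_univ _, h4, y, hy⟩
  have hinj : Function.Injective (fun x : K => ((R.1 + x, R.2 + (x ^ 2 - 2 * n * x)) : K × K)) := by
    intro a b h
    simpa using (congrArg Prod.fst h)
  refine ⟨X.map ⟨_, hinj⟩, ?_, ?_, ?_⟩
  · intro Q hQ
    rw [mem_map] at hQ
    obtain ⟨x, hx, rfl⟩ := hQ
    obtain ⟨h1, h3, h4, h5⟩ := hXmem x hx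
    simp only [Function.Embedding.coeFn_mk]
    refine ⟨?_, ?_⟩
    · rw [cls_eq]
      right; right
      refine ⟨?_, ?_, Ne.symm hm.1, ?_, ?_⟩
      · intro h
        simp only at h
        apply h3; rw [hn]; linear_combination h
      · intro h
        simp only at h
        apply h4; rw [hn]; linear_combination h
      · intro h
        apply hm.2; rw [h]; ring
      · simp only [hn]; ring
    · rintro (m' | y) hj h
      · rw [cls_eq] at h
        rcases h with ⟨g1, g2, g3⟩ | ⟨g1, g2, g3⟩ | ⟨g1, g2, g3, g4, g5⟩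
        · simp only at g1
          apply h1; rw [← g2] at g1; simpa using g1
        · simp only at g1
          apply h1; rw [← g2] at g1; simpa using g1
        · simp only at g5
          have : 2 * x * (m' - m) = 0 := by
            rw [hn] at g5
            linear_combination g5
          rcases mul_eq_zero.1 this with h | h
          · rcases mul_eq_zero.1 h with h | h
            · exact h2 h
            · exact h1 h
          · apply hj
            rw [sub_eq_zero.1 h]
      · rw [cls_eq] at h
        have h' : R - ((R.1 + x, R.2 + (x ^ 2 - 2 * n * x)) : K × K) ∈ D.H y := h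
        apply h5 y
        have : ((x, x ^ 2 - 2 * n * x) : K × K) =
            -(R - ((R.1 + x, R.2 + (x ^ 2 - 2 * n * x)) : K × K)) := by
          ext <;> simp
        rw [this]; exact neg_mem h'
  · rw [card_map]; exact hXcard
  · rintro (m' | y) l hl
    · refine le_trans ?_ (le_trans (by norm_num : 1 ≤ 49) D.hK0)
      rw [card_le_one]
      intro Q hQ Q' hQ'
      rw [mem_filter, mem_map] at hQ hQ'
      obtain ⟨⟨x, hx, rfl⟩, hxl⟩ := hQ
      obtain ⟨⟨x', hx', rfl⟩, hxl'⟩ := hQ'
      simp only [Function.Embedding.coeFn_mk] at hxl hxl' ⊢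
      have hrel : D.rel (.inl m') (R.1 + x, R.2 + (x ^ 2 - 2 * n * x))
          (R.1 + x', R.2 + (x' ^ 2 - 2 * n * x')) := by
        rw [← cls_eq, hxl, hxl']
      have hxx : x = x' := by
        rcases hrel with ⟨g1, g2, g3⟩ | ⟨g1, g2, g3⟩ | ⟨g1, g2, g3, g4, g5⟩
        · simp only at g1 g2
          rw [← g2] at g1; simpa using g1
        · simp only at g1 g2
          rw [← g2] at g1; simpa using g1
        · simp only at g5
          have h3 : 2 * (x - x') * (m' - m) = 0 := by
            rw [hn] at g5
            linear_combination g5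
          rcases mul_eq_zero.1 h3 with h | h
          · rcases mul_eq_zero.1 h with h | h
            · exact absurd h h2
            · exact sub_eq_zero.1 h
          · exfalso
            have hmm : m' = m := sub_eq_zero.1 h
            apply hl
            rw [← hxl, cls_eq]
            right; right
            refine ⟨g1, g2, ?_, ?_, ?_⟩
            · rw [hmm]; exact Ne.symm hm.1
            · rw [hmm]; intro h; apply hm.2; rw [h]; ring
            · simp only [hmm, hn]; ring
      rw [hxx]
    · refine le_trans ?_ (D.cardH y)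
      rcases ((X.map ⟨_, hinj⟩).filter (fun x => D.cls (.inr y) x = l)).eq_empty_or_nonempty with
        h | ⟨P, hP⟩
      · rw [h]; simp
      · rw [Nat.card_eq_fintype_card, Fintype.card_subtype]
        refine card_le_card_of_injOn (fun Q => Q - P) ?_ ?_
        · intro Q hQ
          rw [mem_coe, mem_filter] at hQ
          rw [mem_filter] at hP
          rw [mem_coe, mem_filter]
          refine ⟨mem_univ _, ?_⟩
          have : D.rel (.inr y) P Q := by rw [← cls_eq, hP.2, hQ.2]
          exact this
        · intro Q _ Q' _ h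
          exact sub_left_injective h

/-- **Pencil case.** -/
theorem pencil_case (D : Iface K) (C : Finset ((K ⊕ D.Y) × (K × K)))
    (hC : Cov.IsCover D.cls C) (R : K × K) (e0 : ℕ)
    (hc : (univ.filter (fun m : K => (m ≠ R.1 ∧ m ≠ R.1 - D.τ) ∧
      ((Sum.inl m : K ⊕ D.Y), D.cls (.inl m) R) ∉ C)).card ≤ e0)
    (he : 18 * D.K0 * e0 < Fintype.card K) :
    Fintype.card K + Fintype.card D.Y ≤ C.card := by
  classical
  set Big : Finset (K ⊕ D.Y) :=
    univ.filter (fun i => ∃ m : K, (m ≠ R.1 ∧ m ≠ R.1 - D.τ) ∧ i = .inl m) with hBig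
  have hI : Fintype.card (K ⊕ D.Y) = Fintype.card K + Fintype.card D.Y := Fintype.card_sum
  rw [← hI]
  refine Cov.covN D.cls C hC R Big (univ \ Big) (by simp) (fun x => D.wt (x - R)) ?_ ?_ e0
    D.K0 (Fintype.card K) ?_ ?_ he
  · rintro (m | y) hi
    · refine D.priv_W R m ?_
      intro h
      rw [mem_sdiff, hBig, mem_filter] at hi
      exact hi.2 ⟨mem_univ _, m, h, rfl⟩
    · exact D.priv_H R y
  · intro i l hl
    exact D.wt_block R i l hl
  · refine le_trans ?_ hc
    refine card_le_card_of_surjOn (fun m : K => (Sum.inl m : K ⊕ D.Y)) ?_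
    intro i hi
    rw [mem_coe, mem_filter, hBig, mem_filter] at hi
    obtain ⟨⟨-, m, hm, rfl⟩, hi2⟩ := hi
    refine ⟨m, ?_, rfl⟩
    rw [mem_coe, mem_filter]
    exact ⟨mem_univ _, hm, hi2⟩
  · intro i hi
    rw [hBig, mem_filter] at hi
    obtain ⟨-, m, hm, rfl⟩ := hi
    exact D.priv_line R m hm

end Vale.Agent.P045.Iface
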