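import Vale.Agent.P045.CovMain

/-!
# P045: the classes of the design are partitions and any two points agree in some class
-/

namespace Vale.Agent.P045.Iface

open Finset

variable {K : Type} [Field K] [Fintype K] [DecidableEq K]

/-- `P` and `Q` are in the same block of class `i` -/
def rel (D : Iface K) : K ⊕ D.Y → K × K → K × K → Prop
  | .inl m, P, Q => (P.1 = m ∧ Q.1 = m ∧ Q.2 - P.2 ∈ D.W1) ∨
      (P.1 = m + D.τ ∧ Q.1 = m + D.τ ∧ Q.2 - P.2 ∈ D.W2) ∨
      (P.1 ≠ m ∧ P.1 ≠ m + D.τ ∧ Q.1 ≠ m ∧ Q.1 ≠ m + D.τ ∧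
        P.2 - (P.1 - m) ^ 2 = Q.2 - (Q.1 - m) ^ 2)
  | .inr y, P, Q => Q - P ∈ D.H y

theorem rel_equiv (D : Iface K) (i : K ⊕ D.Y) : Equivalence (D.rel i) := by
  rcases i with m | y
  · refine ⟨?_, ?_, ?_⟩
    · intro P
      by_cases h1 : P.1 = m
      · left; exact ⟨h1, h1, by simp⟩
      · by_cases h2 : P.1 = m + D.τ
        · right; left; exact ⟨h2, h2, by simp⟩
        · right; right; exact ⟨h1, h2, h1, h2, rfl⟩
    · intro P Q h
      rcases h with ⟨h1, h2, h3⟩ | ⟨h1, h2, h3⟩ | ⟨h1, h2, h3, h4, h5⟩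
      · left; refine ⟨h2, h1, ?_⟩
        rw [← neg_sub]; exact neg_mem h3
      · right; left; refine ⟨h2, h1, ?_⟩
        rw [← neg_sub]; exact neg_mem h3
      · right; right; exact ⟨h3, h4, h1, h2, h5.symm⟩
    · intro P Q S h h'
      have hne : ∀ x : K, x = m → x = m + D.τ → False := by
        intro x hx hx'
        rw [hx] at hx'
        exact D.hτ (by simpa using hx'.symm)
      rcases h with ⟨h1, h2, h3⟩ | ⟨h1, h2, h3⟩ | ⟨h1, h2, h3, h4, h5⟩
      · rcases h' with ⟨g1, g2, g3⟩ | ⟨g1, g2, g3⟩ | ⟨g1, g2, g3, g4, g5⟩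
        · left; refine ⟨h1, g2, ?_⟩
          have := add_mem g3 h3
          rwa [sub_add_sub_cancel] at this
        · exact (hne _ h2 g1).elim
        · exact (g1 h2).elim
      · rcases h' with ⟨g1, g2, g3⟩ | ⟨g1, g2, g3⟩ | ⟨g1, g2, g3, g4, g5⟩
        · exact (hne _ g1 h2).elim
        · right; left; refine ⟨h1, g2, ?_⟩
          have := add_mem g3 h3
          rwa [sub_add_sub_cancel] at this
        · exact (g2 h2).elim
      · rcases h' with ⟨g1, g2, g3⟩ | ⟨g1, g2, g3⟩ | ⟨g1, g2, g3, g4, g5⟩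
        · exact (h3 g1).elim
        · exact (h4 g1).elim
        · right; right; exact ⟨h1, h2, g3, g4, h5.trans g5⟩
  · refine ⟨?_, ?_, ?_⟩
    · intro P
      change P - P ∈ D.H y
      rw [sub_self]; exact zero_mem _
    · intro P Q h
      change P - Q ∈ D.H y
      rw [← neg_sub]; exact neg_mem h
    · intro P Q S h h'
      change S - P ∈ D.H y
      have := add_mem (show S - Q ∈ D.H y from h') (show Q - P ∈ D.H y from h)
      rwa [sub_add_sub_cancel] at this

/-- block labels -/
noncomputable def cls (D : Iface K) (i : K ⊕ D.Y) (P : K × K) : K × K :=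
  Quotient.out (Quotient.mk ⟨D.rel i, D.rel_equiv i⟩ P)

theorem cls_eq (D : Iface K) (i : K ⊕ D.Y) (P Q : K × K) :
    D.cls i P = D.cls i Q ↔ D.rel i P Q := by
  unfold cls
  rw [Quotient.out_inj]
  exact Quotient.eq (r := ⟨D.rel i, D.rel_equiv i⟩)

/-- **The design is intersecting.** -/
theorem pairs (D : Iface K) (P Q : K × K) : ∃ i, D.cls i P = D.cls i Q := by
  simp only [cls_eq]
  have h2 := D.h2
  by_cases hx : P.1 = Q.1
  · rcases D.pairv (Q.2 - P.2) with h | h | ⟨y, h⟩
    · exact ⟨.inl P.1, Or.inl ⟨rfl, hx.symm, h⟩⟩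
    · refine ⟨.inl (P.1 - D.τ), Or.inr (Or.inl ⟨by ring, by rw [← hx]; ring, h⟩)⟩
    · refine ⟨.inr y, ?_⟩
      change Q - P ∈ D.H y
      have : Q - P = (0, Q.2 - P.2) := by
        ext
        · simp [hx]
        · simp
      rwa [this]
  · set a := Q.1 - P.1 with ha
    have ha0 : a ≠ 0 := fun h => hx (sub_eq_zero.1 h).symm
    set m := (Q.1 + P.1 - (Q.2 - P.2) / a) / 2 with hm
    have key : Q.2 - P.2 = a * (Q.1 + P.1 - 2 * m) := by
      rw [hm]; field_simp; ring
    by_cases h1 : P.1 = m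
    · obtain ⟨y, hy⟩ := D.pair0 a ha0
      refine ⟨.inr y, ?_⟩
      change Q - P ∈ D.H y
      have : Q - P = (a, a ^ 2) := by
        ext
        · simp [ha]
        · simp only [Prod.snd_sub]
          rw [key, ← h1, ha]; ring
      rwa [this]
    by_cases h3 : P.1 = m + D.τ
    · obtain ⟨y, hy⟩ := D.pairt a ha0
      refine ⟨.inr y, ?_⟩
      change Q - P ∈ D.H y
      have : Q - P = (a, a ^ 2 + 2 * D.τ * a) := by
        ext
        · simp [ha]
        · simp only [Prod.snd_sub]
          have : m = P.1 - D.τ := by rw [h3]; ring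
          rw [key, this, ha]; ring
      rwa [this]
    by_cases h4 : Q.1 = m
    · obtain ⟨y, hy⟩ := D.pair0 (-a) (neg_ne_zero.2 ha0)
      refine ⟨.inr y, ?_⟩
      change Q - P ∈ D.H y
      have : Q - P = -((-a, (-a) ^ 2) : K × K) := by
        ext
        · simp [ha]
        · simp only [Prod.snd_sub, Prod.snd_neg]
          rw [key, ← h4, ha]; ring
      rw [this]
      exact neg_mem hy
    by_cases h5 : Q.1 = m + D.τ
    · obtain ⟨y, hy⟩ := D.pairt (-a) (neg_ne_zero.2 ha0)
      refine ⟨.inr y, ?_⟩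
      change Q - P ∈ D.H y
      have : Q - P = -((-a, (-a) ^ 2 + 2 * D.τ * (-a)) : K × K) := by
        ext
        · simp [ha]
        · simp only [Prod.snd_sub, Prod.snd_neg]
          have : m = Q.1 - D.τ := by rw [h5]; ring
          rw [key, this, ha]; ring
      rw [this]
      exact neg_mem hy
    refine ⟨.inl m, Or.inr (Or.inr ⟨h1, h3, h4, h5, ?_⟩)⟩
    have : Q.2 = P.2 + a * (Q.1 + P.1 - 2 * m) := by rw [← key]; ring
    rw [this, ha]; ring

/-- a quadratic equation has at most two solutions -/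
theorem card_quad_le {K : Type} [Field K] [Fintype K] [DecidableEq K] (a b c : K)
    (ha : a ≠ 0) : (univ.filter (fun x : K => a * x ^ 2 + b * x + c = 0)).card ≤ 2 := by
  classical
  set f : Polynomial K := Polynomial.C a * Polynomial.X ^ 2 + Polynomial.C b * Polynomial.X +
    Polynomial.C c with hf
  have hdeg : f.natDegree = 2 := Polynomial.natDegree_quadratic ha
  have hf0 : f ≠ 0 := by
    intro h; rw [h] at hdeg; simp at hdeg
  have hsub : (univ.filter (fun x : K => a * x ^ 2 + b * x + c = 0)) ⊆ f.roots.toFinset := by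
    intro x hx
    rw [Multiset.mem_toFinset, Polynomial.mem_roots hf0, Polynomial.IsRoot.def]
    rw [mem_filter] at hx
    simp only [hf, Polynomial.eval_add, Polynomial.eval_mul, Polynomial.eval_C,
      Polynomial.eval_pow, Polynomial.eval_X]
    exact hx.2
  calc _ ≤ f.roots.toFinset.card := card_le_card hsub
    _ ≤ Multiset.card f.roots := Multiset.toFinset_card_le _
    _ ≤ f.natDegree := Polynomial.card_roots' f
    _ = 2 := hdeg

end Vale.Agent.P045.Iface
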