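import Vale.Agent.P045.CovRel

/-!
# P045: weights of blocks that do not contain the point `R`
-/

namespace Vale.Agent.P045.Iface

open Finset

variable {K : Type} [Field K] [Fintype K] [DecidableEq K]

/-- weights (times 60) of the points, relative to the origin -/
def wt (D : Iface K) (P : K × K) : ℕ :=
  (if -P.1 ∈ D.M0 ∧ P.2 = -P.1 ^ 2 then 1 else 0) +
  (if -P.1 ∈ D.Mt ∧ P.2 = -P.1 ^ 2 + 2 * D.τ * P.1 then 1 else 0) +
  (if P.1 = 0 ∧ P.2 ∈ D.Res then 10 else 0)

theorem wt_sum (D : Iface K) (S : Finset (K × K)) (R : K × K) :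
    ∑ Q ∈ S, D.wt (Q - R) =
      (S.filter (fun Q => -(Q - R).1 ∈ D.M0 ∧ (Q - R).2 = -(Q - R).1 ^ 2)).card +
      (S.filter (fun Q => -(Q - R).1 ∈ D.Mt ∧
        (Q - R).2 = -(Q - R).1 ^ 2 + 2 * D.τ * (Q - R).1)).card +
      10 * (S.filter (fun Q => (Q - R).1 = 0 ∧ (Q - R).2 ∈ D.Res)).card := by
  classical
  unfold wt
  rw [sum_add_distrib, sum_add_distrib, card_filter, card_filter, card_filter, mul_sum]
  congr 1
  refine sum_congr rfl (fun Q _ => ?_)
  split_ifs <;> simp

/-- cosets of `H y` -/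
theorem wt_H (D : Iface K) (y : D.Y) (P R : K × K) (hR : ¬ R - P ∈ D.H y) (S : Finset (K × K))
    (hS : ∀ Q ∈ S, Q - P ∈ D.H y) : ∑ Q ∈ S, D.wt (Q - R) ≤ 53 := by
  classical
  have hPR : P - R ∉ D.H y := by
    intro h
    apply hR
    rw [← neg_sub]; exact neg_mem h
  have h1 := D.conic y (P - R) hPR
  have h2 := D.resH y (P - R) hPR
  rw [wt_sum]
  have e1 : (S.filter (fun Q => -(Q - R).1 ∈ D.M0 ∧ (Q - R).2 = -(Q - R).1 ^ 2)).card ≤
      (D.M0.filter (fun e => (P - R) + (e, e ^ 2) ∈ D.H y)).card := by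
    refine card_le_card_of_injOn (fun Q => -(Q - R).1) ?_ ?_
    · intro Q hQ
      rw [mem_coe, mem_filter] at hQ
      rw [mem_coe, mem_filter]
      refine ⟨hQ.2.1, ?_⟩
      have : (P - R) + ((-(Q - R).1, (-(Q - R).1) ^ 2) : K × K) = -(Q - P) := by
        ext
        · simp
        · simp only [Prod.snd_add, Prod.snd_sub, Prod.snd_neg]
          have h := hQ.2.2
          simp only [Prod.snd_sub] at h
          linear_combination h
      rw [this]
      exact neg_mem (hS Q hQ.1)
    · intro Q hQ Q' hQ' h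
      rw [mem_coe, mem_filter] at hQ hQ'
      simp only at h
      have h3 : (Q - R).1 = (Q' - R).1 := neg_injective h
      have h4 : (Q - R).2 = (Q' - R).2 := by rw [hQ.2.2, hQ'.2.2, h3]
      have : Q - R = Q' - R := Prod.ext h3 h4
      exact sub_left_injective this
  have e2 : (S.filter (fun Q => -(Q - R).1 ∈ D.Mt ∧
      (Q - R).2 = -(Q - R).1 ^ 2 + 2 * D.τ * (Q - R).1)).card ≤
      (D.Mt.filter (fun e => (P - R) + (e, e ^ 2 + 2 * D.τ * e) ∈ D.H y)).card := by
    refine card_le_card_of_injOn (fun Q => -(Q - R).1) ?_ ?_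
    · intro Q hQ
      rw [mem_coe, mem_filter] at hQ
      rw [mem_coe, mem_filter]
      refine ⟨hQ.2.1, ?_⟩
      have : (P - R) + ((-(Q - R).1, (-(Q - R).1) ^ 2 + 2 * D.τ * (-(Q - R).1)) : K × K)
          = -(Q - P) := by
        ext
        · simp
        · simp only [Prod.snd_add, Prod.snd_sub, Prod.snd_neg]
          have h := hQ.2.2
          simp only [Prod.snd_sub] at h
          linear_combination h
      rw [this]
      exact neg_mem (hS Q hQ.1)
    · intro Q hQ Q' hQ' h
      rw [mem_coe, mem_filter] at hQ hQ'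
      simp only at h
      have h3 : (Q - R).1 = (Q' - R).1 := neg_injective h
      have h4 : (Q - R).2 = (Q' - R).2 := by rw [hQ.2.2, hQ'.2.2, h3]
      have : Q - R = Q' - R := Prod.ext h3 h4
      exact sub_left_injective this
  have e3 : (S.filter (fun Q => (Q - R).1 = 0 ∧ (Q - R).2 ∈ D.Res)).card ≤
      (D.Res.filter (fun v => (P - R) - (0, v) ∈ D.H y)).card := by
    refine card_le_card_of_injOn (fun Q => (Q - R).2) ?_ ?_
    · intro Q hQ
      rw [mem_coe, mem_filter] at hQ
      rw [mem_coe, mem_filter]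
      refine ⟨hQ.2.2, ?_⟩
      have : (P - R) - ((0, (Q - R).2) : K × K) = -(Q - P) := by
        have h := hQ.2.1
        simp only [Prod.fst_sub] at h
        ext
        · simp only [Prod.fst_sub, Prod.fst_neg]
          linear_combination h
        · simp
      rw [this]
      exact neg_mem (hS Q hQ.1)
    · intro Q hQ Q' hQ' h
      rw [mem_coe, mem_filter] at hQ hQ'
      simp only at h
      have h3 : (Q - R).1 = (Q' - R).1 := by rw [hQ.2.1, hQ'.2.1]
      have : Q - R = Q' - R := Prod.ext h3 h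
      exact sub_left_injective this
  omega

/-- a set of points with the same abscissa -/
theorem wt_col (D : Iface K) (x0 : K) (R : K × K) (S : Finset (K × K))
    (hS : ∀ Q ∈ S, Q.1 = x0)
    (h3 : (S.filter (fun Q => (Q - R).1 = 0 ∧ (Q - R).2 ∈ D.Res)).card ≤ 2) :
    ∑ Q ∈ S, D.wt (Q - R) ≤ 53 := by
  classical
  rw [wt_sum]
  have e1 : (S.filter (fun Q => -(Q - R).1 ∈ D.M0 ∧ (Q - R).2 = -(Q - R).1 ^ 2)).card ≤ 1 := by
    rw [card_le_one]
    intro Q hQ Q' hQ'
    rw [mem_filter] at hQ hQ'
    have h1 : (Q - R).1 = (Q' - R).1 := by simp [hS Q hQ.1, hS Q' hQ'.1]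
    have h4 : (Q - R).2 = (Q' - R).2 := by rw [hQ.2.2, hQ'.2.2, h1]
    exact sub_left_injective (Prod.ext h1 h4)
  have e2 : (S.filter (fun Q => -(Q - R).1 ∈ D.Mt ∧
      (Q - R).2 = -(Q - R).1 ^ 2 + 2 * D.τ * (Q - R).1)).card ≤ 1 := by
    rw [card_le_one]
    intro Q hQ Q' hQ'
    rw [mem_filter] at hQ hQ'
    have h1 : (Q - R).1 = (Q' - R).1 := by simp [hS Q hQ.1, hS Q' hQ'.1]
    have h4 : (Q - R).2 = (Q' - R).2 := by rw [hQ.2.2, hQ'.2.2, h1]
    exact sub_left_injective (Prod.ext h1 h4)
  omega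

/-- a set of points on a line -/
theorem wt_line (D : Iface K) (m c : K) (R : K × K) (S : Finset (K × K))
    (hS : ∀ Q ∈ S, Q.2 = (Q.1 - m) ^ 2 + c) :
    ∑ Q ∈ S, D.wt (Q - R) ≤ 53 := by
  classical
  rw [wt_sum]
  have h2 := D.h2
  have e1 : (S.filter (fun Q => -(Q - R).1 ∈ D.M0 ∧ (Q - R).2 = -(Q - R).1 ^ 2)).card ≤ 2 := by
    refine le_trans ?_ (card_quad_le (K := K) 2 (-2 * (m + R.1))
      (m ^ 2 + c - R.2 + R.1 ^ 2) h2)
    refine card_le_card_of_injOn (fun Q => Q.1) ?_ ?_
    · intro Q hQ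
      rw [mem_coe, mem_filter] at hQ
      rw [mem_coe, mem_filter]
      refine ⟨mem_univ _, ?_⟩
      have h := hQ.2.2
      have h' := hS Q hQ.1
      simp only [Prod.snd_sub, Prod.fst_sub] at h
      linear_combination h - h'
    · intro Q hQ Q' hQ' h
      rw [mem_coe, mem_filter] at hQ hQ'
      simp only at h
      refine Prod.ext h ?_
      rw [hS Q hQ.1, hS Q' hQ'.1, h]
  have e2 : (S.filter (fun Q => -(Q - R).1 ∈ D.Mt ∧
      (Q - R).2 = -(Q - R).1 ^ 2 + 2 * D.τ * (Q - R).1)).card ≤ 2 := by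
    refine le_trans ?_ (card_quad_le (K := K) 2 (-2 * (m + R.1) - 2 * D.τ)
      (m ^ 2 + c - R.2 + R.1 ^ 2 + 2 * D.τ * R.1) h2)
    refine card_le_card_of_injOn (fun Q => Q.1) ?_ ?_
    · intro Q hQ
      rw [mem_coe, mem_filter] at hQ
      rw [mem_coe, mem_filter]
      refine ⟨mem_univ _, ?_⟩
      have h := hQ.2.2
      have h' := hS Q hQ.1
      simp only [Prod.snd_sub, Prod.fst_sub] at h
      linear_combination h - h'
    · intro Q hQ Q' hQ' h
      rw [mem_coe, mem_filter] at hQ hQ'
      simp only at h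
      refine Prod.ext h ?_
      rw [hS Q hQ.1, hS Q' hQ'.1, h]
  have e3 : (S.filter (fun Q => (Q - R).1 = 0 ∧ (Q - R).2 ∈ D.Res)).card ≤ 1 := by
    rw [card_le_one]
    intro Q hQ Q' hQ'
    rw [mem_filter] at hQ hQ'
    have h1 : (Q - R).1 = (Q' - R).1 := by rw [hQ.2.1, hQ'.2.1]
    have h1' : Q.1 = Q'.1 := by
      simp only [Prod.fst_sub] at h1
      linear_combination h1
    refine Prod.ext h1' ?_
    rw [hS Q hQ.1, hS Q' hQ'.1, h1']
  omega

/-- **every block not containing `R` has weight at most 53** -/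
theorem wt_block (D : Iface K) (R : K × K) (i : K ⊕ D.Y) (l : K × K) (hl : l ≠ D.cls i R) :
    ∑ Q ∈ univ.filter (fun Q => D.cls i Q = l), D.wt (Q - R) ≤ 53 := by
  classical
  rcases (univ.filter (fun Q => D.cls i Q = l)).eq_empty_or_nonempty with h | ⟨P, hP⟩
  · rw [h]; simp
  rw [mem_filter] at hP
  have hPl := hP.2
  have hPR : ¬ D.rel i P R := by
    rw [← cls_eq, hPl]; exact hl
  have hrel : ∀ Q ∈ univ.filter (fun Q => D.cls i Q = l), D.rel i P Q := by
    intro Q hQ
    rw [mem_filter] at hQ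
    rw [← cls_eq, hPl, hQ.2]
  rcases i with m | y
  · by_cases h1 : P.1 = m
    · refine D.wt_col m R _ ?_ ?_
      · intro Q hQ
        rcases hrel Q hQ with ⟨_, g2, _⟩ | ⟨g1, _, _⟩ | ⟨g1, _⟩
        · exact g2
        · exact absurd (by rw [h1] at g1; simpa using g1.symm) D.hτ
        · exact absurd h1 g1
      · by_cases hR : R.1 = m
        · have hu : P.2 - R.2 ∉ D.W1 := by
            intro h
            apply hPR
            left
            refine ⟨h1, hR, ?_⟩
            rw [← neg_sub]; exact neg_mem h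
          refine le_trans ?_ (D.resW1 _ hu)
          refine card_le_card_of_injOn (fun Q => (Q - R).2) ?_ ?_
          · intro Q hQ
            rw [mem_coe, mem_filter] at hQ
            rw [mem_coe, mem_filter]
            refine ⟨hQ.2.2, ?_⟩
            rcases hrel Q hQ.1 with ⟨_, _, g3⟩ | ⟨g1, _, _⟩ | ⟨g1, _⟩
            · have : P.2 - R.2 - (Q - R).2 = -(Q.2 - P.2) := by
                simp only [Prod.snd_sub]; ring
              rw [this]; exact neg_mem g3
            · exact absurd (by rw [h1] at g1; simpa using g1.symm) D.hτ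
            · exact absurd h1 g1
          · intro Q hQ Q' hQ' h
            rw [mem_coe, mem_filter] at hQ hQ'
            simp only at h
            have h3 : (Q - R).1 = (Q' - R).1 := by rw [hQ.2.1, hQ'.2.1]
            exact sub_left_injective (Prod.ext h3 h)
        · have : ((univ.filter (fun Q => D.cls (Sum.inl m) Q = l)).filter
              (fun Q => (Q - R).1 = 0 ∧ (Q - R).2 ∈ D.Res)) = ∅ := by
            rw [filter_eq_empty_iff]
            rintro Q hQ ⟨h3, _⟩
            apply hR
            have hQ1 : Q.1 = m := by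
              rcases hrel Q hQ with ⟨_, g2, _⟩ | ⟨g1, _, _⟩ | ⟨g1, _⟩
              · exact g2
              · exact absurd (by rw [h1] at g1; simpa using g1.symm) D.hτ
              · exact absurd h1 g1
            simp only [Prod.fst_sub] at h3
            rw [← hQ1]; exact (sub_eq_zero.1 h3).symm
          rw [this]; simp
    by_cases h2 : P.1 = m + D.τ
    · refine D.wt_col (m + D.τ) R _ ?_ ?_
      · intro Q hQ
        rcases hrel Q hQ with ⟨g1, _, _⟩ | ⟨_, g2, _⟩ | ⟨_, g1, _⟩
        · exact absurd g1 h1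
        · exact g2
        · exact absurd h2 g1
      · by_cases hR : R.1 = m + D.τ
        · have hu : P.2 - R.2 ∉ D.W2 := by
            intro h
            apply hPR
            right; left
            refine ⟨h2, hR, ?_⟩
            rw [← neg_sub]; exact neg_mem h
          refine le_trans ?_ (D.resW2 _ hu)
          refine card_le_card_of_injOn (fun Q => (Q - R).2) ?_ ?_
          · intro Q hQ
            rw [mem_coe, mem_filter] at hQ
            rw [mem_coe, mem_filter]
            refine ⟨hQ.2.2, ?_⟩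
            rcases hrel Q hQ.1 with ⟨g1, _, _⟩ | ⟨_, _, g3⟩ | ⟨_, g1, _⟩
            · exact absurd g1 h1
            · have : P.2 - R.2 - (Q - R).2 = -(Q.2 - P.2) := by
                simp only [Prod.snd_sub]; ring
              rw [this]; exact neg_mem g3
            · exact absurd h2 g1
          · intro Q hQ Q' hQ' h
            rw [mem_coe, mem_filter] at hQ hQ'
            simp only at h
            have h3 : (Q - R).1 = (Q' - R).1 := by rw [hQ.2.1, hQ'.2.1]
            exact sub_left_injective (Prod.ext h3 h)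
        · have : ((univ.filter (fun Q => D.cls (Sum.inl m) Q = l)).filter
              (fun Q => (Q - R).1 = 0 ∧ (Q - R).2 ∈ D.Res)) = ∅ := by
            rw [filter_eq_empty_iff]
            rintro Q hQ ⟨h3, _⟩
            apply hR
            have hQ1 : Q.1 = m + D.τ := by
              rcases hrel Q hQ with ⟨g1, _, _⟩ | ⟨_, g2, _⟩ | ⟨_, g1, _⟩
              · exact absurd g1 h1
              · exact g2
              · exact absurd h2 g1
            simp only [Prod.fst_sub] at h3
            rw [← hQ1]; exact (sub_eq_zero.1 h3).symm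
          rw [this]; simp
    · refine D.wt_line m (P.2 - (P.1 - m) ^ 2) R _ ?_
      intro Q hQ
      rcases hrel Q hQ with ⟨g1, _, _⟩ | ⟨g1, _, _⟩ | ⟨_, _, _, _, g5⟩
      · exact absurd g1 h1
      · exact absurd g1 h2
      · rw [g5]; ring
  · refine D.wt_H y P R hPR _ ?_
    intro Q hQ
    exact hrel Q hQ

end Vale.Agent.P045.Iface
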