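import Vale.Agent.P045.MkRaw
import Vale.Agent.P045.MkIface

/-!
# P045: the interface structure exists for all large `h`
-/

namespace Vale.Agent.P045

/-- from `Raw` to helper91's `Mk.Raw` -/
noncomputable def Raw.toMk {K : Type} [Field K] [Fintype K] [DecidableEq K] [Algebra (ZMod 7) K]
    (R : Raw K) : Mk.Raw K where
  τ := R.tau
  hτ := R.htau
  h2 := R.h2
  J := R.J
  fJ := R.fJ
  dJ := R.dJ
  lab := R.lab
  E := R.E
  H := R.H
  good := fun j => by convert R.good j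
  Emem := R.Emem
  Et := R.Et
  Eexc := R.Eexc
  E0 := fun j => by convert R.E0 j
  Eτ := fun j => by convert R.Etau j
  Edisj := R.Edisj
  labH := R.labH
  labcard := R.labcard
  K0 := R.K0
  hK0 := R.hK0
  Hcard := R.Hcard
  M := R.M
  w := R.w
  wli := R.wli
  labw := R.labw
  labRes := R.labRes
  cov := R.cov
  X := R.X
  XE := R.XE
  Xcov := R.Xcov
  D := R.D
  D0 := R.D0
  DX := R.DX
  Dexc := R.Dexc
  size := R.size

/-- **the designs exist** -/
theorem exists_iface : ∃ Kc h0 : ℕ, ∀ h : ℕ, h0 ≤ h → h.Prime →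
    ∃ (K : Type) (_ : Field K) (_ : Fintype K) (_ : DecidableEq K) (D : Iface K),
      Fintype.card K = 7 ^ h ∧ D.K0 ≤ Kc ∧ 29 * Fintype.card D.Y ≤ 7 ^ h := by
  obtain ⟨h0, hraw⟩ := exists_raw
  refine ⟨49 * 7 ^ 60, h0, fun h hh hp => ?_⟩
  obtain ⟨K, _, _, _, _, hK⟩ := exists_field h hp.ne_zero
  obtain ⟨R, hR1, hR2⟩ := hraw h hh K hK
  refine ⟨K, inferInstance, inferInstance, inferInstance, R.toMk.toIface, hK, ?_, ?_⟩
  · exact hR1
  · rw [Mk.Raw.card_Y]
    exact hR2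

end Vale.Agent.P045
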