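import Mathlib

/-!
# P045: the extension step of the greedy construction

`sg u = (u, u ^ 2)`.  A subgroup `H` of `F × F` is `Good` (relative to the finite set `T` of
centres, the vertical label `V` and the set `E` of pairs `(u, t)`) if no unexpected coincidences
between points of the parabola happen modulo `H`.  Adding one more difference `sg u - sg t₀`
preserves goodness for all but boundedly many `u`.
-/

namespace Vale.Agent.P045.Ext

open Classical

noncomputable section

variable {F : Type} [Field F]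

/-- the points of the parabola -/
def sg (u : F) : F × F := (u, u ^ 2)

@[simp] lemma sg_fst (u : F) : (sg u).1 = u := rfl
@[simp] lemma sg_snd (u : F) : (sg u).2 = u ^ 2 := rfl

/-- Good subgroups -/
structure Good (T : Finset F) (V : AddSubgroup F)
    (H : AddSubgroup (F × F)) (E : Finset (F × F)) : Prop where
  g2 : ∀ t ∈ T, ∀ x : F, sg x - sg t ∈ H → x = t ∨ (x, t) ∈ E
  g3 : ∀ x y z : F, x ≠ y → x ≠ z → y ≠ z → sg x - sg y ∈ H → sg x - sg z ∈ H →
    ∃ t ∈ T, sg x - sg t ∈ H
  g5 : ∀ t ∈ T, ∀ t' ∈ T, t ≠ t' → ∀ y : F, (t - t', y) ∉ H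
  g6 : ∀ b : F, ((0 : F), b) ∈ H → b ∈ V

variable [Fintype F]

/-- roots of a cubic, empty if the cubic is identically zero -/
def R4 (a b c d : F) : Finset F :=
  if a = 0 ∧ b = 0 ∧ c = 0 ∧ d = 0 then ∅
  else Finset.univ.filter fun u => a * u ^ 3 + b * u ^ 2 + c * u + d = 0

lemma R4_card (a b c d : F) : (R4 a b c d).card ≤ 3 := by
  unfold R4
  split_ifs with h
  · simp
  · set P : Polynomial F := Polynomial.C a * Polynomial.X ^ 3 + Polynomial.C b * Polynomial.X ^ 2 +
      Polynomial.C c * Polynomial.X + Polynomial.C d with hP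
    have hP0 : P ≠ 0 := by
      intro h0
      apply h
      have h3 := congrArg (fun p : Polynomial F => p.coeff 3) h0
      have h2 := congrArg (fun p : Polynomial F => p.coeff 2) h0
      have h1 := congrArg (fun p : Polynomial F => p.coeff 1) h0
      have h00 := congrArg (fun p : Polynomial F => p.coeff 0) h0
      simp [hP, Polynomial.coeff_X, Polynomial.coeff_C, Polynomial.coeff_X_pow] at h3 h2 h1 h00
      exact ⟨h3, h2, h1, h00⟩
    have hdeg : P.natDegree ≤ 3 := by
      rw [hP]; compute_degree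
    refine le_trans ?_ hdeg
    refine le_trans ?_ (Polynomial.card_roots' P)
    refine le_trans ?_ (Multiset.toFinset_card_le _)
    apply Finset.card_le_card
    intro u hu
    simp only [Finset.mem_filter, Finset.mem_univ, true_and] at hu
    rw [Multiset.mem_toFinset, Polynomial.mem_roots hP0, Polynomial.IsRoot.def]
    rw [hP]; simp; exact hu

lemma not_mem_R4 {a b c d u : F} (hu : u ∉ R4 a b c d)
    (h : a * u ^ 3 + b * u ^ 2 + c * u + d = 0) : a = 0 ∧ b = 0 ∧ c = 0 ∧ d = 0 := by
  unfold R4 at hu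
  split_ifs at hu with h0
  · exact h0
  · exact absurd (by simp [h]) hu

/-- the prime field inside `F` -/
def Fp (F : Type) [Field F] (p : ℕ) : Finset F := Finset.image (Nat.cast : ℕ → F) (Finset.range p)

omit [Fintype F] in
lemma Fp_card (p : ℕ) : (Fp F p).card ≤ p := by
  unfold Fp
  exact (Finset.card_image_le).trans (Finset.card_range p).le

omit [Fintype F] in
lemma int_mem_Fp (p : ℕ) [Fact p.Prime] [CharP F p] (n : ℤ) : ((n : ℤ) : F) ∈ Fp F p := by
  unfold Fp
  refine Finset.mem_image.2 ?_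
  have hp : (0 : ℤ) < p := by exact_mod_cast (Fact.out : p.Prime).pos
  have h1 := Int.emod_nonneg n hp.ne'
  have h2 := Int.emod_lt_of_pos n hp
  have h3 : (((n % p).toNat : ℕ) : ℤ) = n % p := Int.toNat_of_nonneg h1
  refine ⟨(n % p).toNat, ?_, ?_⟩
  · rw [Finset.mem_range]
    omega
  · have h4 : (((n % p).toNat : ℕ) : F) = ((n % p : ℤ) : F) := by
      have := congrArg (Int.cast : ℤ → F) h3
      rw [Int.cast_natCast] at this
      exact this
    rw [h4]
    have h5 : n = n % p + p * (n / p) := (Int.emod_add_mul_ediv n p).symm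
    have h6 := congrArg (Int.cast : ℤ → F) h5
    rw [h6, Int.cast_add, Int.cast_mul, Int.cast_natCast, CharP.cast_eq_zero F p]; ring

/-- bad values for `g3` -/
def b3 (t₀ : F) (k : ((F × F) × (F × F)) × (F × F)) : Finset F :=
  R4 (k.2.1 * k.2.2 * (k.2.1 - k.2.2))
    ((k.2.1 ^ 2 + k.2.1) * (k.1.2.1 - k.2.2 * t₀) + 2 * k.2.1 * k.2.2 * (k.1.1.1 - k.2.1 * t₀) -
      (k.2.2 ^ 2 + k.2.2) * (k.1.1.1 - k.2.1 * t₀) -
      2 * k.2.1 * k.2.2 * (k.1.2.1 - k.2.2 * t₀))
    (2 * k.2.1 * (k.1.1.1 - k.2.1 * t₀) * (k.1.2.1 - k.2.2 * t₀) +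
      ((k.1.1.1 - k.2.1 * t₀) ^ 2 + (k.1.1.2 - k.2.1 * t₀ ^ 2)) * k.2.2 -
      2 * k.2.2 * (k.1.1.1 - k.2.1 * t₀) * (k.1.2.1 - k.2.2 * t₀) -
      ((k.1.2.1 - k.2.2 * t₀) ^ 2 + (k.1.2.2 - k.2.2 * t₀ ^ 2)) * k.2.1)
    (((k.1.1.1 - k.2.1 * t₀) ^ 2 + (k.1.1.2 - k.2.1 * t₀ ^ 2)) * (k.1.2.1 - k.2.2 * t₀) -
      ((k.1.2.1 - k.2.2 * t₀) ^ 2 + (k.1.2.2 - k.2.2 * t₀ ^ 2)) * (k.1.1.1 - k.2.1 * t₀))

/-- bad values for `g2` -/
def b2 (t₀ : F) (k : (F × F) × (F × F)) : Finset F :=
  R4 0 (k.2.1 ^ 2 - k.2.1) (2 * k.2.1 * (k.1.1 - k.2.1 * t₀) + 2 * k.2.2 * k.2.1)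
    ((k.1.1 - k.2.1 * t₀) ^ 2 + 2 * k.2.2 * (k.1.1 - k.2.1 * t₀) - (k.1.2 - k.2.1 * t₀ ^ 2))

/-- bad values for `g5` -/
def b5 (t₀ : F) (k : (F × F) × (F × (F × F))) : Finset F :=
  R4 0 0 k.2.1 ((k.1.1 - k.2.1 * t₀) - (k.2.2.1 - k.2.2.2))

/-- bad values for `g6` -/
def b6 (t₀ : F) (k : (F × F) × F) : Finset F :=
  R4 0 0 k.2 (k.1.1 - k.2 * t₀)

/-- the bad values of `u` -/
def Bad (p : ℕ) (T : Finset F) (HF : Finset (F × F)) (t₀ : F) : Finset F :=
  ((HF ×ˢ HF) ×ˢ ((Fp F p) ×ˢ (Fp F p))).biUnion (b3 t₀) ∪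
  (HF ×ˢ ((Fp F p) ×ˢ T)).biUnion (b2 t₀) ∪
  (HF ×ˢ ((Fp F p) ×ˢ (T ×ˢ T))).biUnion (b5 t₀) ∪
  (HF ×ˢ (Fp F p)).biUnion (b6 t₀)

lemma Bad_card (p : ℕ) (hp : 1 ≤ p) (T : Finset F) (HF : Finset (F × F)) (t₀ : F) :
    (Bad p T HF t₀).card ≤ 12 * (T.card + 1) ^ 2 * (HF.card + 1) ^ 2 * p ^ 2 := by
  unfold Bad
  have hF := Fp_card (F := F) p
  set a := HF.card
  set b := T.card
  set f := (Fp F p).card
  have e1 := Finset.card_biUnion_le_card_mul ((HF ×ˢ HF) ×ˢ ((Fp F p) ×ˢ (Fp F p))) (b3 t₀) 3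
    (fun k _ => R4_card _ _ _ _)
  have e2 := Finset.card_biUnion_le_card_mul (HF ×ˢ ((Fp F p) ×ˢ T)) (b2 t₀) 3
    (fun k _ => R4_card _ _ _ _)
  have e3 := Finset.card_biUnion_le_card_mul (HF ×ˢ ((Fp F p) ×ˢ (T ×ˢ T))) (b5 t₀) 3
    (fun k _ => R4_card _ _ _ _)
  have e4 := Finset.card_biUnion_le_card_mul (HF ×ˢ (Fp F p)) (b6 t₀) 3
    (fun k _ => R4_card _ _ _ _)
  simp only [Finset.card_product] at e1 e2 e3 e4
  have m1 : a * a * (f * f) * 3 ≤ 3 * ((b + 1) ^ 2 * (a + 1) ^ 2 * p ^ 2) := by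
    have : a * a * (f * f) ≤ (b + 1) ^ 2 * (a + 1) ^ 2 * p ^ 2 := by
      calc a * a * (f * f) ≤ (a + 1) ^ 2 * p ^ 2 := by
            have := Nat.mul_le_mul hF hF
            have h2 : a * a ≤ (a + 1) ^ 2 := by nlinarith
            calc a * a * (f * f) ≤ (a + 1) ^ 2 * (p * p) := Nat.mul_le_mul h2 this
              _ = _ := by ring
        _ ≤ (b + 1) ^ 2 * (a + 1) ^ 2 * p ^ 2 := by
            have : 1 ≤ (b + 1) ^ 2 := Nat.one_le_pow _ _ (by omega)
            calc (a + 1) ^ 2 * p ^ 2 = 1 * ((a + 1) ^ 2 * p ^ 2) := by ring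
              _ ≤ (b + 1) ^ 2 * ((a + 1) ^ 2 * p ^ 2) := Nat.mul_le_mul_right _ this
              _ = _ := by ring
    omega
  have hfp : f ≤ p ^ 2 := hF.trans (by nlinarith)
  have m2 : a * (f * b) * 3 ≤ 3 * ((b + 1) ^ 2 * (a + 1) ^ 2 * p ^ 2) := by
    have h1 : a ≤ (a + 1) ^ 2 := by nlinarith
    have h2 : b ≤ (b + 1) ^ 2 := by nlinarith
    have : a * (f * b) ≤ (b + 1) ^ 2 * (a + 1) ^ 2 * p ^ 2 := by
      calc a * (f * b) ≤ (a + 1) ^ 2 * (p ^ 2 * (b + 1) ^ 2) :=
            Nat.mul_le_mul h1 (Nat.mul_le_mul hfp h2)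
        _ = _ := by ring
    omega
  have m3 : a * (f * (b * b)) * 3 ≤ 3 * ((b + 1) ^ 2 * (a + 1) ^ 2 * p ^ 2) := by
    have h1 : a ≤ (a + 1) ^ 2 := by nlinarith
    have h2 : b * b ≤ (b + 1) ^ 2 := by nlinarith
    have : a * (f * (b * b)) ≤ (b + 1) ^ 2 * (a + 1) ^ 2 * p ^ 2 := by
      calc a * (f * (b * b)) ≤ (a + 1) ^ 2 * (p ^ 2 * (b + 1) ^ 2) :=
            Nat.mul_le_mul h1 (Nat.mul_le_mul hfp h2)
        _ = _ := by ring
    omega
  have m4 : a * f * 3 ≤ 3 * ((b + 1) ^ 2 * (a + 1) ^ 2 * p ^ 2) := by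
    have h1 : a ≤ (a + 1) ^ 2 := by nlinarith
    have h2 : 1 ≤ (b + 1) ^ 2 := Nat.one_le_pow _ _ (by omega)
    have : a * f ≤ (b + 1) ^ 2 * (a + 1) ^ 2 * p ^ 2 := by
      calc a * f ≤ 1 * ((a + 1) ^ 2 * p ^ 2) := by
            rw [one_mul]; exact Nat.mul_le_mul h1 hfp
        _ ≤ (b + 1) ^ 2 * ((a + 1) ^ 2 * p ^ 2) := Nat.mul_le_mul_right _ h2
        _ = _ := by ring
    omega
  refine (Finset.card_union_le _ _).trans ?_
  refine (Nat.add_le_add_right (Finset.card_union_le _ _) _).trans ?_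
  refine (Nat.add_le_add_right (Nat.add_le_add_right (Finset.card_union_le _ _) _) _).trans ?_
  have : 12 * (b + 1) ^ 2 * (a + 1) ^ 2 * p ^ 2 = 12 * ((b + 1) ^ 2 * (a + 1) ^ 2 * p ^ 2) := by ring
  rw [this]
  have f1 := e1.trans m1
  have f2 := e2.trans m2
  have f3 := e3.trans m3
  have f4 := e4.trans m4
  linarith

/-- The extension step. -/
theorem ext_step (p : ℕ) [Fact p.Prime] [CharP F p] (hp2 : p ≠ 2) (T : Finset F)
    (V : AddSubgroup F) (H : AddSubgroup (F × F)) (E : Finset (F × F)) (hG : Good T V H E)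
    (t₀ : F) (ht₀ : t₀ ∈ T) (u : F)
    (hu : u ∉ Bad p T (Finset.univ.filter fun x : F × F => x ∈ H) t₀) :
    Good T V (H ⊔ AddSubgroup.zmultiples (sg u - sg t₀)) (insert (u, t₀) E) := by
  have h2 : (2 : F) ≠ 0 := by
    intro h
    have h' : ((2 : ℕ) : F) = 0 := by exact_mod_cast h
    rw [CharP.cast_eq_zero_iff F p] at h'
    have := (Nat.prime_two.eq_one_or_self_of_dvd p h')
    rcases this with h | h
    · exact (Fact.out : p.Prime).ne_one h
    · exact hp2 h
  -- unpack the bad set
  have hB3 : ∀ h ∈ H, ∀ h' ∈ H, ∀ c ∈ Fp F p, ∀ c' ∈ Fp F p, ∀ A B A' B' : F,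
      A = h.1 - c * t₀ → B = h.2 - c * t₀ ^ 2 → A' = h'.1 - c' * t₀ → B' = h'.2 - c' * t₀ ^ 2 →
      u ∉ R4 (c * c' * (c - c'))
      ((c ^ 2 + c) * A' + 2 * c * c' * A - (c' ^ 2 + c') * A - 2 * c * c' * A')
      (2 * c * A * A' + (A ^ 2 + B) * c' - 2 * c' * A * A' - (A' ^ 2 + B') * c)
      ((A ^ 2 + B) * A' - (A' ^ 2 + B') * A) := by
    intro h hh h' hh' c hc c' hc' A B A' B' hA hB hA' hB' hmem
    apply hu
    unfold Bad
    simp only [Finset.mem_union, Finset.mem_biUnion]
    left; left; left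
    refine ⟨((h, h'), (c, c')), ?_, ?_⟩
    · simp [hh, hh', hc, hc']
    · subst hA hB hA' hB'; exact hmem
  have hB2 : ∀ h ∈ H, ∀ c ∈ Fp F p, ∀ t ∈ T, ∀ A B : F,
      A = h.1 - c * t₀ → B = h.2 - c * t₀ ^ 2 →
      u ∉ R4 0 (c ^ 2 - c) (2 * c * A + 2 * t * c) (A ^ 2 + 2 * t * A - B) := by
    intro h hh c hc t ht A B hA hB hmem
    apply hu
    unfold Bad
    simp only [Finset.mem_union, Finset.mem_biUnion]
    left; left; right
    refine ⟨(h, (c, t)), ?_, ?_⟩
    · simp [hh, hc, ht]
    · subst hA hB; exact hmem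
  have hB5 : ∀ h ∈ H, ∀ c ∈ Fp F p, ∀ t ∈ T, ∀ t' ∈ T, ∀ A : F,
      A = h.1 - c * t₀ → u ∉ R4 0 0 c (A - (t - t')) := by
    intro h hh c hc t ht t' ht' A hA hmem
    apply hu
    unfold Bad
    simp only [Finset.mem_union, Finset.mem_biUnion]
    left; right
    refine ⟨(h, (c, (t, t'))), ?_, ?_⟩
    · simp [hh, hc, ht, ht']
    · subst hA; exact hmem
  have hB6 : ∀ h ∈ H, ∀ c ∈ Fp F p, ∀ A : F, A = h.1 - c * t₀ → u ∉ R4 0 0 c A := by
    intro h hh c hc A hA hmem
    apply hu
    unfold Bad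
    simp only [Finset.mem_union, Finset.mem_biUnion]
    right
    refine ⟨(h, c), ?_, ?_⟩
    · simp [hh, hc]
    · subst hA; exact hmem
  -- elements of the new group
  have key : ∀ w : F × F, w ∈ H ⊔ AddSubgroup.zmultiples (sg u - sg t₀) →
      ∃ h ∈ H, ∃ c ∈ Fp F p, ∃ A B : F, A = h.1 - c * t₀ ∧ B = h.2 - c * t₀ ^ 2 ∧
        w.1 = c * u + A ∧ w.2 = c * u ^ 2 + B := by
    intro w hw
    rw [AddSubgroup.mem_sup] at hw
    obtain ⟨h, hh, z, hz, rfl⟩ := hw
    rw [AddSubgroup.mem_zmultiples_iff] at hz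
    obtain ⟨n, rfl⟩ := hz
    refine ⟨h, hh, (n : F), int_mem_Fp p n, h.1 - (n : F) * t₀, h.2 - (n : F) * t₀ ^ 2, rfl, rfl,
      ?_, ?_⟩
    · rw [Prod.fst_add, Prod.smul_fst, Prod.fst_sub, sg_fst, sg_fst, zsmul_eq_mul]; ring
    · rw [Prod.snd_add, Prod.smul_snd, Prod.snd_sub, sg_snd, sg_snd, zsmul_eq_mul]; ring
  have hHle : ∀ w ∈ H, w ∈ H ⊔ AddSubgroup.zmultiples (sg u - sg t₀) := fun w hw =>
    AddSubgroup.mem_sup_left hw
  have hd : sg u - sg t₀ ∈ H ⊔ AddSubgroup.zmultiples (sg u - sg t₀) :=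
    AddSubgroup.mem_sup_right (AddSubgroup.mem_zmultiples _)
  -- `c = 0` means membership in `H`
  have hc0 : ∀ w h : F × F, h ∈ H → ∀ c A B : F, c = 0 → A = h.1 - c * t₀ → B = h.2 - c * t₀ ^ 2 →
      w.1 = c * u + A → w.2 = c * u ^ 2 + B → w ∈ H := by
    intro w h hh c A B hc hA hB h1 h3
    have : w = h := by
      apply Prod.ext
      · rw [h1, hA, hc]; ring
      · rw [h3, hB, hc]; ring
    rw [this]; exact hh
  constructor
  · -- g2
    intro t ht x hx
    obtain ⟨h, hh, c, hc, A, B, hA, hB, h1, h3⟩ := key _ hx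
    simp only [Prod.fst_sub, Prod.snd_sub, sg_fst, sg_snd] at h1 h3
    have hx' : x = t + (c * u + A) := by rw [← h1]; ring
    have hR := not_mem_R4 (hB2 h hh c hc t ht A B hA hB) (by
      have : x ^ 2 - t ^ 2 = c * u ^ 2 + B := h3
      rw [hx'] at this
      linear_combination this)
    obtain ⟨-, e2, e1, e0⟩ := hR
    have hcc : c = 0 ∨ c = 1 := by
      have : c * (c - 1) = 0 := by linear_combination e2
      rcases mul_eq_zero.1 this with h | h
      · left; exact h
      · right; linear_combination h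
    rcases hcc with hcc | hcc
    · have hmem : sg x - sg t ∈ H := hc0 _ h hh c A B hcc hA hB
        (by simp only [Prod.fst_sub, sg_fst]; exact h1)
        (by simp only [Prod.snd_sub, sg_snd]; exact h3)
      rcases hG.g2 t ht x hmem with h' | h'
      · left; exact h'
      · right; exact Finset.mem_insert_of_mem h'
    · subst hcc
      have hAt : A = -t := by
        have : 2 * (A + t) = 0 := by linear_combination e1
        rcases mul_eq_zero.1 this with h' | h'
        · exact absurd h' h2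
        · linear_combination h'
      have hBt : B = -t ^ 2 := by
        rw [hAt] at e0; linear_combination -e0
      have htt : t = t₀ := by
        by_contra hne
        have hmem : ((t₀ - t : F), h.2) ∈ H := by
          have : ((t₀ - t : F), h.2) = h := by
            apply Prod.ext
            · simp only; rw [hAt] at hA; linear_combination hA
            · rfl
          rw [this]; exact hh
        exact hG.g5 t₀ ht₀ t ht (fun h' => hne h'.symm) _ hmem
      right
      rw [Finset.mem_insert]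
      left
      rw [htt, Prod.mk.injEq]
      refine ⟨?_, rfl⟩
      rw [hx', hAt]; ring
  · -- g3
    intro x y z hxy hxz hyz hxyH hxzH
    obtain ⟨h, hh, c, hc, A, B, hA, hB, h1, h3⟩ := key _ hxyH
    obtain ⟨h', hh', c', hc', A', B', hA', hB', h1', h3'⟩ := key _ hxzH
    simp only [Prod.fst_sub, Prod.snd_sub, sg_fst, sg_snd] at h1 h3 h1' h3'
    have hxy0 : x - y ≠ 0 := sub_ne_zero.2 hxy
    have hxz0 : x - z ≠ 0 := sub_ne_zero.2 hxz
    have hR := not_mem_R4 (hB3 h hh h' hh' c hc c' hc' A B A' B' hA hB hA' hB') (by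
      have e1 : (c * u + A) ^ 2 + (c * u ^ 2 + B) = 2 * x * (c * u + A) := by
        rw [← h1, ← h3]; ring
      have e2 : (c' * u + A') ^ 2 + (c' * u ^ 2 + B') = 2 * x * (c' * u + A') := by
        rw [← h1', ← h3']; ring
      linear_combination (c' * u + A') * e1 - (c * u + A) * e2)
    obtain ⟨e3, e2, e1, e0⟩ := hR
    by_cases hc0' : c = 0
    · -- x - y comes from H
      have hAne : A ≠ 0 := by
        intro h'; apply hxy0; rw [h1, hc0', h']; ring
      have hAB : A ^ 2 + B = 2 * x * A := by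
        have e1 : (c * u + A) ^ 2 + (c * u ^ 2 + B) = 2 * x * (c * u + A) := by
          rw [← h1, ← h3]; ring
        rw [hc0'] at e1; linear_combination e1
      have hmem : sg x - sg y ∈ H := hc0 _ h hh c A B hc0' hA hB
        (by simp only [Prod.fst_sub, sg_fst]; exact h1)
        (by simp only [Prod.snd_sub, sg_snd]; exact h3)
      have hcc : c' = 0 ∨ c' = -1 := by
        have : c' * (c' + 1) = 0 := by
          have h' : A * (c' * (c' + 1)) = 0 := by rw [hc0'] at e2; linear_combination -e2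
          rcases mul_eq_zero.1 h' with h'' | h''
          · exact absurd h'' hAne
          · exact h''
        rcases mul_eq_zero.1 this with h' | h'
        · left; exact h'
        · right; linear_combination h'
      rcases hcc with hcc | hcc
      · have hmem' : sg x - sg z ∈ H := hc0 _ h' hh' c' A' B' hcc hA' hB'
          (by simp only [Prod.fst_sub, sg_fst]; exact h1')
          (by simp only [Prod.snd_sub, sg_snd]; exact h3')
        obtain ⟨t, ht, hmt⟩ := hG.g3 x y z hxy hxz hyz hmem hmem'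
        exact ⟨t, ht, hHle _ hmt⟩
      · refine ⟨t₀, ht₀, hHle _ ?_⟩
        rw [hc0', hcc] at e1
        have hxA : x = A' := by
          have : 2 * A * (A' - x) = 0 := by linear_combination e1 + hAB
          rcases mul_eq_zero.1 this with h'' | h''
          · rcases mul_eq_zero.1 h'' with h3 | h3
            · exact absurd h3 h2
            · exact absurd h3 hAne
          · linear_combination -h''
        have hBx : B' = x ^ 2 := by
          have : A * (x ^ 2 - B') = 0 := by
            rw [← hxA] at e0; linear_combination e0 - x * hAB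
          rcases mul_eq_zero.1 this with h'' | h''
          · exact absurd h'' hAne
          · linear_combination -h''
        have : sg x - sg t₀ = h' := by
          apply Prod.ext
          · simp only [Prod.fst_sub, sg_fst]; rw [hcc] at hA'; rw [← hxA] at hA'
            linear_combination hA'
          · simp only [Prod.snd_sub, sg_snd]; rw [hcc] at hB'; rw [hBx] at hB'
            linear_combination hB'
        rw [this]; exact hh'
    by_cases hc0'' : c' = 0
    · -- x - z comes from H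
      have hAne : A' ≠ 0 := by
        intro h'; apply hxz0; rw [h1', hc0'', h']; ring
      have hAB : A' ^ 2 + B' = 2 * x * A' := by
        have e1 : (c' * u + A') ^ 2 + (c' * u ^ 2 + B') = 2 * x * (c' * u + A') := by
          rw [← h1', ← h3']; ring
        rw [hc0''] at e1; linear_combination e1
      have hcc : c = -1 := by
        have : c * (c + 1) = 0 := by
          have h' : A' * (c * (c + 1)) = 0 := by rw [hc0''] at e2; linear_combination e2
          rcases mul_eq_zero.1 h' with h'' | h''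
          · exact absurd h'' hAne
          · exact h''
        rcases mul_eq_zero.1 this with h' | h'
        · exact absurd h' hc0'
        · linear_combination h'
      refine ⟨t₀, ht₀, hHle _ ?_⟩
      rw [hc0'', hcc] at e1
      have hxA : x = A := by
        have : 2 * A' * (A - x) = 0 := by linear_combination -e1 + hAB
        rcases mul_eq_zero.1 this with h'' | h''
        · rcases mul_eq_zero.1 h'' with h3 | h3
          · exact absurd h3 h2
          · exact absurd h3 hAne
        · linear_combination -h''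
      have hBx : B = x ^ 2 := by
        have : A' * (x ^ 2 - B) = 0 := by
          rw [← hxA] at e0; linear_combination -e0 - x * hAB
        rcases mul_eq_zero.1 this with h'' | h''
        · exact absurd h'' hAne
        · linear_combination -h''
      have : sg x - sg t₀ = h := by
        apply Prod.ext
        · simp only [Prod.fst_sub, sg_fst]; rw [hcc] at hA; rw [← hxA] at hA
          linear_combination hA
        · simp only [Prod.snd_sub, sg_snd]; rw [hcc] at hB; rw [hBx] at hB
          linear_combination hB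
      rw [this]; exact hh
    -- both nonzero: c = c'
    have hcc : c = c' := by
      rcases mul_eq_zero.1 e3 with h'' | h''
      · rcases mul_eq_zero.1 h'' with h3 | h3
        · exact absurd h3 hc0'
        · exact absurd h3 hc0''
      · linear_combination h''
    have hAA : A' - A ≠ 0 := by
      intro h''
      apply hyz
      rw [hcc] at h1
      linear_combination h1' - h1 + h''
    rw [← hcc] at e2 e1
    have hc1 : c = 1 := by
      have : c * ((1 - c) * (A' - A)) = 0 := by linear_combination e2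
      rcases mul_eq_zero.1 this with h'' | h''
      · exact absurd h'' hc0'
      · rcases mul_eq_zero.1 h'' with h3 | h3
        · linear_combination -h3
        · exact absurd h3 hAA
    rw [hc1] at e1
    have hκ : A ^ 2 + B = A' ^ 2 + B' := by linear_combination e1
    have hκ0 : A ^ 2 + B = 0 := by
      have : (A ^ 2 + B) * (A' - A) = 0 := by
        linear_combination e0 - A * hκ
      rcases mul_eq_zero.1 this with h'' | h''
      · exact h''
      · exact absurd h'' hAA
    have hxu : x = u := by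
      rw [hc1] at h1 h3
      have : (x - y) * (2 * (x - u)) = 0 := by
        have e1' : (x - y) ^ 2 + (x ^ 2 - y ^ 2) = 2 * u * (x - y) := by
          rw [h3, h1]; linear_combination hκ0
        linear_combination e1'
      rcases mul_eq_zero.1 this with h'' | h''
      · exact absurd h'' hxy0
      · rcases mul_eq_zero.1 h'' with h3 | h3
        · exact absurd h3 h2
        · linear_combination h3
    exact ⟨t₀, ht₀, by rw [hxu]; exact hd⟩
  · -- g5
    intro t ht t' ht' htt y hy
    obtain ⟨h, hh, c, hc, A, B, hA, hB, h1, h3⟩ := key _ hy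
    simp only at h1 h3
    have hR := not_mem_R4 (hB5 h hh c hc t ht t' ht' A hA) (by linear_combination -h1)
    obtain ⟨-, -, e1, -⟩ := hR
    exact hG.g5 t ht t' ht' htt y (hc0 _ h hh c A B e1 hA hB h1 h3)
  · -- g6
    intro b hb
    obtain ⟨h, hh, c, hc, A, B, hA, hB, h1, h3⟩ := key _ hb
    simp only at h1 h3
    have hR := not_mem_R4 (hB6 h hh c hc A hA) (by linear_combination -h1)
    obtain ⟨-, -, e1, -⟩ := hR
    exact hG.g6 b (hc0 _ h hh c A B e1 hA hB h1 h3)

/-- The starting point: vertical subgroups are good. -/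
theorem good_start {F : Type} [Field F] (T : Finset F) (V : AddSubgroup F) :
    Good T V (V.map (AddMonoidHom.inr F F)) ∅ := by
  constructor
  · intro t _ x hx
    left
    rw [AddSubgroup.mem_map] at hx
    obtain ⟨v, _, hv⟩ := hx
    have := congrArg Prod.fst hv
    simp at this
    linear_combination -this
  · intro x y z hxy _ _ hx _
    exfalso
    rw [AddSubgroup.mem_map] at hx
    obtain ⟨v, _, hv⟩ := hx
    have := congrArg Prod.fst hv
    simp at this
    exact hxy (by linear_combination -this)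
  · intro t _ t' _ htt y hy
    rw [AddSubgroup.mem_map] at hy
    obtain ⟨v, _, hv⟩ := hy
    have := congrArg Prod.fst hv
    simp at this
    exact htt (by linear_combination -this)
  · intro b hb
    rw [AddSubgroup.mem_map] at hb
    obtain ⟨v, hv, hv'⟩ := hb
    have := congrArg Prod.snd hv'
    simp at this
    rw [← this]; exact hv

end

end Vale.Agent.P045.Ext
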