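import Mathlib

/-!
P045: definitions for Ryser's conjecture and the passage from a system of partitions
(classes) of a point set to an `r`-partite `r`-uniform hypergraph.
-/

namespace Vale.Agent.P045

/-- An `r`-partite `r`-uniform hypergraph: a finite vertex type `V`, split into the parts
`part v = i` (`i : Fin r`), and a set of edges (finite sets of vertices), each of which contains
exactly one vertex of each part. -/
structure PartiteHypergraph (r : ℕ) where
  /-- the vertices -/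
  V : Type
  /-- there are finitely many vertices -/
  finite : Finite V
  /-- the part of a vertex -/
  part : V → Fin r
  /-- the edges -/
  edges : Set (Finset V)
  /-- every edge contains exactly one vertex of each part -/
  exactly_one : ∀ e ∈ edges, ∀ i : Fin r, ∃! v : V, v ∈ e ∧ part v = i

namespace PartiteHypergraph

variable {r : ℕ} (H : PartiteHypergraph r)

/-- `C` is a vertex cover: it meets every edge. -/
def IsCover (C : Finset H.V) : Prop := ∀ e ∈ H.edges, ∃ v ∈ C, v ∈ e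

/-- `M` is a matching: a set of pairwise disjoint edges. -/
def IsMatching (M : Finset (Finset H.V)) : Prop :=
  (∀ e ∈ M, e ∈ H.edges) ∧ ∀ e ∈ M, ∀ f ∈ M, e ≠ f → ∀ v, ¬ (v ∈ e ∧ v ∈ f)

/-- The covering number `τ(H)`: the minimum size of a vertex cover. -/
noncomputable def tau : ℕ := sInf {n : ℕ | ∃ C : Finset H.V, H.IsCover C ∧ C.card = n}

/-- The matching number `ν(H)`: the maximum number of pairwise disjoint edges. -/
noncomputable def nu : ℕ := sSup {n : ℕ | ∃ M : Finset (Finset H.V), H.IsMatching M ∧ M.card = n}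

/-- `H` is intersecting: it has an edge and every two edges share a vertex. -/
def Intersecting : Prop :=
  H.edges.Nonempty ∧ ∀ e ∈ H.edges, ∀ f ∈ H.edges, ∃ v, v ∈ e ∧ v ∈ f

end PartiteHypergraph

/-- `m` disjoint copies of the hypergraph dual to a system of `r` partitions of a set `P`
(the `i`-th partition is into the fibres of `cls i`). -/
noncomputable def dualHyp {r : ℕ} {P Lab : Type} [Finite Lab] [DecidableEq Lab] (m : ℕ)
    (cls : Fin r → P → Lab) : PartiteHypergraph r where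
  V := Fin m × Fin r × Lab
  finite := inferInstance
  part := fun v => v.2.1
  edges := {e | ∃ (k : Fin m) (x : P), e = Finset.univ.image (fun i : Fin r => (k, i, cls i x))}
  exactly_one := by
    rintro e ⟨k, x, rfl⟩ i
    refine ⟨(k, i, cls i x), ⟨?_, rfl⟩, ?_⟩
    · simp
    · rintro ⟨k', i', l⟩ ⟨h1, h2⟩
      simp only [Finset.mem_image, Finset.mem_univ, true_and, Prod.mk.injEq] at h1
      obtain ⟨j, hk, hj, hl⟩ := h1
      simp only at h2
      subst h2
      subst hj
      subst hk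
      subst hl
      rfl

section

variable {r : ℕ} {P Lab : Type} {m : ℕ} {cls : Fin r → P → Lab}

/-- the edge of the point `x` in the copy `k` -/
def edg [DecidableEq Lab] (cls : Fin r → P → Lab) (k : Fin m) (x : P) : Finset (Fin m × Fin r × Lab) :=
  Finset.univ.image (fun i : Fin r => (k, i, cls i x))

theorem mem_edge [DecidableEq Lab] {k : Fin m} {x : P} {v : Fin m × Fin r × Lab} :
    v ∈ edg cls k x ↔ v.1 = k ∧ v.2.2 = cls v.2.1 x := by
  obtain ⟨a, b, c⟩ := v
  simp only [edg, Finset.mem_image, Finset.mem_univ, true_and, Prod.mk.injEq]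
  constructor
  · rintro ⟨i, rfl, rfl, rfl⟩; exact ⟨rfl, rfl⟩
  · rintro ⟨rfl, rfl⟩; exact ⟨b, rfl, rfl, rfl⟩

/-- the dual hypergraph is intersecting if every two points lie in a common block -/
theorem dual_intersecting [Finite Lab] [DecidableEq Lab] [Nonempty P]
    (hpair : ∀ x y : P, ∃ i, cls i x = cls i y) :
    (dualHyp 1 cls).Intersecting := by
  constructor
  · obtain ⟨x⟩ := (inferInstance : Nonempty P)
    exact ⟨_, 0, x, rfl⟩
  · rintro e ⟨k, x, rfl⟩ f ⟨k', y, rfl⟩
    obtain ⟨i, hi⟩ := hpair x y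
    exact ⟨(0, i, cls i x), (mem_edge (cls := cls) (k := k) (x := x)).2 ⟨Subsingleton.elim _ _, rfl⟩,
      (mem_edge (cls := cls) (k := k') (x := y)).2 ⟨Subsingleton.elim _ _, hi⟩⟩

theorem matching_le [DecidableEq Lab] (hpair : ∀ x y : P, ∃ i, cls i x = cls i y)
    (M : Finset (Finset (Fin m × Fin r × Lab))) (hM : ∀ e ∈ M, ∃ k x, e = edg cls k x)
    (hd : ∀ e ∈ M, ∀ f ∈ M, e ≠ f → ∀ v, ¬ (v ∈ e ∧ v ∈ f)) : M.card ≤ m := by
  classical
  let f : Finset (Fin m × Fin r × Lab) → Option (Fin m) := fun e =>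
    if h : ∃ k x, e = edg cls k x then some h.choose else none
  have hf : ∀ e ∈ M, ∃ k x, f e = some k ∧ e = edg cls k x := by
    intro e he
    have h : ∃ k x, e = edg cls k x := hM e he
    obtain ⟨x, hx⟩ := h.choose_spec
    exact ⟨h.choose, x, by simp only [f]; rw [dif_pos h], hx⟩
  have : M.card ≤ (Finset.univ.image (fun k : Fin m => some k)).card := by
    apply Finset.card_le_card_of_injOn f
    · intro e he
      obtain ⟨k, x, h1, -⟩ := hf e he
      rw [h1]
      simp
    · intro e he e' he' hee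
      by_contra hne
      obtain ⟨k, x, h1, hx⟩ := hf e he
      obtain ⟨k', y, h2, hy⟩ := hf e' he'
      have hk : k = k' := by
        have : f e = f e' := hee
        rw [h1, h2] at this
        exact Option.some.inj this
      obtain ⟨i, hi⟩ := hpair x y
      refine hd e he e' he' hne (k, i, cls i x) ⟨?_, ?_⟩
      · rw [hx, mem_edge]; exact ⟨rfl, rfl⟩
      · rw [hy, mem_edge]; exact ⟨hk, hi⟩
  refine this.trans (Finset.card_image_le.trans ?_)
  simp

theorem matching_ex [DecidableEq Lab] [Nonempty P] (hpair : ∀ x y : P, ∃ i, cls i x = cls i y) :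
    ∃ M : Finset (Finset (Fin m × Fin r × Lab)), (∀ e ∈ M, ∃ k x, e = edg cls k x) ∧
    (∀ e ∈ M, ∀ f ∈ M, e ≠ f → ∀ v, ¬ (v ∈ e ∧ v ∈ f)) ∧ M.card = m := by
  obtain ⟨x⟩ := (inferInstance : Nonempty P)
  classical
  obtain ⟨i0, _⟩ := hpair x x
  have hinj : Function.Injective (fun k : Fin m => edg cls k x) := by
    intro k k' h
    have h' : edg cls k x = edg cls k' x := h
    have : ((k, i0, cls i0 x) : Fin m × Fin r × Lab) ∈ edg cls k' x := by
      rw [← h', mem_edge]; exact ⟨rfl, rfl⟩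
    rw [mem_edge] at this
    exact this.1
  refine ⟨Finset.univ.image (fun k : Fin m => edg cls k x), ?_, ?_, ?_⟩
  · intro e he
    rw [Finset.mem_image] at he
    obtain ⟨k, -, rfl⟩ := he
    exact ⟨k, x, rfl⟩
  · intro e he f hf hne v hv
    rw [Finset.mem_image] at he hf
    obtain ⟨k, -, rfl⟩ := he
    obtain ⟨k', -, rfl⟩ := hf
    apply hne
    have h1 := mem_edge.1 hv.1
    have h2 := mem_edge.1 hv.2
    rw [← h1.1, ← h2.1]
  · rw [Finset.card_image_of_injective _ hinj]
    simp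

theorem dual_nu [Finite Lab] [DecidableEq Lab] [Nonempty P]
    (hpair : ∀ x y : P, ∃ i, cls i x = cls i y) :
    (dualHyp m cls).nu = m := by
  have hub : ∀ n ∈ {n : ℕ | ∃ M : Finset (Finset (dualHyp m cls).V),
      (dualHyp m cls).IsMatching M ∧ M.card = n}, n ≤ m := by
    rintro n ⟨M, ⟨hM, hd⟩, rfl⟩
    exact matching_le hpair M hM hd
  have hmem : m ∈ {n : ℕ | ∃ M : Finset (Finset (dualHyp m cls).V),
      (dualHyp m cls).IsMatching M ∧ M.card = n} := by
    obtain ⟨M, h1, h2, h3⟩ := matching_ex (m := m) hpair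
    exact ⟨M, ⟨h1, h2⟩, h3⟩
  unfold PartiteHypergraph.nu
  exact le_antisymm (csSup_le ⟨m, hmem⟩ hub) (le_csSup ⟨m, hub⟩ hmem)

theorem cover_ge [DecidableEq Lab] (hr : 1 ≤ r)
    (hcov : ∀ C : Finset (Fin r × Lab), C.card ≤ r - 1 → ∃ x, ∀ i, (i, cls i x) ∉ C)
    (C : Finset (Fin m × Fin r × Lab)) (hC : ∀ (k : Fin m) (x : P), ∃ v ∈ C, v ∈ edg cls k x) :
    r * m ≤ C.card := by
  classical
  have hC' : ∀ (k : Fin m) (x : P), ∃ i : Fin r, (k, i, cls i x) ∈ C := by
    intro k x
    obtain ⟨⟨a, b, c⟩, hv, hve⟩ := hC k x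
    rw [mem_edge] at hve
    simp only at hve
    exact ⟨b, by rw [← hve.1, ← hve.2]; exact hv⟩
  have hfib : ∀ k : Fin m, r ≤ (C.filter (fun v => v.1 = k)).card := by
    intro k
    by_contra hlt
    push Not at hlt
    obtain ⟨x, hx⟩ := hcov ((C.filter (fun v => v.1 = k)).image (fun v => v.2)) (by
        refine le_trans Finset.card_image_le ?_
        omega)
    obtain ⟨i, hi⟩ := hC' k x
    apply hx i
    rw [Finset.mem_image]
    exact ⟨(k, i, cls i x), Finset.mem_filter.2 ⟨hi, rfl⟩, rfl⟩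
  rw [Finset.card_eq_sum_card_fiberwise (f := fun v => v.1) (t := Finset.univ)
    (fun _ _ => Finset.mem_coe.2 (Finset.mem_univ _))]
  calc r * m = ∑ k : Fin m, r := by simp [mul_comm]
    _ ≤ _ := Finset.sum_le_sum (fun k _ => hfib k)

theorem cover_ex [DecidableEq Lab] [Nonempty P] (hpair : ∀ x y : P, ∃ i, cls i x = cls i y) :
    ∃ C : Finset (Fin m × Fin r × Lab), (∀ (k : Fin m) (x : P), ∃ v ∈ C, v ∈ edg cls k x) ∧
      C.card = r * m := by
  obtain ⟨x⟩ := (inferInstance : Nonempty P)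
  classical
  have hinj : Function.Injective (fun v : Fin m × Fin r =>
      ((v.1, v.2, cls v.2 x) : Fin m × Fin r × Lab)) := by
    rintro ⟨k, i⟩ ⟨k', i'⟩ h
    simp only [Prod.mk.injEq] at h
    ext1
    · exact h.1
    · exact h.2.1
  refine ⟨Finset.univ.image (fun v : Fin m × Fin r =>
      ((v.1, v.2, cls v.2 x) : Fin m × Fin r × Lab)), ?_, ?_⟩
  · intro k y
    obtain ⟨i, hi⟩ := hpair x y
    refine ⟨(k, i, cls i x), ?_, ?_⟩
    · rw [Finset.mem_image]; exact ⟨(k, i), Finset.mem_univ _, rfl⟩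
    · rw [mem_edge]; exact ⟨rfl, hi⟩
  · rw [Finset.card_image_of_injective _ hinj]
    simp [mul_comm]

theorem dual_tau [Finite Lab] [DecidableEq Lab] [Nonempty P] (hr : 1 ≤ r)
    (hpair : ∀ x y : P, ∃ i, cls i x = cls i y)
    (hcov : ∀ C : Finset (Fin r × Lab), C.card ≤ r - 1 → ∃ x, ∀ i, (i, cls i x) ∉ C) :
    (dualHyp m cls).tau = r * m := by
  have hlb : ∀ n ∈ {n : ℕ | ∃ C : Finset (dualHyp m cls).V,
      (dualHyp m cls).IsCover C ∧ C.card = n}, r * m ≤ n := by
    rintro n ⟨C, hC, rfl⟩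
    exact cover_ge hr hcov C (fun k x => hC _ ⟨k, x, rfl⟩)
  have hmem : r * m ∈ {n : ℕ | ∃ C : Finset (dualHyp m cls).V,
      (dualHyp m cls).IsCover C ∧ C.card = n} := by
    obtain ⟨C, h1, h2⟩ := cover_ex (m := m) hpair
    refine ⟨C, ?_, h2⟩
    rintro e ⟨k, x, rfl⟩
    exact h1 k x
  unfold PartiteHypergraph.tau
  exact le_antisymm (Nat.sInf_le hmem) (le_csInf ⟨_, hmem⟩ hlb)

end

/-- The dual form of a counterexample: `r` partitions of a nonempty set `P`, every two points in a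
common block, and no `r - 1` blocks cover `P`. -/
def DualExample (r : ℕ) : Prop :=
  ∃ (P Lab : Type) (_ : Nonempty P) (_ : Finite Lab) (cls : Fin r → P → Lab),
    (∀ x y : P, ∃ i, cls i x = cls i y) ∧
    ∀ C : Finset (Fin r × Lab), C.card ≤ r - 1 → ∃ x, ∀ i, (i, cls i x) ∉ C

theorem DualExample.hyp {r : ℕ} (hr : 1 ≤ r) (h : DualExample r) :
    (∃ H : PartiteHypergraph r, H.Intersecting ∧ H.nu = 1 ∧ H.tau = r) ∧
    ∀ m : ℕ, ∃ H : PartiteHypergraph r, H.nu = m ∧ H.tau = r * m := by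
  obtain ⟨P, Lab, _, _, cls, hpair, hcov⟩ := h
  classical
  refine ⟨⟨dualHyp 1 cls, dual_intersecting hpair, dual_nu hpair, ?_⟩, fun m =>
    ⟨dualHyp m cls, dual_nu hpair, dual_tau hr hpair hcov⟩⟩
  rw [dual_tau hr hpair hcov, mul_one]

/-- convenient form: index type `ι` with `card ι = r` -/
theorem DualExample.of_index {r : ℕ} (ι P Lab : Type) [Fintype ι] [Nonempty P] [Finite Lab]
    (hι : Fintype.card ι = r) (cls : ι → P → Lab) (hpair : ∀ x y : P, ∃ i, cls i x = cls i y)
    (hcov : ∀ C : Finset (ι × Lab), (∀ x, ∃ i, (i, cls i x) ∈ C) → r ≤ C.card) (hr : 1 ≤ r) :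
    DualExample r := by
  classical
  let e : Fin r ≃ ι := (Fintype.equivFinOfCardEq hι).symm
  refine ⟨P, Lab, inferInstance, inferInstance, fun i => cls (e i), ?_, ?_⟩
  · intro x y
    obtain ⟨i, hi⟩ := hpair x y
    exact ⟨e.symm i, by simpa using hi⟩
  · intro C hC
    by_contra hcon
    push Not at hcon
    have := hcov (C.image (fun v => (e v.1, v.2))) (by
      intro x
      obtain ⟨i, hi⟩ := hcon x
      exact ⟨e i, Finset.mem_image.2 ⟨_, hi, rfl⟩⟩)
    have h2 : (C.image (fun v => (e v.1, v.2))).card ≤ C.card := Finset.card_image_le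
    omega

/-- The final statement follows from a dual example for arbitrarily large `r`. -/
theorem final_of_dual (h : ∀ N : ℕ, ∃ r ≥ N, DualExample r) :
    {r : ℕ | 2 ≤ r ∧ (∃ H : PartiteHypergraph r, H.Intersecting ∧ H.tau = r) ∧
      ∀ m : ℕ, 1 ≤ m → ∃ H : PartiteHypergraph r,
        H.nu = m ∧ H.tau = r * m ∧ ¬ H.tau ≤ (r - 1) * H.nu}.Infinite := by
  rw [Set.infinite_iff_exists_gt]
  intro a
  obtain ⟨r, hr, hd⟩ := h (a + 2)
  refine ⟨r, ⟨by omega, ?_, ?_⟩, by omega⟩
  · obtain ⟨H, h1, -, h3⟩ := (hd.hyp (by omega)).1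
    exact ⟨H, h1, h3⟩
  · intro m hm
    obtain ⟨H, h1, h2⟩ := (hd.hyp (by omega)).2 m
    refine ⟨H, h1, h2, ?_⟩
    rw [h1, h2]
    obtain ⟨r', rfl⟩ : ∃ r', r = r' + 1 := ⟨r - 1, by omega⟩
    simp only [Nat.add_sub_cancel, not_le]
    exact Nat.mul_lt_mul_of_pos_right (Nat.lt_succ_self _) hm

end Vale.Agent.P045
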