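import Mathlib

/-!
# P045: numerical choices for large `q`
-/

namespace Vale.Agent.P045

/-- For given constants `A`, `B` and all large `q` there is an `e` of order `√q` with
`A q < (e+1)(e+2)` and `B e < q`. -/
theorem exists_e0 (A B : ℕ) : ∃ q0 : ℕ, ∀ q : ℕ, q0 ≤ q →
    ∃ e : ℕ, A * q < (e + 1) * (e + 2) ∧ B * e < q := by
  refine ⟨B ^ 2 * A + 1, fun q hq => ⟨Nat.sqrt (A * q), ?_, ?_⟩⟩
  · have h := Nat.lt_succ_sqrt (A * q)
    refine lt_of_lt_of_le h ?_
    exact Nat.mul_le_mul (le_refl _) (by omega)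
  · have h := Nat.sqrt_le (A * q)
    set e := Nat.sqrt (A * q)
    have h1 : (B * e) * (B * e) < q * q := by
      calc (B * e) * (B * e) = B ^ 2 * (e * e) := by ring
        _ ≤ B ^ 2 * (A * q) := Nat.mul_le_mul_left _ h
        _ = (B ^ 2 * A) * q := by ring
        _ < q * q := Nat.mul_lt_mul_of_pos_right (by omega) (by omega)
    exact Nat.mul_self_lt_mul_self_iff.1 h1

/-- There are arbitrarily large primes `h`, and `7 ^ h` is then as large as we want. -/
theorem exists_prime_pow (N : ℕ) : ∃ h : ℕ, h.Prime ∧ N ≤ h ∧ N ≤ 7 ^ h := by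
  obtain ⟨h, hN, hp⟩ := Nat.exists_infinite_primes N
  exact ⟨h, hp, hN, hN.trans (Nat.lt_pow_self (by norm_num)).le⟩

end Vale.Agent.P045
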