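import Vale.Agent.P045.CovThm
import Vale.Agent.P045.Num
import Vale.Agent.P045.Fin

/-!
# P045: assembly
-/

namespace Vale.Agent.P045

open Finset

/-- One design gives one counterexample. -/
theorem Iface.dual {K : Type} [Field K] [Fintype K] [DecidableEq K] (D : Iface K) (e0 N : ℕ)
    (hNC : NCHyp K (Fintype.card K + Fintype.card D.Y) N e0)
    (hN : D.K0 * (Fintype.card K + Fintype.card D.Y) ≤ N)
    (h1 : 49 * (Fintype.card D.Y + e0) < 2 * Fintype.card K)
    (h2 : 18 * D.K0 * e0 < Fintype.card K) :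
    DualExample (Fintype.card K + Fintype.card D.Y) := by
  classical
  refine DualExample.of_index (K ⊕ D.Y) (K × K) (K × K) ?_ D.cls D.pairs ?_ ?_
  · rw [Fintype.card_sum]
  · intro C hC
    exact D.cover_lower e0 N hNC hN h1 h2 C hC
  · have : 0 < Fintype.card K := Fintype.card_pos
    omega

/-- From the near cover theorem and the designs to counterexamples for arbitrarily large `r`. -/
theorem main_of
    (hNC : ∀ (h : ℕ) (K : Type) [Field K] [Fintype K], h.Prime → Fintype.card K = 7 ^ h →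
      ∀ n N d : ℕ, 29 * n ≤ 30 * 7 ^ h → 1000 * d ≤ 7 ^ h → 2 * N < (d + 1) * (d + 2) →
      NCHyp K n N d)
    (hI : ∃ Kc h0 : ℕ, ∀ h : ℕ, h0 ≤ h → h.Prime →
      ∃ (K : Type) (_ : Field K) (_ : Fintype K) (_ : DecidableEq K) (D : Iface K),
        Fintype.card K = 7 ^ h ∧ D.K0 ≤ Kc ∧ 29 * Fintype.card D.Y ≤ 7 ^ h) :
    ∀ N : ℕ, ∃ r ≥ N, DualExample r := by
  obtain ⟨Kc, h0, hI⟩ := hI
  obtain ⟨q0, hq0⟩ := exists_e0 (4 * Kc) (18 * Kc + 1000)
  intro N
  obtain ⟨h, hp, hh, hq⟩ := exists_prime_pow (N + h0 + q0)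
  obtain ⟨K, _, _, _, D, hK, hK0, hY⟩ := hI h (by omega) hp
  obtain ⟨e0, he1, he2⟩ := hq0 (7 ^ h) (by omega)
  have hY29 : Fintype.card D.Y ≤ 7 ^ h := by omega
  set q := 7 ^ h with hqdef
  have e3 : 18 * Kc * e0 < q := by
    have : 18 * Kc * e0 ≤ (18 * Kc + 1000) * e0 := Nat.mul_le_mul_right _ (by omega)
    omega
  have e4 : 1000 * e0 < q := by
    have : 1000 * e0 ≤ (18 * Kc + 1000) * e0 := Nat.mul_le_mul_right _ (by omega)
    omega
  have e5 : 2 * (Kc * (q + Fintype.card D.Y)) < (e0 + 1) * (e0 + 2) := by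
    refine lt_of_le_of_lt ?_ he1
    calc 2 * (Kc * (q + Fintype.card D.Y)) ≤ 2 * (Kc * (q + q)) := by
          exact Nat.mul_le_mul_left _ (Nat.mul_le_mul_left _ (by omega))
      _ = 4 * Kc * q := by ring
  refine ⟨q + Fintype.card D.Y, by omega, ?_⟩
  have := D.dual e0 (Kc * (q + Fintype.card D.Y)) ?_ ?_ ?_ ?_
  · rw [hK] at this
    exact this
  · rw [hK]
    exact hNC h K hp hK _ _ _ (by omega) (by omega) e5
  · rw [hK]
    exact Nat.mul_le_mul_right _ hK0
  · rw [hK]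
    omega
  · rw [hK]
    refine lt_of_le_of_lt ?_ e3
    exact Nat.mul_le_mul_right _ (Nat.mul_le_mul_left _ hK0)

end Vale.Agent.P045
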