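import Mathlib

/-!
# P045: lines of the affine plane over a finite field and restriction of polynomials to lines
Base file for the classification of near covers of the affine plane by few lines.
-/

namespace Vale.Agent.P045.NC

open MvPolynomial

/-- Lines of `K × K`: `inl (α, β)` is the line `y = α x + β`, `inr γ` is the line `x = γ`. -/
abbrev Ln (K : Type*) := (K × K) ⊕ K

section defs
variable {K : Type*} [Field K]

/-- base point, first coordinate -/
def px : Ln K → K
  | .inl _ => 0
  | .inr γ => γ
/-- base point, second coordinate -/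
def py : Ln K → K
  | .inl ab => ab.2
  | .inr _ => 0
/-- direction, first coordinate -/
def vx : Ln K → K
  | .inl _ => 1
  | .inr _ => 0
/-- direction, second coordinate -/
def vy : Ln K → K
  | .inl ab => ab.1
  | .inr _ => 1

/-- incidence -/
def On (P : K × K) : Ln K → Prop
  | .inl ab => P.2 = ab.1 * P.1 + ab.2
  | .inr γ => P.1 = γ

/-- the affine form of a line -/
noncomputable def ell (L : Ln K) : MvPolynomial (Fin 2) K :=
  C (vy L) * (X 0 - C (px L)) - C (vx L) * (X 1 - C (py L))

/-- restriction to a line -/
noncomputable def res (L : Ln K) : MvPolynomial (Fin 2) K →ₐ[K] Polynomial K :=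
  aeval ![Polynomial.C (px L) + Polynomial.C (vx L) * Polynomial.X,
    Polynomial.C (py L) + Polynomial.C (vy L) * Polynomial.X]

/-- the embedding back -/
noncomputable def emb (L : Ln K) : Polynomial K →ₐ[K] MvPolynomial (Fin 2) K :=
  match L with
  | .inl _ => Polynomial.aeval (X 0)
  | .inr _ => Polynomial.aeval (X 1)

@[simp] lemma res_X0 (L : Ln K) :
    res L (X 0) = Polynomial.C (px L) + Polynomial.C (vx L) * Polynomial.X := by
  simp [res]

@[simp] lemma res_X1 (L : Ln K) :
    res L (X 1) = Polynomial.C (py L) + Polynomial.C (vy L) * Polynomial.X := by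
  simp [res]

@[simp] lemma res_C (L : Ln K) (c : K) : res L (C c) = Polynomial.C c := by
  have : (C c : MvPolynomial (Fin 2) K) = algebraMap K _ c := rfl
  rw [this, AlgHom.commutes]; rfl

lemma res_ell_same (L : Ln K) : res L (ell L) = 0 := by
  simp only [ell, map_sub, map_mul, res_X0, res_X1, res_C]
  ring

lemma res_ell (L M : Ln K) : res L (ell M) =
    Polynomial.C (vy M * (px L - px M) - vx M * (py L - py M)) +
      Polynomial.C (vy M * vx L - vx M * vy L) * Polynomial.X := by
  simp only [ell, map_sub, map_mul, res_X0, res_X1, res_C]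
  ring

lemma vne (L : Ln K) : vx L = 1 ∨ (vx L = 0 ∧ vy L = 1) := by
  rcases L with ab | γ
  · left; rfl
  · right; exact ⟨rfl, rfl⟩

/-- distinct lines: the form of one does not vanish on the other -/
lemma res_ell_ne (L M : Ln K) (h : L ≠ M) : res L (ell M) ≠ 0 := by
  intro h0
  rw [res_ell] at h0
  have h1 := congrArg (fun p => Polynomial.coeff p 0) h0
  have h2 := congrArg (fun p => Polynomial.coeff p 1) h0
  simp only [Polynomial.coeff_add, Polynomial.coeff_C_zero, Polynomial.coeff_C_mul,
    Polynomial.coeff_X_zero, Polynomial.coeff_X_one, Polynomial.coeff_zero, mul_zero, add_zero,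
    mul_one] at h1 h2
  rw [Polynomial.coeff_C_succ, zero_add] at h2
  apply h
  rcases L with ⟨a, b⟩ | c <;> rcases M with ⟨a', b'⟩ | c'
  · simp only [px, py, vx, vy] at h1 h2
    have ha : a' = a := by linear_combination h2
    have hb : b' = b := by linear_combination h1
    rw [ha, hb]
  · simp [px, py, vx, vy] at h1 h2
  · simp [px, py, vx, vy] at h1 h2
  · simp only [px, py, vx, vy] at h1 h2
    have : c = c' := by linear_combination h1
    rw [this]

lemma emb_res_congr (L : Ln K) (f : MvPolynomial (Fin 2) K) :
    ell L ∣ f - emb L (res L f) := by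
  rw [← Ideal.mem_span_singleton, ← Ideal.Quotient.eq_zero_iff_mem, map_sub, sub_eq_zero]
  let q : MvPolynomial (Fin 2) K →ₐ[K] (MvPolynomial (Fin 2) K ⧸ Ideal.span {ell L}) :=
    Ideal.Quotient.mkₐ K _
  have key : q = (q.comp (emb L)).comp (res L) := by
    apply MvPolynomial.algHom_ext
    intro i
    have hmem : q (ell L) = 0 := by
      show Ideal.Quotient.mk _ (ell L) = 0
      rw [Ideal.Quotient.eq_zero_iff_mem]
      exact Ideal.mem_span_singleton_self _
    rcases L with ⟨a, b⟩ | c
    · have e : (ell (.inl (a, b)) : MvPolynomial (Fin 2) K) = C a * X 0 - X 1 + C b := by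
        simp only [ell, px, py, vx, vy, map_zero, map_one]; ring
      replace hmem := (congrArg q e).symm.trans hmem
      fin_cases i
      · simp only [Fin.zero_eta, AlgHom.comp_apply, res_X0, px, vx, map_zero, map_one]
        simp [emb]
      · simp only [Fin.mk_one, AlgHom.comp_apply, res_X1, py, vy]
        have : emb (.inl (a, b)) (Polynomial.C b + Polynomial.C a * Polynomial.X) =
            (C b + C a * X 0 : MvPolynomial (Fin 2) K) := by
          simp [emb, MvPolynomial.algebraMap_eq]
        rw [this, ← sub_eq_zero, ← map_sub]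
        have e2 : (X 1 - (C b + C a * X 0) : MvPolynomial (Fin 2) K) =
          - (C a * X 0 - X 1 + C b) := by ring
        rw [e2, map_neg, hmem, neg_zero]
    · have e : (ell (.inr c) : MvPolynomial (Fin 2) K) = X 0 - C c := by
        simp only [ell, px, py, vx, vy, map_zero, map_one]; ring
      replace hmem := (congrArg q e).symm.trans hmem
      fin_cases i
      · simp only [Fin.zero_eta, AlgHom.comp_apply, res_X0, px, vx, map_zero]
        have : emb (.inr c) (Polynomial.C c + 0 * Polynomial.X) =
            (C c : MvPolynomial (Fin 2) K) := by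
          simp [emb, MvPolynomial.algebraMap_eq]
        rw [this, ← sub_eq_zero, ← map_sub, hmem]
      · simp only [Fin.mk_one, AlgHom.comp_apply, res_X1, py, vy, map_zero, map_one]
        simp [emb]
  exact congrArg (fun g => g f) key

/-- the kernel of restriction -/
lemma dvd_iff_res (L : Ln K) (f : MvPolynomial (Fin 2) K) : ell L ∣ f ↔ res L f = 0 := by
  constructor
  · rintro ⟨g, rfl⟩
    rw [map_mul, res_ell_same, zero_mul]
  · intro h
    have := emb_res_congr L f
    rwa [h, map_zero, sub_zero] at this

lemma ell_ne_zero (L : Ln K) : ell L ≠ 0 := by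
  intro h
  rcases L with ⟨a, b⟩ | c
  · have e : res (.inl (a, b + 1)) (ell (.inl (a, b))) = 0 := by rw [h, map_zero]
    exact res_ell_ne _ _ (by simp) e
  · have e : res (.inr (c + 1)) (ell (.inr c)) = 0 := by rw [h, map_zero]
    exact res_ell_ne _ _ (by simp) e

lemma ell_prime (L : Ln K) : Prime (ell L) := by
  refine ⟨ell_ne_zero L, ?_, ?_⟩
  · intro hu
    have := hu.map (res L)
    rw [res_ell_same] at this
    exact not_isUnit_zero this
  · intro f g h
    rw [dvd_iff_res, map_mul, mul_eq_zero] at h
    rcases h with h | h
    · left; rwa [dvd_iff_res]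
    · right; rwa [dvd_iff_res]

lemma ell_not_dvd (L M : Ln K) (h : L ≠ M) : ¬ ell L ∣ ell M := by
  rw [dvd_iff_res]; exact res_ell_ne L M h

/-- a product of distinct line forms divides as soon as every one does -/
lemma prod_ell_dvd [DecidableEq K] (S : Finset (Ln K)) (f : MvPolynomial (Fin 2) K)
    (h : ∀ L ∈ S, ell L ∣ f) : (∏ L ∈ S, ell L) ∣ f := by
  classical
  induction S using Finset.induction_on generalizing f with
  | empty => simp
  | insert L S hL ih =>
    obtain ⟨g, hg⟩ := h L (Finset.mem_insert_self _ _)
    rw [Finset.prod_insert hL, hg]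
    apply mul_dvd_mul_left
    apply ih
    intro M hM
    have h1 := h M (Finset.mem_insert_of_mem hM)
    rw [hg] at h1
    rcases (ell_prime M).dvd_or_dvd h1 with h2 | h2
    · exact absurd h2 (ell_not_dvd M L (fun e => hL (e ▸ hM)))
    · exact h2

lemma totalDegree_ell (L : Ln K) : (ell L).totalDegree = 1 := by
  apply le_antisymm
  · have h1 : ∀ (i : Fin 2) (c d : K), (C c * (X i - C d) : MvPolynomial (Fin 2) K).totalDegree ≤ 1 := by
      intro i c d
      refine (totalDegree_mul _ _).trans ?_
      rw [totalDegree_C, zero_add]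
      refine (totalDegree_sub _ _).trans ?_
      rw [totalDegree_C, totalDegree_X]; simp
    refine (totalDegree_sub _ _).trans ?_
    exact max_le (h1 _ _ _) (h1 _ _ _)
  · rw [Nat.one_le_iff_ne_zero]
    intro h0
    rw [totalDegree_eq_zero_iff_eq_C] at h0
    have h1 := res_ell_same L
    rw [h0, res_C] at h1
    have h2 : coeff 0 (ell L) = 0 := by simpa using h1
    rw [h2, map_zero] at h0
    exact ell_ne_zero L h0

lemma totalDegree_prod_ell [DecidableEq K] (S : Finset (Ln K)) :
    (∏ L ∈ S, ell L).totalDegree = S.card := by
  classical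
  induction S using Finset.induction_on with
  | empty => simp
  | insert L S hL ih =>
    rw [Finset.prod_insert hL, totalDegree_mul_of_isDomain (ell_ne_zero L)
      (Finset.prod_ne_zero_iff.mpr (fun M _ => ell_ne_zero M)), ih, totalDegree_ell,
      Finset.card_insert_of_notMem hL, add_comm]

/-- a polynomial of degree less than the number of lines on which it vanishes is zero -/
lemma eq_zero_of_lines [DecidableEq K] (S : Finset (Ln K)) (f : MvPolynomial (Fin 2) K)
    (h : ∀ L ∈ S, res L f = 0) (hd : f.totalDegree < S.card) : f = 0 := by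
  by_contra hf
  obtain ⟨g, hg⟩ := prod_ell_dvd S f (fun L hL => (dvd_iff_res L f).mpr (h L hL))
  have hg0 : g ≠ 0 := by rintro rfl; exact hf (by rw [hg, mul_zero])
  have hp0 : (∏ L ∈ S, ell L) ≠ 0 := Finset.prod_ne_zero_iff.mpr (fun M _ => ell_ne_zero M)
  have := congrArg totalDegree hg
  rw [totalDegree_mul_of_isDomain hp0 hg0, totalDegree_prod_ell] at this
  omega

/-- chain rule along a line -/
lemma derivative_res (L : Ln K) (f : MvPolynomial (Fin 2) K) :
    Polynomial.derivative (res L f) =
      Polynomial.C (vx L) * res L (pderiv 0 f) + Polynomial.C (vy L) * res L (pderiv 1 f) := by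
  induction f using MvPolynomial.induction_on with
  | C c => simp
  | add f g hf hg => simp only [map_add, hf, hg]; ring
  | mul_X f i hf =>
    fin_cases i
    · simp only [Fin.zero_eta, map_mul, Polynomial.derivative_mul, hf, res_X0,
        Derivation.leibniz, smul_eq_mul, pderiv_X_self, map_add]
      rw [pderiv_X_of_ne (by decide : (0 : Fin 2) ≠ 1)]
      simp
      ring
    · simp only [Fin.mk_one, map_mul, Polynomial.derivative_mul, hf, res_X1,
        Derivation.leibniz, smul_eq_mul, pderiv_X_self, map_add]
      rw [pderiv_X_of_ne (by decide : (1 : Fin 2) ≠ 0)]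
      simp
      ring

lemma natDegree_res (L : Ln K) (f : MvPolynomial (Fin 2) K) :
    (res L f).natDegree ≤ f.totalDegree := by
  have := MvPolynomial.aeval_natDegree_le f (m := f.totalDegree) (n := 1) le_rfl
    ![Polynomial.C (px L) + Polynomial.C (vx L) * Polynomial.X,
    Polynomial.C (py L) + Polynomial.C (vy L) * Polynomial.X] ?_
  · simpa [res] using this
  · intro i
    fin_cases i
    · simp only [Fin.zero_eta, Matrix.cons_val_zero]
      refine (Polynomial.natDegree_add_le _ _).trans ?_
      simp only [Polynomial.natDegree_C, zero_le, sup_of_le_right]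
      exact (Polynomial.natDegree_C_mul_le _ _).trans Polynomial.natDegree_X_le
    · simp only [Fin.mk_one, Matrix.cons_val_one]
      refine (Polynomial.natDegree_add_le _ _).trans ?_
      simp only [Polynomial.natDegree_C, zero_le, sup_of_le_right]
      exact (Polynomial.natDegree_C_mul_le _ _).trans Polynomial.natDegree_X_le

end defs

end Vale.Agent.P045.NC
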