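import Mathlib

/-!
# P045, [U1]: counting the roots of `W` when `W ^ s` is a product of linear factors times `G`
-/

namespace Vale.Agent.P045.NC

open Polynomial

namespace CountAux

variable {K : Type*} [Field K] [DecidableEq K]

theorem sum_mult_le (W w : K[X]) (hw : w ≠ 0)
    (hdiv : ∀ r : K, (X - C r) ^ (W.rootMultiplicity r - 1) ∣ w) :
    ∑ r ∈ W.roots.toFinset, (W.rootMultiplicity r - 1) ≤ w.natDegree := by
  have h1 : ∏ r ∈ W.roots.toFinset, (X - C r) ^ (W.rootMultiplicity r - 1) ∣ w := by
    apply Finset.prod_dvd_of_coprime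
    · intro a _ b _ hab
      exact IsCoprime.pow (pairwise_coprime_X_sub_C Function.injective_id hab)
    · intro r _
      exact hdiv r
  have h2 := natDegree_le_of_dvd h1 hw
  rw [natDegree_prod_of_monic _ _ (fun r _ => (monic_X_sub_C r).pow _)] at h2
  refine le_trans (le_of_eq ?_) h2
  refine Finset.sum_congr rfl fun r _ => ?_
  rw [(monic_X_sub_C r).natDegree_pow, natDegree_X_sub_C, mul_one]

theorem card_roots_eq (W : K[X]) :
    W.roots.card = W.roots.toFinset.card + ∑ r ∈ W.roots.toFinset, (W.rootMultiplicity r - 1) := by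
  rw [← Multiset.toFinset_sum_count_eq, Finset.card_eq_sum_ones, ← Finset.sum_add_distrib]
  refine Finset.sum_congr rfl fun r hr => ?_
  rw [count_roots]
  have : 1 ≤ W.rootMultiplicity r := by
    rw [← count_roots, Multiset.one_le_count_iff_mem]
    exact Multiset.mem_toFinset.1 hr
  omega

omit [DecidableEq K] in
theorem rest_le (W Q G : K[X]) (s : ℕ) (hW : W ≠ 0)
    (hQ : ∀ r : K[X], Irreducible r → r ∣ Q → r.natDegree = 1)
    (h : W ^ s = Q * G) : s * W.natDegree ≤ s * W.roots.card + G.natDegree := by
  obtain ⟨q, hq1, hq2, hq3⟩ := exists_prod_multiset_X_sub_C_mul W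
  have hq0 : q ≠ 0 := by
    rintro rfl
    rw [mul_zero] at hq1
    exact hW hq1.symm
  have hG : G ≠ 0 := by
    rintro rfl
    rw [mul_zero] at h
    exact pow_ne_zero s hW h
  have hcop : IsCoprime q Q := by
    apply isCoprime_of_irreducible_dvd
    · rintro ⟨h1, _⟩
      exact hq0 h1
    · intro z hz hzq hzQ
      have h1 := hQ z hz hzQ
      have h1' : z.degree = 1 := (degree_eq_iff_natDegree_eq_of_pos one_pos).2 h1
      obtain ⟨a, ha⟩ := exists_root_of_degree_eq_one h1'
      have h2 : q.IsRoot a := ha.dvd hzq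
      have h3 : a ∈ q.roots := (mem_roots hq0).2 h2
      rw [hq3] at h3
      exact absurd h3 (Multiset.notMem_zero a)
  have h4 : q ^ s ∣ G := by
    apply (hcop.pow_left (m := s)).dvd_of_dvd_mul_left
    rw [← h, ← hq1, mul_pow]
    exact Dvd.intro_left _ rfl
  have h5 := natDegree_le_of_dvd h4 hG
  rw [natDegree_pow] at h5
  rw [← hq2, mul_add]
  omega

end CountAux

/-- U1 (helper22) -/
theorem count_roots {K : Type*} [Field K] [Fintype K] [DecidableEq K]
    (W w Q G : Polynomial K) (s : ℕ) (hs : 0 < s) (hW : W ≠ 0) (hw : w ≠ 0)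
    (hQ : ∀ r : Polynomial K, Irreducible r → r ∣ Q → r.natDegree = 1)
    (h : W ^ s = Q * G)
    (hdiv : ∀ r : K, (Polynomial.X - Polynomial.C r) ^ (W.rootMultiplicity r - 1) ∣ w) :
    s * W.natDegree ≤ s * W.roots.toFinset.card + s * w.natDegree + G.natDegree ∧
    s * W.natDegree ≤ s * (W.roots.toFinset.filter (fun r => W.rootMultiplicity r = 1)).card +
      2 * s * w.natDegree + G.natDegree := by
  have h1 := CountAux.sum_mult_le W w hw hdiv
  have h2 := CountAux.card_roots_eq W
  have h3 := CountAux.rest_le W Q G s hW hQ h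
  have h4 : W.roots.toFinset.card ≤
      (W.roots.toFinset.filter (fun r => W.rootMultiplicity r = 1)).card +
        ∑ r ∈ W.roots.toFinset, (W.rootMultiplicity r - 1) := by
    rw [Finset.card_filter, Finset.card_eq_sum_ones, ← Finset.sum_add_distrib]
    refine Finset.sum_le_sum fun r hr => ?_
    have : 1 ≤ W.rootMultiplicity r := by
      rw [← Polynomial.count_roots, Multiset.one_le_count_iff_mem]
      exact Multiset.mem_toFinset.1 hr
    split_ifs with h5 <;> omega
  have h5 : s * W.roots.card ≤ s * (W.roots.toFinset.card + w.natDegree) :=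
    Nat.mul_le_mul_left _ (by omega)
  have h6 : s * W.roots.card ≤
      s * ((W.roots.toFinset.filter (fun r => W.rootMultiplicity r = 1)).card +
        2 * w.natDegree) := Nat.mul_le_mul_left _ (by omega)
  constructor
  · nlinarith
  · nlinarith

end Vale.Agent.P045.NC
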