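import Vale.Agent.P045.NCBase

/-!
# P045: gradients of polynomials in two variables in characteristic two
-/

namespace Vale.Agent.P045.NC

open MvPolynomial

variable {K : Type*} [Field K]

lemma degree_add_single (m : Fin 2 →₀ ℕ) (i : Fin 2) :
    ((m + Finsupp.single i 1).sum fun _ e => e) = (m.sum fun _ e => e) + 1 := by
  rw [Finsupp.sum_add_index' (fun _ => rfl) (fun _ _ _ => rfl)]
  simp

lemma totalDegree_pderiv_le (i : Fin 2) (f : MvPolynomial (Fin 2) K) :
    (pderiv i f).totalDegree ≤ f.totalDegree - 1 := by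
  rw [totalDegree]
  apply Finset.sup_le
  intro m hm
  rw [mem_support_iff, coeff_pderiv] at hm
  have h1 : coeff (m + Finsupp.single i 1) f ≠ 0 := by
    intro h; apply hm; rw [h]; ring
  have h2 := le_totalDegree (mem_support_iff.mpr h1)
  rw [degree_add_single] at h2
  omega

/-- if a non zero polynomial divides its derivative, the derivative is zero -/
lemma pderiv_eq_zero_of_dvd (i : Fin 2) (f : MvPolynomial (Fin 2) K) (hf : f ∣ pderiv i f) :
    pderiv i f = 0 := by
  by_contra h
  obtain ⟨g, hg⟩ := hf
  have hf0 : f ≠ 0 := by rintro rfl; simp at h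
  have hg0 : g ≠ 0 := by rintro rfl; rw [mul_zero] at hg; exact h hg
  have h1 := congrArg totalDegree hg
  rw [totalDegree_mul_of_isDomain hf0 hg0] at h1
  have h2 := totalDegree_pderiv_le i f
  have h3 : f.totalDegree = 0 := by omega
  rw [totalDegree_eq_zero_iff_eq_C] at h3
  rw [h3, pderiv_C] at h
  exact h rfl

/-- in characteristic `p` over a perfect field a polynomial with zero gradient is a `p`-th power -/
lemma exists_root (p : ℕ) [hp : Fact p.Prime] [CharP K p] [PerfectRing K p]
    (f : MvPolynomial (Fin 2) K) (h : ∀ i, pderiv i f = 0) : ∃ g, f = g ^ p := by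
  classical
  have hdvd : ∀ m ∈ f.support, ∀ i, p ∣ m i := by
    intro m hm i
    by_cases h0 : m i = 0
    · rw [h0]; exact dvd_zero _
    · have h1 := congrArg (coeff (m - Finsupp.single i 1)) (h i)
      rw [coeff_pderiv, coeff_zero] at h1
      have h2 : m - Finsupp.single i 1 + Finsupp.single i 1 = m := by
        apply tsub_add_cancel_of_le
        rw [Finsupp.single_le_iff]; omega
      rw [h2] at h1
      have h3 : ((((m - Finsupp.single i 1 : Fin 2 →₀ ℕ)) i : ℕ) : K) + 1 = (m i : K) := by
        have : (m - Finsupp.single i 1 : Fin 2 →₀ ℕ) i + 1 = m i := by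
          rw [Finsupp.tsub_apply, Finsupp.single_eq_same]; omega
        exact_mod_cast congrArg (Nat.cast : ℕ → K) this
      rw [h3] at h1
      rcases mul_eq_zero.mp h1 with h4 | h4
      · exact absurd h4 (mem_support_iff.mp hm)
      · exact (CharP.cast_eq_zero_iff K p _).mp h4
  refine ⟨∑ m ∈ f.support, monomial (m.mapRange (· / p) (by simp))
    ((frobeniusEquiv K p).symm (coeff m f)), ?_⟩
  rw [sum_pow_char p]
  conv_lhs => rw [f.as_sum]
  apply Finset.sum_congr rfl
  intro m hm
  rw [monomial_pow]
  have e1 : p • Finsupp.mapRange (· / p) (by simp) m = m := by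
    apply Finsupp.ext
    intro i
    rw [Finsupp.smul_apply, Finsupp.mapRange_apply, smul_eq_mul]
    exact Nat.mul_div_cancel' (hdvd m hm i)
  have e2 : ((frobeniusEquiv K p).symm (coeff m f)) ^ p = coeff m f := by
    have := (frobeniusEquiv K p).apply_symm_apply (coeff m f)
    rw [frobeniusEquiv_apply] at this
    exact this
  rw [e1, e2]

lemma totalDegree_pow' (f : MvPolynomial (Fin 2) K) (n : ℕ) :
    (f ^ n).totalDegree = n * f.totalDegree := by
  by_cases hf : f = 0
  · subst hf
    rcases Nat.eq_zero_or_pos n with rfl | hn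
    · simp
    · rw [zero_pow (by omega)]; simp
  · induction n with
    | zero => simp
    | succ n ih =>
      rw [pow_succ, totalDegree_mul_of_isDomain (pow_ne_zero n hf) hf, ih]
      ring

/-- extraction of the largest power of `p` -/
lemma exists_max (p : ℕ) [hp : Fact p.Prime] [CharP K p] [PerfectRing K p]
    (N : ℕ) : ∀ (A B D : MvPolynomial (Fin 2) K), A.totalDegree + B.totalDegree + D.totalDegree = N →
    N ≠ 0 → ∃ (e : ℕ) (A1 B1 D1 : MvPolynomial (Fin 2) K),
      A = A1 ^ p ^ e ∧ B = B1 ^ p ^ e ∧ D = D1 ^ p ^ e ∧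
      ¬ ((∀ i, pderiv i A1 = 0) ∧ (∀ i, pderiv i B1 = 0) ∧ (∀ i, pderiv i D1 = 0)) := by
  induction N using Nat.strong_induction_on with
  | _ N ih =>
    intro A B D hN hN0
    by_cases h : (∀ i, pderiv i A = 0) ∧ (∀ i, pderiv i B = 0) ∧ (∀ i, pderiv i D = 0)
    · obtain ⟨hA, hB, hD⟩ := h
      obtain ⟨A', rfl⟩ := exists_root p A hA
      obtain ⟨B', rfl⟩ := exists_root p B hB
      obtain ⟨D', rfl⟩ := exists_root p D hD
      rw [totalDegree_pow', totalDegree_pow', totalDegree_pow'] at hN
      have hp2 := hp.out.two_le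
      have hsum : p * (A'.totalDegree + B'.totalDegree + D'.totalDegree) = N := by
        rw [← hN]; ring
      have hlt : A'.totalDegree + B'.totalDegree + D'.totalDegree < N := by
        rcases Nat.eq_zero_or_pos (A'.totalDegree + B'.totalDegree + D'.totalDegree) with h0 | h0
        · omega
        · nlinarith
      have hne : A'.totalDegree + B'.totalDegree + D'.totalDegree ≠ 0 := by
        intro h0; rw [h0, mul_zero] at hsum; exact hN0 hsum.symm
      obtain ⟨e, A1, B1, D1, h1, h2, h3, h4⟩ := ih _ hlt A' B' D' rfl hne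
      refine ⟨e + 1, A1, B1, D1, ?_, ?_, ?_, h4⟩
      · rw [h1, ← pow_mul, pow_succ]
      · rw [h2, ← pow_mul, pow_succ]
      · rw [h3, ← pow_mul, pow_succ]
    · exact ⟨0, A, B, D, by simp, by simp, by simp, h⟩

end Vale.Agent.P045.NC
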