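import Mathlib

/-!
P045, [SUBLINE]: the binary form `x (b₁ x^s + b₂ y^s) - y (a₁ x^s + a₂ y^s)`, `s = p ^ e`, over a
field with `p ^ h` elements, `h` prime, `1 ≤ e < h`, has at most `p + 1` pairwise
non-proportional zeros.
-/

open Finset Polynomial

namespace Vale.Agent.P045

variable {K : Type*} [Field K]

/-- Common periodic points of two powers of Frobenius. -/
theorem pow_prime_eq_of_pow_eq [Fintype K] {p h e : ℕ} (hcard : Fintype.card K = p ^ h)
    (hh : h.Prime) (he : 1 ≤ e) (heh : e < h) {z : K} (hz : z ^ p ^ e = z) : z ^ p = z := by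
  have h1 : Function.IsPeriodicPt (fun x : K => x ^ p) e z := by
    rw [Function.IsPeriodicPt, Function.IsFixedPt, pow_iterate]
    exact hz
  have h2 : Function.IsPeriodicPt (fun x : K => x ^ p) h z := by
    rw [Function.IsPeriodicPt, Function.IsFixedPt, pow_iterate]
    have := FiniteField.pow_card z
    rwa [hcard] at this
  have h3 := h1.gcd h2
  have h4 : Nat.gcd e h = 1 := by
    rw [Nat.gcd_comm]
    exact (Nat.Prime.coprime_iff_not_dvd hh).2 (Nat.not_dvd_of_pos_of_lt he heh)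
  rw [h4] at h3
  exact h3

theorem card_fixed_le [Fintype K] [DecidableEq K] {p : ℕ} (hp : 1 < p) :
    (univ.filter fun z : K => z ^ p = z).card ≤ p := by
  have hdeg := FiniteField.X_pow_card_sub_X_natDegree_eq K hp
  have hne := FiniteField.X_pow_card_sub_X_ne_zero K hp
  calc (univ.filter fun z : K => z ^ p = z).card
      ≤ (X ^ p - X : K[X]).roots.toFinset.card := by
        refine Finset.card_le_card fun z hz => ?_
        rw [Finset.mem_filter] at hz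
        rw [Multiset.mem_toFinset, Polynomial.mem_roots hne]
        simp [hz.2]
    _ ≤ (X ^ p - X : K[X]).roots.card := Multiset.toFinset_card_le _
    _ ≤ (X ^ p - X : K[X]).natDegree := Polynomial.card_roots' _
    _ = p := hdeg

/-- [SUBLINE] -/
theorem subline [Fintype K] [DecidableEq K] {p h e : ℕ} [Fact p.Prime] [CharP K p]
    (hcard : Fintype.card K = p ^ h) (hh : h.Prime) (he : 1 ≤ e) (heh : e < h)
    (a₁ a₂ b₁ b₂ : K) (hne : ¬ (a₁ = 0 ∧ a₂ = 0 ∧ b₁ = 0 ∧ b₂ = 0)) (T : Finset (K × K))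
    (hT : ∀ u ∈ T, ∀ v ∈ T, u ≠ v → u.1 * v.2 ≠ v.1 * u.2)
    (hz : ∀ u ∈ T, u.1 * (b₁ * u.1 ^ p ^ e + b₂ * u.2 ^ p ^ e) -
      u.2 * (a₁ * u.1 ^ p ^ e + a₂ * u.2 ^ p ^ e) = 0) :
    T.card ≤ p + 1 := by
  have hp1 : 1 < p := (Fact.out : p.Prime).one_lt
  set s := p ^ e with hs
  by_contra hcon
  have hcard3 : 2 < T.card := by omega
  obtain ⟨u, v, w, hu, hv, hw, huv, huw, hvw⟩ := Finset.two_lt_card_iff.1 hcard3
  have frob : ∀ x y : K, (x + y) ^ s = x ^ s + y ^ s := fun x y => add_pow_char_pow x y p e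
  have frobs : ∀ x y : K, (x - y) ^ s = x ^ s - y ^ s := fun x y => sub_pow_char_pow x y e
  have hD : u.1 * v.2 - v.1 * u.2 ≠ 0 := sub_ne_zero.2 (hT u hu v hv huv)
  have hDu : w.1 * v.2 - v.1 * w.2 ≠ 0 := sub_ne_zero.2 (hT w hw v hv hvw.symm)
  have hDv : u.1 * w.2 - w.1 * u.2 ≠ 0 := sub_ne_zero.2 (hT u hu w hw huw)
  set D := u.1 * v.2 - v.1 * u.2 with hDdef
  obtain ⟨α, hα⟩ : ∃ α, α = (w.1 * v.2 - v.1 * w.2) / D := ⟨_, rfl⟩
  obtain ⟨β, hβ⟩ : ∃ β, β = (u.1 * w.2 - w.1 * u.2) / D := ⟨_, rfl⟩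
  have hα0 : α ≠ 0 := by rw [hα]; exact div_ne_zero hDu hD
  have hβ0 : β ≠ 0 := by rw [hβ]; exact div_ne_zero hDv hD
  obtain ⟨x1, hx1⟩ : ∃ x1, x1 = α * u.1 := ⟨_, rfl⟩
  obtain ⟨x2, hx2⟩ : ∃ x2, x2 = α * u.2 := ⟨_, rfl⟩
  obtain ⟨y1, hy1⟩ : ∃ y1, y1 = β * v.1 := ⟨_, rfl⟩
  obtain ⟨y2, hy2⟩ : ∃ y2, y2 = β * v.2 := ⟨_, rfl⟩
  have hw1 : w.1 = x1 + y1 := by
    rw [hx1, hy1, hα, hβ]
    field_simp
    rw [hDdef]
    ring
  have hw2 : w.2 = x2 + y2 := by
    rw [hx2, hy2, hα, hβ]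
    field_simp
    rw [hDdef]
    ring
  -- polarisation
  obtain ⟨B, hB⟩ : ∃ B : K → K → K → K → K, B = fun s1 s2 t1 t2 =>
    s1 * (b₁ * t1 ^ s + b₂ * t2 ^ s) - s2 * (a₁ * t1 ^ s + a₂ * t2 ^ s) := ⟨_, rfl⟩
  have hBuu : B x1 x2 x1 x2 = 0 := by
    rw [hB, hx1, hx2]
    simp only
    have := hz u hu
    calc α * u.1 * (b₁ * (α * u.1) ^ s + b₂ * (α * u.2) ^ s) -
          α * u.2 * (a₁ * (α * u.1) ^ s + a₂ * (α * u.2) ^ s)
        = α * α ^ s * (u.1 * (b₁ * u.1 ^ s + b₂ * u.2 ^ s) -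
          u.2 * (a₁ * u.1 ^ s + a₂ * u.2 ^ s)) := by
          rw [mul_pow, mul_pow]; ring
      _ = 0 := by rw [this, mul_zero]
  have hBvv : B y1 y2 y1 y2 = 0 := by
    rw [hB, hy1, hy2]
    simp only
    have := hz v hv
    calc β * v.1 * (b₁ * (β * v.1) ^ s + b₂ * (β * v.2) ^ s) -
          β * v.2 * (a₁ * (β * v.1) ^ s + a₂ * (β * v.2) ^ s)
        = β * β ^ s * (v.1 * (b₁ * v.1 ^ s + b₂ * v.2 ^ s) -
          v.2 * (a₁ * v.1 ^ s + a₂ * v.2 ^ s)) := by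
          rw [mul_pow, mul_pow]; ring
      _ = 0 := by rw [this, mul_zero]
  have hexp : ∀ σ τ : K, B (σ * x1 + τ * y1) (σ * x2 + τ * y2) (σ * x1 + τ * y1)
      (σ * x2 + τ * y2) = σ * τ ^ s * B x1 x2 y1 y2 + τ * σ ^ s * B y1 y2 x1 x2 := by
    intro σ τ
    have e1 : B (σ * x1 + τ * y1) (σ * x2 + τ * y2) (σ * x1 + τ * y1) (σ * x2 + τ * y2) =
        σ * σ ^ s * B x1 x2 x1 x2 + σ * τ ^ s * B x1 x2 y1 y2 + τ * σ ^ s * B y1 y2 x1 x2 +
          τ * τ ^ s * B y1 y2 y1 y2 := by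
      rw [hB]
      simp only
      rw [frob, frob, mul_pow, mul_pow, mul_pow, mul_pow]
      ring
    rw [e1, hBuu, hBvv]
    ring
  have hanti : B y1 y2 x1 x2 = - B x1 x2 y1 y2 := by
    have h1 := hexp 1 1
    have h2 : B (1 * x1 + 1 * y1) (1 * x2 + 1 * y2) (1 * x1 + 1 * y1) (1 * x2 + 1 * y2) = 0 := by
      rw [one_mul, one_mul, one_mul, one_mul, ← hw1, ← hw2, hB]
      exact hz w hw
    rw [h2] at h1
    simp only [one_pow, one_mul] at h1
    linear_combination -h1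
  have hdet : x1 * y2 - y1 * x2 ≠ 0 := by
    rw [hx1, hx2, hy1, hy2]
    have : α * u.1 * (β * v.2) - β * v.1 * (α * u.2) = α * β * D := by rw [hDdef]; ring
    rw [this]
    exact mul_ne_zero (mul_ne_zero hα0 hβ0) hD
  have hdets : x1 ^ s * y2 ^ s - y1 ^ s * x2 ^ s ≠ 0 := by
    rw [← mul_pow, ← mul_pow, ← frobs]
    exact pow_ne_zero _ hdet
  have hc : B x1 x2 y1 y2 ≠ 0 := by
    intro hc
    have hc' : B y1 y2 x1 x2 = 0 := by rw [hanti, hc, neg_zero]
    rw [hB] at hc hc' hBuu hBvv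
    simp only at hc hc' hBuu hBvv
    -- for `Y ∈ {x^s, y^s}`: `b · Y = 0`, `a · Y = 0`
    have k1 : b₁ * x1 ^ s + b₂ * x2 ^ s = 0 := by
      have : (x1 * y2 - y1 * x2) * (b₁ * x1 ^ s + b₂ * x2 ^ s) = 0 := by
        linear_combination y2 * hBuu - x2 * hc'
      exact (mul_eq_zero.1 this).resolve_left hdet
    have k2 : a₁ * x1 ^ s + a₂ * x2 ^ s = 0 := by
      have : (x1 * y2 - y1 * x2) * (a₁ * x1 ^ s + a₂ * x2 ^ s) = 0 := by
        linear_combination y1 * hBuu - x1 * hc'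
      exact (mul_eq_zero.1 this).resolve_left hdet
    have k3 : b₁ * y1 ^ s + b₂ * y2 ^ s = 0 := by
      have : (x1 * y2 - y1 * x2) * (b₁ * y1 ^ s + b₂ * y2 ^ s) = 0 := by
        linear_combination y2 * hc - x2 * hBvv
      exact (mul_eq_zero.1 this).resolve_left hdet
    have k4 : a₁ * y1 ^ s + a₂ * y2 ^ s = 0 := by
      have : (x1 * y2 - y1 * x2) * (a₁ * y1 ^ s + a₂ * y2 ^ s) = 0 := by
        linear_combination y1 * hc - x1 * hBvv
      exact (mul_eq_zero.1 this).resolve_left hdet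
    apply hne
    refine ⟨?_, ?_, ?_, ?_⟩
    · have : (x1 ^ s * y2 ^ s - y1 ^ s * x2 ^ s) * a₁ = 0 := by
        linear_combination y2 ^ s * k2 - x2 ^ s * k4
      exact (mul_eq_zero.1 this).resolve_left hdets
    · have : (x1 ^ s * y2 ^ s - y1 ^ s * x2 ^ s) * a₂ = 0 := by
        linear_combination x1 ^ s * k4 - y1 ^ s * k2
      exact (mul_eq_zero.1 this).resolve_left hdets
    · have : (x1 ^ s * y2 ^ s - y1 ^ s * x2 ^ s) * b₁ = 0 := by
        linear_combination y2 ^ s * k1 - x2 ^ s * k3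
      exact (mul_eq_zero.1 this).resolve_left hdets
    · have : (x1 ^ s * y2 ^ s - y1 ^ s * x2 ^ s) * b₂ = 0 := by
        linear_combination x1 ^ s * k3 - y1 ^ s * k1
      exact (mul_eq_zero.1 this).resolve_left hdets
  -- the ratio
  have hcount : (T.erase u).card ≤ (univ.filter fun z : K => z ^ p = z).card := by
    refine Finset.card_le_card_of_injOn
      (fun t => (t.1 * y2 - y1 * t.2) / (x1 * t.2 - t.1 * x2)) ?_ ?_
    · intro t ht
      have ht' := Finset.mem_erase.1 (Finset.mem_coe.1 ht)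
      have hτ : x1 * t.2 - t.1 * x2 ≠ 0 := by
        rw [hx1, hx2]
        have : α * u.1 * t.2 - t.1 * (α * u.2) = α * (u.1 * t.2 - t.1 * u.2) := by ring
        rw [this]
        exact mul_ne_zero hα0 (sub_ne_zero.2 (hT u hu t ht'.2 (Ne.symm ht'.1)))
      simp only [Finset.coe_filter, Finset.mem_univ, true_and]
      refine pow_prime_eq_of_pow_eq hcard hh he heh ?_
      rw [← hs]
      obtain ⟨Δ, hΔ⟩ : ∃ Δ, Δ = x1 * y2 - y1 * x2 := ⟨_, rfl⟩
      have hΔ0 : Δ ≠ 0 := by rw [hΔ]; exact hdet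
      obtain ⟨σ, hσ⟩ : ∃ σ, σ = (t.1 * y2 - y1 * t.2) / Δ := ⟨_, rfl⟩
      obtain ⟨τ, hτd⟩ : ∃ τ, τ = (x1 * t.2 - t.1 * x2) / Δ := ⟨_, rfl⟩
      have hτ0 : τ ≠ 0 := by rw [hτd]; exact div_ne_zero hτ hΔ0
      have ht1 : t.1 = σ * x1 + τ * y1 := by
        rw [hσ, hτd]
        field_simp
        rw [hΔ]
        ring
      have ht2 : t.2 = σ * x2 + τ * y2 := by
        rw [hσ, hτd]
        field_simp
        rw [hΔ]
        ring
      have hzt : B (σ * x1 + τ * y1) (σ * x2 + τ * y2) (σ * x1 + τ * y1)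
          (σ * x2 + τ * y2) = 0 := by
        rw [← ht1, ← ht2, hB]
        exact hz t ht'.2
      rw [hexp, hanti] at hzt
      have hzt2 : σ * τ ^ s = τ * σ ^ s := by
        have : (σ * τ ^ s - τ * σ ^ s) * B x1 x2 y1 y2 = 0 := by linear_combination hzt
        exact sub_eq_zero.1 ((mul_eq_zero.1 this).resolve_right hc)
      have hratio : (t.1 * y2 - y1 * t.2) / (x1 * t.2 - t.1 * x2) = σ / τ := by
        rw [hσ, hτd, div_div_div_cancel_right₀ hΔ0]
      rw [hratio, div_pow, div_eq_div_iff (pow_ne_zero _ hτ0) hτ0]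
      linear_combination -hzt2
    · intro t ht t' ht' hEq
      have h1 := Finset.mem_erase.1 (Finset.mem_coe.1 ht)
      have h2 := Finset.mem_erase.1 (Finset.mem_coe.1 ht')
      simp only at hEq
      have hτ : x1 * t.2 - t.1 * x2 ≠ 0 := by
        rw [hx1, hx2]
        have : α * u.1 * t.2 - t.1 * (α * u.2) = α * (u.1 * t.2 - t.1 * u.2) := by ring
        rw [this]
        exact mul_ne_zero hα0 (sub_ne_zero.2 (hT u hu t h1.2 (Ne.symm h1.1)))
      have hτ' : x1 * t'.2 - t'.1 * x2 ≠ 0 := by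
        rw [hx1, hx2]
        have : α * u.1 * t'.2 - t'.1 * (α * u.2) = α * (u.1 * t'.2 - t'.1 * u.2) := by ring
        rw [this]
        exact mul_ne_zero hα0 (sub_ne_zero.2 (hT u hu t' h2.2 (Ne.symm h2.1)))
      rw [div_eq_div_iff hτ hτ'] at hEq
      by_contra hne'
      have h3 := hT t h1.2 t' h2.2 hne'
      apply h3
      have : (x1 * y2 - y1 * x2) * (t.1 * t'.2 - t'.1 * t.2) = 0 := by
        linear_combination hEq
      exact sub_eq_zero.1 ((mul_eq_zero.1 this).resolve_left hdet)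
  have h5 := card_fixed_le (K := K) hp1
  rw [Finset.card_erase_of_mem hu] at hcount
  omega

end Vale.Agent.P045
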