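import Vale.Agent.P045.NCReduce
import Vale.Agent.P045.Subline

/-!
# P045: at most `p + 1` lines through a point where the restriction is simple
-/

namespace Vale.Agent.P045.NC

open MvPolynomial

/-- evaluation of a restriction -/
lemma eval_res {K : Type*} [Field K] (L : Ln K) (t : K) (f : MvPolynomial (Fin 2) K) :
    (res L f).eval t = ev (ptx L t, pty L t) f := by
  have key : ((Polynomial.evalRingHom t).comp (res L : MvPolynomial (Fin 2) K →+* Polynomial K)) =
      ev (ptx L t, pty L t) := by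
    apply MvPolynomial.ringHom_ext
    · intro c
      simp
    · intro i
      fin_cases i
      · change Polynomial.eval t (res L (X 0)) = ev (ptx L t, pty L t) (X 0)
        rw [res_X0, ev_X0, Polynomial.eval_add, Polynomial.eval_mul, Polynomial.eval_C,
          Polynomial.eval_C, Polynomial.eval_X, ptx]
        ring
      · change Polynomial.eval t (res L (X 1)) = ev (ptx L t, pty L t) (X 1)
        rw [res_X1, ev_X1, Polynomial.eval_add, Polynomial.eval_mul, Polynomial.eval_C,
          Polynomial.eval_C, Polynomial.eval_X, pty]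
        ring
  exact congrArg (fun g => g f) key

/-- the parameter of a point on a line -/
lemma exists_param {K : Type*} [Field K] (P : K × K) (M : Ln K) (h : On P M) :
    ∃ t, ptx M t = P.1 ∧ pty M t = P.2 := by
  rcases M with ⟨a, b⟩ | c
  · refine ⟨P.1, by simp [ptx, px, vx], ?_⟩
    simp only [On] at h
    simp only [pty, py, vy]
    rw [h]
    ring
  · refine ⟨P.2, ?_, by simp [pty, py, vy]⟩
    simp only [On] at h
    simp only [ptx, px, vx]
    rw [h]
    ring

/-- L1 (helper59) -/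
theorem card_through_le {K : Type*} [Field K] [Fintype K] [DecidableEq K] (h e p : ℕ)
    [Fact p.Prime] [CharP K p] (hK : Fintype.card K = p ^ h) (hh : h.Prime) (he1 : 1 ≤ e) (he2 : e < h)
    (A B D : MvPolynomial (Fin 2) K) (S : Finset (Ln K))
    (hrel : ∀ L ∈ S, Polynomial.C (vx L) * (Polynomial.C (py L) * (res L D) ^ p ^ e - (res L B) ^ p ^ e)
      + Polynomial.C (vy L) * ((res L A) ^ p ^ e - Polynomial.C (px L) * (res L D) ^ p ^ e) = 0)
    (L : Ln K) (hL : L ∈ S) (t : K) (Z : MvPolynomial (Fin 2) K)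
    (hZ : (vx L ≠ 0 → Z = A) ∧ (vx L = 0 → Z = B))
    (ht0 : (Polynomial.X ^ p ^ (h - e) * res L D - res L Z).eval t = 0)
    (ht1 : (Polynomial.derivative (Polynomial.X ^ p ^ (h - e) * res L D - res L Z)).eval t ≠ 0)
    (T : Finset (Ln K)) (hTS : T ⊆ S) (hT : ∀ M ∈ T, On (ptx L t, pty L t) M) : T.card ≤ p + 1 := by
  have hp : p.Prime := Fact.out
  set s := p ^ e with hs
  have hs0 : s ≠ 0 := pow_ne_zero _ hp.ne_zero
  -- the inverse Frobenius
  obtain ⟨r, hr⟩ : ∃ r : K → K, ∀ x, r x = x ^ p ^ (h - e) := ⟨_, fun _ => rfl⟩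
  have hrs : ∀ x, r x ^ s = x := by
    intro x
    rw [hr, hs, ← pow_mul, ← pow_add, Nat.sub_add_cancel he2.le, ← hK]
    exact FiniteField.pow_card x
  have hradd : ∀ x y, r (x - y) = r x - r y := by
    intro x y
    rw [hr, hr, hr]
    exact sub_pow_char_pow x y (h - e)
  have hrmul : ∀ x y, r (x * y) = r x * r y := by
    intro x y
    rw [hr, hr, hr, mul_pow]
  have hvx : ∀ M : Ln K, vx M ^ s = vx M ∧ r (vx M) = vx M := by
    intro M
    have hpe : p ^ (h - e) ≠ 0 := pow_ne_zero _ hp.ne_zero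
    rcases vne M with h1 | ⟨h1, -⟩
    · rw [hr, h1, one_pow, one_pow]
      exact ⟨rfl, rfl⟩
    · rw [hr, h1, zero_pow hs0, zero_pow hpe]
      exact ⟨rfl, rfl⟩
  have frobP : ∀ x y : Polynomial K, (x - y) ^ s = x ^ s - y ^ s := fun x y =>
    sub_pow_char_pow x y e
  have frobP' : ∀ x y : Polynomial K, (x + y) ^ s = x ^ s + y ^ s := fun x y =>
    add_pow_char_pow x y p e
  have frobK : ∀ x y : K, (x + y) ^ s = x ^ s + y ^ s := fun x y => add_pow_char_pow x y p e
  have frobKs : ∀ x y : K, (x - y) ^ s = x ^ s - y ^ s := fun x y => sub_pow_char_pow x y e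
  -- the root of the relation
  have hroot : ∀ M ∈ S, Polynomial.C (vx M) * (Polynomial.C (r (py M)) * res M D - res M B) +
      Polynomial.C (r (vy M)) * (res M A - Polynomial.C (r (px M)) * res M D) = 0 := by
    intro M hM
    have h1 := hrel M hM
    have h2 : (Polynomial.C (vx M) * (Polynomial.C (r (py M)) * res M D - res M B) +
      Polynomial.C (r (vy M)) * (res M A - Polynomial.C (r (px M)) * res M D)) ^ s = 0 := by
      rw [frobP', mul_pow, mul_pow, frobP, frobP, mul_pow, mul_pow, ← Polynomial.C_pow,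
        ← Polynomial.C_pow, ← Polynomial.C_pow, ← Polynomial.C_pow, hrs, hrs, hrs, (hvx M).1]
      exact h1
    exact pow_eq_zero_iff hs0 |>.1 h2
  obtain ⟨R, hR⟩ : ∃ R : K × K, R = (ptx L t, pty L t) := ⟨_, rfl⟩
  obtain ⟨a0, ha0⟩ : ∃ a, a = ev R (pderiv 0 A) := ⟨_, rfl⟩
  obtain ⟨a1, ha1⟩ : ∃ a, a = ev R (pderiv 1 A) := ⟨_, rfl⟩
  obtain ⟨b0, hb0⟩ : ∃ a, a = ev R (pderiv 0 B) := ⟨_, rfl⟩
  obtain ⟨b1, hb1⟩ : ∃ a, a = ev R (pderiv 1 B) := ⟨_, rfl⟩
  obtain ⟨d0, hd0⟩ : ∃ a, a = ev R (pderiv 0 D) := ⟨_, rfl⟩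
  obtain ⟨d1, hd1⟩ : ∃ a, a = ev R (pderiv 1 D) := ⟨_, rfl⟩
  -- derivative along a line through `R`
  have hder : ∀ (M : Ln K) (u : K), ptx M u = R.1 → pty M u = R.2 → ∀ f,
      (Polynomial.derivative (res M f)).eval u =
        vx M * ev R (pderiv 0 f) + vy M * ev R (pderiv 1 f) := by
    intro M u h1 h2 f
    rw [derivative_res, Polynomial.eval_add, Polynomial.eval_mul, Polynomial.eval_mul,
      Polynomial.eval_C, Polynomial.eval_C, eval_res, eval_res, h1, h2]
  -- the form
  have hpsi : ∀ M ∈ S, On R M →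
      vx M * ((b0 - r R.2 * d0) ^ s * vx M ^ s + (b1 - r R.2 * d1) ^ s * vy M ^ s) -
      vy M * ((a0 - r R.1 * d0) ^ s * vx M ^ s + (a1 - r R.1 * d1) ^ s * vy M ^ s) = 0 := by
    intro M hM hon
    obtain ⟨u, hu1, hu2⟩ := exists_param R M hon
    have h1 := congrArg (fun f => (Polynomial.derivative f).eval u) (hroot M hM)
    simp only [Polynomial.derivative_add, Polynomial.derivative_sub, Polynomial.derivative_mul,
      Polynomial.derivative_C, zero_mul, zero_add, Polynomial.eval_add, Polynomial.eval_sub,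
      Polynomial.eval_mul, Polynomial.eval_C, hder M u hu1 hu2, Polynomial.derivative_zero,
      Polynomial.eval_zero] at h1
    rw [← ha0, ← ha1, ← hb0, ← hb1, ← hd0, ← hd1] at h1
    have e1 : r (py M) = r R.2 - r u * r (vy M) := by
      rw [← hrmul, ← hradd, ← hu2, pty]
      congr 1
      ring
    have e2 : r (px M) = r R.1 - r u * vx M := by
      have h4 := hradd R.1 (u * vx M)
      rw [hrmul, (hvx M).2] at h4
      rw [← h4, ← hu1, ptx]
      congr 1
      ring
    rw [e1, e2] at h1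
    have h2 : vx M * ((b0 - r R.2 * d0) * vx M + (b1 - r R.2 * d1) * vy M) -
        r (vy M) * ((a0 - r R.1 * d0) * vx M + (a1 - r R.1 * d1) * vy M) = 0 := by
      linear_combination -h1
    have h3 := congrArg (fun x => x ^ s) h2
    rw [frobKs, mul_pow, mul_pow, frobK, frobK, mul_pow, mul_pow, mul_pow, mul_pow, hrs,
      (hvx M).1, zero_pow hs0] at h3
    rw [(hvx M).1]
    exact h3
  -- the form is not zero
  have hne : ¬ ((a0 - r R.1 * d0) ^ s = 0 ∧ (a1 - r R.1 * d1) ^ s = 0 ∧
      (b0 - r R.2 * d0) ^ s = 0 ∧ (b1 - r R.2 * d1) ^ s = 0) := by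
    rintro ⟨h1, h2, h3, h4⟩
    rw [pow_eq_zero_iff hs0] at h1 h2 h3 h4
    apply ht1
    have hch : ((p ^ (h - e) : ℕ) : Polynomial K) = 0 := by
      rw [Nat.cast_pow, CharP.cast_eq_zero (Polynomial K) p, zero_pow (by omega)]
    have hd : Polynomial.derivative (Polynomial.X ^ p ^ (h - e) : Polynomial K) = 0 := by
      rw [Polynomial.derivative_X_pow, Polynomial.C_eq_natCast, hch, zero_mul]
    rw [Polynomial.derivative_sub, Polynomial.derivative_mul, hd, zero_mul, zero_add,
      Polynomial.eval_sub, Polynomial.eval_mul, Polynomial.eval_pow, Polynomial.eval_X, ← hr t,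
      hder L t (by rw [hR]) (by rw [hR]), hder L t (by rw [hR]) (by rw [hR]), ← hd0, ← hd1]
    rcases L with ⟨a, b⟩ | c
    · have hZA : Z = A := hZ.1 (by simp [vx])
      have hR1 : R.1 = t := by rw [hR]; simp [ptx, px, vx]
      rw [hZA, ← ha0, ← ha1]
      rw [hR1] at h1 h2
      linear_combination -vx (Sum.inl (a, b) : Ln K) * h1 - vy (Sum.inl (a, b) : Ln K) * h2
    · have hZB : Z = B := hZ.2 (by simp [vx])
      have hR2 : R.2 = t := by rw [hR]; simp [pty, py, vy]
      rw [hZB, ← hb0, ← hb1]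
      rw [hR2] at h3 h4
      linear_combination -vx (Sum.inr c : Ln K) * h3 - vy (Sum.inr c : Ln K) * h4
  -- directions
  have hinj : Set.InjOn (fun M : Ln K => (vx M, vy M)) (T : Set (Ln K)) := by
    intro M hM M' hM' heq
    have h1 := hT M (Finset.mem_coe.1 hM)
    have h2 := hT M' (Finset.mem_coe.1 hM')
    rw [← hR] at h1 h2
    simp only [Prod.mk.injEq] at heq
    rcases M with ⟨a, b⟩ | c <;> rcases M' with ⟨a', b'⟩ | c'
    · simp only [vx, vy, On] at heq h1 h2
      obtain ⟨-, rfl⟩ := heq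
      have : b = b' := by linear_combination h2 - h1
      rw [this]
    · simp [vx] at heq
    · simp [vx] at heq
    · simp only [On] at h1 h2
      rw [← h1, ← h2]
  rw [← Finset.card_image_of_injOn hinj]
  refine subline hK hh he1 he2 ((a0 - r R.1 * d0) ^ s) ((a1 - r R.1 * d1) ^ s)
    ((b0 - r R.2 * d0) ^ s) ((b1 - r R.2 * d1) ^ s) hne _ ?_ ?_
  · intro u hu v hv huv
    obtain ⟨M, hM, rfl⟩ := Finset.mem_image.1 hu
    obtain ⟨M', hM', rfl⟩ := Finset.mem_image.1 hv
    simp only
    rcases M with ⟨a, b⟩ | c <;> rcases M' with ⟨a', b'⟩ | c'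
    · simp only [vx, vy, one_mul] at huv ⊢
      intro h1
      exact huv (by rw [h1])
    · simp [vx, vy]
    · simp [vx, vy]
    · exact absurd rfl huv
  · intro u hu
    obtain ⟨M, hM, rfl⟩ := Finset.mem_image.1 hu
    exact hpsi M (hTS hM) (hR ▸ hT M hM)

end Vale.Agent.P045.NC
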