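import Vale.Agent.P045.NCStruct
import Vale.Agent.P045.NCCount
import Vale.Agent.P045.NCLocal

/-!
# P045: counting zeros on one line
-/

namespace Vale.Agent.P045.NC

open MvPolynomial

variable {K : Type*} [Field K]

lemma natDegree_res_ell (L M : Ln K) : (res L (ell M)).natDegree ≤ 1 := by
  have := natDegree_res L (ell M)
  rwa [totalDegree_ell] at this

lemma wronskian_natDegree (u v : Polynomial K)
    (hw : Polynomial.derivative u * v - u * Polynomial.derivative v ≠ 0) :
    (Polynomial.derivative u * v - u * Polynomial.derivative v).natDegree + 1 ≤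
      u.natDegree + v.natDegree := by
  have hu : u.natDegree = 0 → Polynomial.derivative u = 0 := fun h =>
    Polynomial.derivative_of_natDegree_zero h
  have hv : v.natDegree = 0 → Polynomial.derivative v = 0 := fun h =>
    Polynomial.derivative_of_natDegree_zero h
  have hu2 : u.natDegree ≠ 0 → (Polynomial.derivative u).natDegree < u.natDegree :=
    Polynomial.natDegree_derivative_lt
  have hv2 : v.natDegree ≠ 0 → (Polynomial.derivative v).natDegree < v.natDegree :=
    Polynomial.natDegree_derivative_lt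
  have h1 := Polynomial.natDegree_mul_le (p := Polynomial.derivative u) (q := v)
  have h2 := Polynomial.natDegree_mul_le (p := u) (q := Polynomial.derivative v)
  have h3 := Polynomial.natDegree_sub_le (Polynomial.derivative u * v)
    (u * Polynomial.derivative v)
  by_cases hu0 : u.natDegree = 0
  · have e1 := hu hu0
    rw [e1, zero_mul, zero_sub, Polynomial.natDegree_neg]
    by_cases hv0 : v.natDegree = 0
    · exfalso; apply hw; rw [e1, hv hv0]; ring
    · have := hv2 hv0
      omega
  · have hu3 := hu2 hu0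
    by_cases hv0 : v.natDegree = 0
    · rw [hv hv0, mul_zero, sub_zero]
      omega
    · have := hv2 hv0
      omega

variable [Fintype K] [DecidableEq K]

lemma Red.not_both (R : Red K) (L : Ln K) (ha : res L R.a = 0) (hb : res L R.b = 0) : False := by
  rw [← dvd_iff_res] at ha hb
  exact (ell_prime L).not_isUnit (R.hrel ha hb)

lemma Red.exists_Y (R : Red K) (L : Ln K) (hL : L ∈ R.S) :
    ∃ Y : Polynomial K, Y ≠ 0 ∧ Y.natDegree ≤ R.κ ∧ ∀ ρ : K,
      ρ * (res L R.D).eval ρ = (res L (ZZ R.A R.B L)).eval ρ → Y.eval ρ = 0 := by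
  have rel := R.rel L hL
  have nb := R.not_both L
  have ha := congrArg (res L) R.a_eq
  have hb := congrArg (res L) R.b_eq
  simp only [map_sub, map_mul, res_X0, res_X1] at ha hb
  rcases L with ⟨α, β⟩ | γ
  · refine ⟨res (.inl (α, β)) R.b, ?_, (natDegree_res _ _).trans R.hb, ?_⟩
    · intro h0
      rw [h0, mul_zero, add_zero] at rel
      simp only [vx, map_one, one_mul] at rel
      exact nb rel h0
    · intro ρ h
      rw [hb]
      simp only [px, vx, map_zero, map_one, zero_add, one_mul, Polynomial.eval_sub,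
        Polynomial.eval_mul, Polynomial.eval_X]
      simp only [ZZ] at h
      rw [← h]; ring
  · refine ⟨res (.inr γ) R.a, ?_, (natDegree_res _ _).trans R.ha, ?_⟩
    · intro h0
      rw [h0, mul_zero, zero_add] at rel
      simp only [vy, map_one, one_mul] at rel
      exact nb h0 rel
    · intro ρ h
      rw [ha]
      simp only [py, vy, map_zero, map_one, zero_add, one_mul, Polynomial.eval_sub,
        Polynomial.eval_mul, Polynomial.eval_X]
      simp only [ZZ] at h
      rw [← h]; ring

omit [Fintype K] in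
/-- multiplicity of the product of the other lines at a point of `L` -/
lemma mult_prod_le (L : Ln K) (S : Finset (Ln K)) (hLS : L ∉ S) (t : K) [DecidablePred fun M : Ln K => On (ptx L t, pty L t) M] :
    (∏ M ∈ S, res L (ell M)).rootMultiplicity t ≤
      (S.filter (fun M => On (ptx L t, pty L t) M)).card := by
  classical
  induction S using Finset.induction_on with
  | empty => simp
  | insert M S hM ih =>
    have hne : ∀ N ∈ insert M S, res L (ell N) ≠ 0 := by
      intro N hN
      apply res_ell_ne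
      rintro rfl; exact hLS hN
    have ih' := ih (fun h => hLS (Finset.mem_insert_of_mem h))
    rw [Finset.prod_insert hM, Polynomial.rootMultiplicity_mul (mul_ne_zero
      (hne M (Finset.mem_insert_self _ _)) (Finset.prod_ne_zero_iff.mpr
        (fun N hN => hne N (Finset.mem_insert_of_mem hN)))), Finset.filter_insert]
    split_ifs with hon
    · rw [Finset.card_insert_of_notMem (by simp [hM])]
      have h1 : (res L (ell M)).rootMultiplicity t ≤ 1 := by
        have := Polynomial.card_roots' (res L (ell M))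
        have h2 := natDegree_res_ell L M
        have h3 : (res L (ell M)).rootMultiplicity t ≤ (res L (ell M)).roots.card := by
          rw [← Polynomial.count_roots]; exact Multiset.count_le_card _ _
        omega
      omega
    · have h1 : (res L (ell M)).rootMultiplicity t = 0 := by
        rw [Polynomial.rootMultiplicity_eq_zero]
        intro hr
        apply hon
        rw [on_iff, ← eval_res]
        exact hr
      omega

/-- the relation `W ^ s = - Q G` -/
lemma Red.W_pow (R : Red K) [CharP K 2] (h e : ℕ)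
    (hK : Fintype.card K = 2 ^ h) (he2 : e ≤ h)
    (A B D : MvPolynomial (Fin 2) K) (hA1 : R.A = A ^ 2 ^ e) (hB1 : R.B = B ^ 2 ^ e)
    (hD1 : R.D = D ^ 2 ^ e) (L : Ln K) :
    (Polynomial.X ^ 2 ^ (h - e) * res L D - res L (Red.ZZ A B L)) ^ 2 ^ e =
      Polynomial.X ^ Fintype.card K * res L R.D - res L (Red.ZZ R.A R.B L) := by
  have : Fact (Nat.Prime 2) := ⟨Nat.prime_two⟩
  have hZs : res L (Red.ZZ R.A R.B L) = (res L (Red.ZZ A B L)) ^ 2 ^ e := by
    rw [← map_pow]
    rcases L with ab | c
    · simp only [Red.ZZ, hA1]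
    · simp only [Red.ZZ, hB1]
  rw [sub_pow_char_pow, mul_pow, ← pow_mul, hZs, hD1, map_pow, hK, ← pow_add, Nat.sub_add_cancel he2]

/-- few rational zeros -/
lemma Red.few_roots (R : Red K) (L : Ln K) (hL : L ∈ R.S) (W : Polynomial K) (hW0 : W ≠ 0)
    (s : ℕ) (hs : s ≠ 0)
    (hWs : W ^ s = Polynomial.X ^ Fintype.card K * res L R.D - res L (Red.ZZ R.A R.B L)) :
    W.roots.toFinset.card ≤ R.κ := by
  classical
  obtain ⟨Y, hY0, hYd, hY⟩ := R.exists_Y L hL
  have hsub : W.roots.toFinset ⊆ Y.roots.toFinset := by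
    intro ρ hρ
    rw [Multiset.mem_toFinset, Polynomial.mem_roots hW0] at hρ
    rw [Multiset.mem_toFinset, Polynomial.mem_roots hY0]
    apply hY
    have h1 : (W ^ s).eval ρ = 0 := by
      rw [Polynomial.eval_pow, hρ, zero_pow hs]
    rw [hWs, Polynomial.eval_sub, Polynomial.eval_mul, Polynomial.eval_pow, Polynomial.eval_X,
      FiniteField.pow_card] at h1
    linear_combination h1
  calc W.roots.toFinset.card ≤ Y.roots.toFinset.card := Finset.card_le_card hsub
    _ ≤ Multiset.card Y.roots := Multiset.toFinset_card_le _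
    _ ≤ Y.natDegree := Polynomial.card_roots' Y
    _ ≤ R.κ := hYd

/-- large multiplicity of the restriction of `g` at the simple zeros -/
lemma Red.mult_ge (R : Red K) (h e : ℕ) [CharP K 2]
    (hK : Fintype.card K = 2 ^ h) (hh : h.Prime) (he : 1 ≤ e) (he2 : e < h)
    (A B D : MvPolynomial (Fin 2) K) (hA1 : R.A = A ^ 2 ^ e) (hB1 : R.B = B ^ 2 ^ e)
    (hD1 : R.D = D ^ 2 ^ e) (L : Ln K) (hL : L ∈ R.S) (W : Polynomial K) (hW0 : W ≠ 0)
    (hW : W = Polynomial.X ^ 2 ^ (h - e) * res L D - res L (Red.ZZ A B L))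
    (hWs : W ^ 2 ^ e = (- res L (∏ M ∈ R.S.erase L, ell M)) * res L R.g)
    (ρ : K) (hρ2 : W.rootMultiplicity ρ = 1) :
    2 ^ e - 2 ≤ (res L R.g).rootMultiplicity ρ := by
  classical
  have : Fact (Nat.Prime 2) := ⟨Nat.prime_two⟩
  have hs0 : 2 ^ e ≠ 0 := by positivity
  have hρ1 : W.IsRoot ρ := by
    rw [← Polynomial.rootMultiplicity_pos hW0]; omega
  have hG0 : res L R.g ≠ 0 := by
    intro h0; rw [h0, mul_zero] at hWs
    exact hW0 ((pow_eq_zero_iff hs0).mp hWs)
  have hQ00 : res L (∏ M ∈ R.S.erase L, ell M) ≠ 0 := by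
    intro h0; rw [h0, neg_zero, zero_mul] at hWs
    exact hW0 ((pow_eq_zero_iff hs0).mp hWs)
  have hd1 : (Polynomial.derivative W).eval ρ ≠ 0 := by
    intro h0
    have := (Polynomial.one_lt_rootMultiplicity_iff_isRoot hW0).mpr ⟨hρ1, h0⟩
    omega
  have hLT : L ∈ R.S.filter (fun M => On (ptx L ρ, pty L ρ) M) := by
    rw [Finset.mem_filter]
    refine ⟨hL, ?_⟩
    rw [on_iff, ← eval_res, res_ell_same, Polynomial.eval_zero]
  have hTc : (R.S.filter (fun M => On (ptx L ρ, pty L ρ) M)).card ≤ 2 + 1 := by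
    refine card_through_le h e 2 hK hh he he2 A B D R.S ?_ L hL ρ (Red.ZZ A B L) ?_
      (by rw [← hW]; exact hρ1) (by rw [← hW]; exact hd1) _
      (Finset.filter_subset _ _) (fun M hM => (Finset.mem_filter.mp hM).2)
    · intro M hM
      have h1 := R.rel' M hM
      rw [hA1, hB1, hD1, map_pow, map_pow, map_pow] at h1
      exact h1
    · rcases L with ab | c
      · exact ⟨fun _ => rfl, fun h => absurd h (by simp [vx])⟩
      · exact ⟨fun h => absurd rfl h, fun _ => rfl⟩
  have hQm : (res L (∏ M ∈ R.S.erase L, ell M)).rootMultiplicity ρ ≤ 2 := by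
    have h1 := mult_prod_le L (R.S.erase L) (by simp) ρ
    rw [← map_prod] at h1
    refine h1.trans ?_
    have h2 : (R.S.erase L).filter (fun M => On (ptx L ρ, pty L ρ) M) =
        (R.S.filter (fun M => On (ptx L ρ, pty L ρ) M)).erase L := by
      ext M; simp only [Finset.mem_filter, Finset.mem_erase]; tauto
    rw [h2, Finset.card_erase_of_mem hLT]
    omega
  have hm := congrArg (Polynomial.rootMultiplicity ρ) hWs
  have hnegQ : (- res L (∏ M ∈ R.S.erase L, ell M)).rootMultiplicity ρ =
      (res L (∏ M ∈ R.S.erase L, ell M)).rootMultiplicity ρ := by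
    have h1 : (- res L (∏ M ∈ R.S.erase L, ell M)) =
      Polynomial.C (-1) * res L (∏ M ∈ R.S.erase L, ell M) := by simp
    rw [h1, Polynomial.rootMultiplicity_mul (by
      rw [← h1]; exact neg_ne_zero.mpr hQ00), Polynomial.rootMultiplicity_C, zero_add]
  have hpow : (W ^ 2 ^ e).rootMultiplicity ρ = 2 ^ e * W.rootMultiplicity ρ := by
    rw [← Polynomial.count_roots, ← Polynomial.count_roots, Polynomial.roots_pow,
      Multiset.count_nsmul]
  rw [hpow, Polynomial.rootMultiplicity_mul
    (mul_ne_zero (neg_ne_zero.mpr hQ00) hG0), hnegQ, hρ2] at hm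
  omega

omit [Fintype K] in
/-- total multiplicity is bounded by the degree -/
lemma sum_mult_le_degree (G : Polynomial K) (T : Finset K) (m : ℕ)
    (h : ∀ ρ ∈ T, m ≤ G.rootMultiplicity ρ) : T.card * m ≤ G.natDegree := by
  classical
  calc T.card * m = ∑ ρ ∈ T, m := by rw [Finset.sum_const, smul_eq_mul]
    _ ≤ ∑ ρ ∈ T, G.rootMultiplicity ρ := Finset.sum_le_sum h
    _ ≤ ∑ ρ ∈ T ∪ G.roots.toFinset, G.roots.count ρ := by
      simp only [Polynomial.count_roots]
      exact Finset.sum_le_sum_of_subset Finset.subset_union_left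
    _ = Multiset.card G.roots := by
      rw [Multiset.sum_count_eq_card]
      intro ρ hρ
      exact Finset.mem_union_right _ (Multiset.mem_toFinset.mpr hρ)
    _ ≤ G.natDegree := Polynomial.card_roots' G

/-- the numerical contradiction -/
lemma numerics (s r q κ d dD dZ N N1 dw dG : ℕ) (hs2 : 2 ≤ s) (hs24 : s = 2 ∨ 4 ≤ s)
    (hsr : s * r = q) (hdD : s * dD ≤ κ - 1) (hdZ : s * dZ ≤ κ) (hwd : dw + 1 ≤ dD + dZ)
    (c1 : s * (r + dD) ≤ s * N + s * dw + dG)
    (c2 : s * (r + dD) ≤ s * N1 + 2 * s * dw + dG) (hG : dG ≤ d) (hN : N ≤ κ)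
    (hN1 : N1 * (s - 2) ≤ dG) (hnum : 3 * κ + 3 * d ≤ q) : False := by
  have hexp : s * (dw + 1) ≤ s * (dD + dZ) := Nat.mul_le_mul_left s hwd
  have h6 : s * (r + dD) = s * r + s * dD := by ring
  have h7 : 2 * s * dw = 2 * (s * dw) := by ring
  have h8 : s * (dw + 1) = s * dw + s := by ring
  have h9 : s * (dD + dZ) = s * dD + s * dZ := by ring
  rw [h8, h9] at hexp
  rw [h6] at c1 c2
  rw [h7] at c2
  rcases hs24 with hs | h4
  · subst hs
    omega
  · have h5 : s * N1 ≤ 2 * (N1 * (s - 2)) := by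
      obtain ⟨u, hu⟩ : ∃ u, s = u + 4 := ⟨s - 4, by omega⟩
      rw [hu]
      have : u + 4 - 2 = u + 2 := by omega
      rw [this]; nlinarith
    omega

/-- the contradiction on a line with nonzero Wronskian -/
theorem Red.line_absurd (R : Red K) (h e d : ℕ) [CharP K 2]
    (hK : Fintype.card K = 2 ^ h) (hh : h.Prime) (he : 1 ≤ e) (he2 : e < h)
    (A B D : MvPolynomial (Fin 2) K) (hA1 : R.A = A ^ 2 ^ e) (hB1 : R.B = B ^ 2 ^ e)
    (hD1 : R.D = D ^ 2 ^ e) (hgd : R.g.totalDegree ≤ d)
    (hnum : 3 * R.κ + 3 * d ≤ Fintype.card K)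
    (L : Ln K) (hL : L ∈ R.S)
    (hw : Polynomial.derivative (res L D) * res L (Red.ZZ A B L) -
      res L D * Polynomial.derivative (res L (Red.ZZ A B L)) ≠ 0) : False := by
  classical
  have : Fact (Nat.Prime 2) := ⟨Nat.prime_two⟩
  have hsr : 2 ^ e * 2 ^ (h - e) = Fintype.card K := by
    rw [hK, ← pow_add]; congr 1; omega
  have hs2 : 2 ≤ 2 ^ e := by
    calc 2 = 2 ^ 1 := by norm_num
      _ ≤ 2 ^ e := Nat.pow_le_pow_right (by norm_num) he
  have hs24 : 2 ^ e = 2 ∨ 4 ≤ 2 ^ e := by
    rcases Nat.lt_or_ge e 2 with h1 | h1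
    · left
      have : e = 1 := by omega
      rw [this, pow_one]
    · right
      calc 4 = 2 ^ 2 := by norm_num
        _ ≤ 2 ^ e := Nat.pow_le_pow_right (by norm_num) h1
  have hWs := R.W_pow h e hK he2.le A B D hA1 hB1 hD1 L
  obtain ⟨W, hW⟩ : ∃ W : Polynomial K,
      W = Polynomial.X ^ 2 ^ (h - e) * res L D - res L (Red.ZZ A B L) := ⟨_, rfl⟩
  rw [← hW] at hWs
  have hWs2 : W ^ 2 ^ e = (- res L (∏ M ∈ R.S.erase L, ell M)) * res L R.g := by
    rw [hWs, neg_mul, R.quot L hL]; ring
  have hDl0 : res L D ≠ 0 := by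
    intro h0; apply hw; rw [h0]; simp
  have hdD : 2 ^ e * (res L D).natDegree ≤ R.κ - 1 := by
    have h1 := natDegree_res L R.D
    rw [hD1, map_pow, Polynomial.natDegree_pow, ← hD1] at h1
    exact h1.trans R.D_deg
  have hdZ : 2 ^ e * (res L (Red.ZZ A B L)).natDegree ≤ R.κ := by
    rw [← Polynomial.natDegree_pow, ← map_pow]
    refine (natDegree_res L _).trans ?_
    rcases L with ab | c
    · simp only [Red.ZZ]; rw [← hA1]; exact R.A_deg
    · simp only [Red.ZZ]; rw [← hB1]; exact R.B_deg
  have hκ := R.hκ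
  have hZr : (res L (Red.ZZ A B L)).natDegree < 2 ^ (h - e) := by
    by_contra hcon
    push Not at hcon
    have : 2 ^ e * 2 ^ (h - e) ≤ 2 ^ e * (res L (Red.ZZ A B L)).natDegree :=
      Nat.mul_le_mul_left _ hcon
    omega
  have hXD : (Polynomial.X ^ 2 ^ (h - e) * res L D).natDegree =
      2 ^ (h - e) + (res L D).natDegree := by
    rw [Polynomial.natDegree_mul (pow_ne_zero _ Polynomial.X_ne_zero) hDl0,
      Polynomial.natDegree_X_pow]
  have hWd : W.natDegree = 2 ^ (h - e) + (res L D).natDegree := by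
    rw [hW, Polynomial.natDegree_sub_eq_left_of_natDegree_lt (by rw [hXD]; omega), hXD]
  have hr0 : 0 < 2 ^ (h - e) := by positivity
  have hW0 : W ≠ 0 := by
    intro h0; rw [h0, Polynomial.natDegree_zero] at hWd; omega
  have hwd := wronskian_natDegree (res L D) (res L (Red.ZZ A B L)) hw
  obtain ⟨w, hwdef⟩ : ∃ w : Polynomial K, w = Polynomial.derivative (res L D) *
    res L (Red.ZZ A B L) - res L D * Polynomial.derivative (res L (Red.ZZ A B L)) := ⟨_, rfl⟩
  rw [← hwdef] at hwd hw
  have hW' : Polynomial.derivative W = Polynomial.X ^ 2 ^ (h - e) *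
      Polynomial.derivative (res L D) - Polynomial.derivative (res L (Red.ZZ A B L)) := by
    rw [hW, Polynomial.derivative_sub, Polynomial.derivative_mul, Polynomial.derivative_X_pow]
    have : (((2 ^ (h - e) : ℕ)) : K) = 0 := by
      rw [CharP.cast_eq_zero_iff K 2]
      exact dvd_pow_self 2 (by omega)
    rw [this, map_zero]; ring
  have hdiv : ∀ ρ : K, (Polynomial.X - Polynomial.C ρ) ^ (W.rootMultiplicity ρ - 1) ∣ w := by
    intro ρ
    have h1 : (Polynomial.X - Polynomial.C ρ) ^ (W.rootMultiplicity ρ) ∣ W :=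
      Polynomial.pow_rootMultiplicity_dvd W ρ
    have h2 : (Polynomial.X - Polynomial.C ρ) ^ (W.rootMultiplicity ρ - 1) ∣
      Polynomial.derivative W := Polynomial.pow_sub_one_dvd_derivative_of_pow_dvd h1
    have h3 : (Polynomial.X - Polynomial.C ρ) ^ (W.rootMultiplicity ρ - 1) ∣ W :=
      (pow_dvd_pow _ (Nat.sub_le _ _)).trans h1
    have h4 : w = res L D * Polynomial.derivative W - Polynomial.derivative (res L D) * W := by
      rw [hW', hW, hwdef]; ring
    rw [h4]
    exact dvd_sub (h2.mul_left _) (h3.mul_left _)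
  have hQirr : ∀ f : Polynomial K, Irreducible f →
      f ∣ (- res L (∏ M ∈ R.S.erase L, ell M)) → f.natDegree = 1 := by
    intro f hf hfQ
    rw [dvd_neg, map_prod] at hfQ
    obtain ⟨M, hM, hfM⟩ := (hf.prime.dvd_finsetProd_iff _).mp hfQ
    have hne : res L (ell M) ≠ 0 := res_ell_ne L M (fun e => (Finset.ne_of_mem_erase hM) e.symm)
    have h1 := Polynomial.natDegree_le_of_dvd hfM hne
    have h2 := natDegree_res_ell L M
    have h3 := hf.natDegree_pos
    omega
  obtain ⟨c1, c2⟩ := count_roots W w _ _ (2 ^ e) (by omega) hW0 hw hQirr hWs2 hdiv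
  have hGd : (res L R.g).natDegree ≤ d := (natDegree_res L R.g).trans hgd
  have hN := R.few_roots L hL W hW0 (2 ^ e) (by omega) hWs
  have hN1 := sum_mult_le_degree (res L R.g)
    (W.roots.toFinset.filter (fun r => W.rootMultiplicity r = 1)) (2 ^ e - 2)
    (fun ρ hρ => R.mult_ge h e hK hh he he2 A B D hA1 hB1 hD1 L hL W hW0 hW hWs2 ρ
      (Finset.mem_filter.mp hρ).2)
  rw [hWd] at c1 c2
  exact numerics (2 ^ e) (2 ^ (h - e)) (Fintype.card K) R.κ d _ _ _ _ _ _ hs2 hs24 hsr hdD hdZ
    hwd c1 c2 hGd hN hN1 hnum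

end Vale.Agent.P045.NC
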