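import Vale.Agent.P045.NCLine

/-!
# P045: counting zeros on one line, general characteristic
-/

namespace Vale.Agent.P045.NC

open MvPolynomial

variable {K : Type*} [Field K] [Fintype K] [DecidableEq K]

/-- the relation `W ^ s = - Q G` -/
lemma Red.W_powP (R : Red K) (p : ℕ) [Fact p.Prime] [CharP K p] (h e : ℕ)
    (hK : Fintype.card K = p ^ h) (he2 : e ≤ h)
    (A B D : MvPolynomial (Fin 2) K) (hA1 : R.A = A ^ p ^ e) (hB1 : R.B = B ^ p ^ e)
    (hD1 : R.D = D ^ p ^ e) (L : Ln K) :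
    (Polynomial.X ^ p ^ (h - e) * res L D - res L (Red.ZZ A B L)) ^ p ^ e =
      Polynomial.X ^ Fintype.card K * res L R.D - res L (Red.ZZ R.A R.B L) := by
  have hZs : res L (Red.ZZ R.A R.B L) = (res L (Red.ZZ A B L)) ^ p ^ e := by
    rw [← map_pow]
    rcases L with ab | c
    · simp only [Red.ZZ, hA1]
    · simp only [Red.ZZ, hB1]
  rw [sub_pow_char_pow, mul_pow, ← pow_mul, hZs, hD1, map_pow, hK, ← pow_add, Nat.sub_add_cancel he2]

/-- large multiplicity of the restriction of `g` at the simple zeros -/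
lemma Red.mult_geP (R : Red K) (p : ℕ) [Fact p.Prime] [CharP K p] (h e : ℕ)
    (hK : Fintype.card K = p ^ h) (hh : h.Prime) (he : 1 ≤ e) (he2 : e < h)
    (A B D : MvPolynomial (Fin 2) K) (hA1 : R.A = A ^ p ^ e) (hB1 : R.B = B ^ p ^ e)
    (hD1 : R.D = D ^ p ^ e) (L : Ln K) (hL : L ∈ R.S) (W : Polynomial K) (hW0 : W ≠ 0)
    (hW : W = Polynomial.X ^ p ^ (h - e) * res L D - res L (Red.ZZ A B L))
    (hWs : W ^ p ^ e = (- res L (∏ M ∈ R.S.erase L, ell M)) * res L R.g)
    (ρ : K) (hρ2 : W.rootMultiplicity ρ = 1) :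
    p ^ e - p ≤ (res L R.g).rootMultiplicity ρ := by
  classical
  have hp : p.Prime := Fact.out
  have hs0 : p ^ e ≠ 0 := pow_ne_zero _ hp.ne_zero
  have hρ1 : W.IsRoot ρ := by
    rw [← Polynomial.rootMultiplicity_pos hW0]; omega
  have hG0 : res L R.g ≠ 0 := by
    intro h0; rw [h0, mul_zero] at hWs
    exact hW0 ((pow_eq_zero_iff hs0).mp hWs)
  have hQ00 : res L (∏ M ∈ R.S.erase L, ell M) ≠ 0 := by
    intro h0; rw [h0, neg_zero, zero_mul] at hWs
    exact hW0 ((pow_eq_zero_iff hs0).mp hWs)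
  have hd1 : (Polynomial.derivative W).eval ρ ≠ 0 := by
    intro h0
    have := (Polynomial.one_lt_rootMultiplicity_iff_isRoot hW0).mpr ⟨hρ1, h0⟩
    omega
  have hLT : L ∈ R.S.filter (fun M => On (ptx L ρ, pty L ρ) M) := by
    rw [Finset.mem_filter]
    refine ⟨hL, ?_⟩
    rw [on_iff, ← eval_res, res_ell_same, Polynomial.eval_zero]
  have hTc : (R.S.filter (fun M => On (ptx L ρ, pty L ρ) M)).card ≤ p + 1 := by
    refine card_through_le h e p hK hh he he2 A B D R.S ?_ L hL ρ (Red.ZZ A B L) ?_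
      (by rw [← hW]; exact hρ1) (by rw [← hW]; exact hd1) _
      (Finset.filter_subset _ _) (fun M hM => (Finset.mem_filter.mp hM).2)
    · intro M hM
      have h1 := R.rel' M hM
      rw [hA1, hB1, hD1, map_pow, map_pow, map_pow] at h1
      exact h1
    · rcases L with ab | c
      · exact ⟨fun _ => rfl, fun h => absurd h (by simp [vx])⟩
      · exact ⟨fun h => absurd rfl h, fun _ => rfl⟩
  have hQm : (res L (∏ M ∈ R.S.erase L, ell M)).rootMultiplicity ρ ≤ p := by
    have h1 := mult_prod_le L (R.S.erase L) (by simp) ρ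
    rw [← map_prod] at h1
    refine h1.trans ?_
    have h2 : (R.S.erase L).filter (fun M => On (ptx L ρ, pty L ρ) M) =
        (R.S.filter (fun M => On (ptx L ρ, pty L ρ) M)).erase L := by
      ext M; simp only [Finset.mem_filter, Finset.mem_erase]; tauto
    rw [h2, Finset.card_erase_of_mem hLT]
    omega
  have hm := congrArg (Polynomial.rootMultiplicity ρ) hWs
  have hnegQ : (- res L (∏ M ∈ R.S.erase L, ell M)).rootMultiplicity ρ =
      (res L (∏ M ∈ R.S.erase L, ell M)).rootMultiplicity ρ := by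
    have h1 : (- res L (∏ M ∈ R.S.erase L, ell M)) =
      Polynomial.C (-1) * res L (∏ M ∈ R.S.erase L, ell M) := by simp
    rw [h1, Polynomial.rootMultiplicity_mul (by
      rw [← h1]; exact neg_ne_zero.mpr hQ00), Polynomial.rootMultiplicity_C, zero_add]
  have hpow : (W ^ p ^ e).rootMultiplicity ρ = p ^ e * W.rootMultiplicity ρ := by
    rw [← Polynomial.count_roots, ← Polynomial.count_roots, Polynomial.roots_pow,
      Multiset.count_nsmul]
  rw [hpow, Polynomial.rootMultiplicity_mul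
    (mul_ne_zero (neg_ne_zero.mpr hQ00) hG0), hnegQ, hρ2] at hm
  omega

/-- the numerical contradiction -/
lemma numericsP (p s r q κ d dD dZ N N1 dw dG : ℕ) (hp2 : 2 ≤ p) (hs2 : 2 ≤ s)
    (hs24 : s = p ∨ 2 * p ≤ s)
    (hsr : s * r = q) (hdD : s * dD ≤ κ - 1) (hdZ : s * dZ ≤ κ) (hwd : dw + 1 ≤ dD + dZ)
    (c1 : s * (r + dD) ≤ s * N + s * dw + dG)
    (c2 : s * (r + dD) ≤ s * N1 + 2 * s * dw + dG) (hG : dG ≤ d) (hN : N ≤ κ)
    (hN1 : N1 * (s - p) ≤ dG) (hnum : (p + 1) * κ + 3 * d ≤ q) : False := by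
  have hexp : s * (dw + 1) ≤ s * (dD + dZ) := Nat.mul_le_mul_left s hwd
  have h6 : s * (r + dD) = s * r + s * dD := by ring
  have h7 : 2 * s * dw = 2 * (s * dw) := by ring
  have h8 : s * (dw + 1) = s * dw + s := by ring
  have h9 : s * (dD + dZ) = s * dD + s * dZ := by ring
  have h10 : (p + 1) * κ = p * κ + κ := by ring
  rw [h8, h9] at hexp
  rw [h6] at c1 c2
  rw [h7] at c2
  rw [h10] at hnum
  rcases hs24 with hs | h4
  · subst hs
    have h11 : s * N ≤ s * κ := Nat.mul_le_mul_left s hN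
    omega
  · have h5 : s * N1 ≤ 2 * (N1 * (s - p)) := by
      obtain ⟨u, hu⟩ : ∃ u, s = u + 2 * p := ⟨s - 2 * p, by omega⟩
      have h12 : s - p = u + p := by omega
      rw [h12, hu]; nlinarith
    have h13 : 2 * κ ≤ p * κ := Nat.mul_le_mul_right κ hp2
    omega

/-- the contradiction on a line with nonzero Wronskian -/
theorem Red.line_absurdP (R : Red K) (p : ℕ) [Fact p.Prime] [CharP K p] (h e d : ℕ)
    (hK : Fintype.card K = p ^ h) (hh : h.Prime) (he : 1 ≤ e) (he2 : e < h)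
    (A B D : MvPolynomial (Fin 2) K) (hA1 : R.A = A ^ p ^ e) (hB1 : R.B = B ^ p ^ e)
    (hD1 : R.D = D ^ p ^ e) (hgd : R.g.totalDegree ≤ d)
    (hnum : (p + 1) * R.κ + 3 * d ≤ Fintype.card K)
    (L : Ln K) (hL : L ∈ R.S)
    (hw : Polynomial.derivative (res L D) * res L (Red.ZZ A B L) -
      res L D * Polynomial.derivative (res L (Red.ZZ A B L)) ≠ 0) : False := by
  classical
  have hp : p.Prime := Fact.out
  have hsr : p ^ e * p ^ (h - e) = Fintype.card K := by
    rw [hK, ← pow_add]; congr 1; omega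
  have hp2 : 2 ≤ p := hp.two_le
  have hs2 : 2 ≤ p ^ e := by
    calc 2 ≤ p := hp2
      _ = p ^ 1 := (pow_one p).symm
      _ ≤ p ^ e := Nat.pow_le_pow_right (by omega) he
  have hs24 : p ^ e = p ∨ 2 * p ≤ p ^ e := by
    rcases Nat.lt_or_ge e 2 with h1 | h1
    · left
      have : e = 1 := by omega
      rw [this, pow_one]
    · right
      calc 2 * p ≤ p * p := Nat.mul_le_mul_right p hp2
        _ = p ^ 2 := by ring
        _ ≤ p ^ e := Nat.pow_le_pow_right (by omega) h1
  have hWs := R.W_powP p h e hK he2.le A B D hA1 hB1 hD1 L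
  obtain ⟨W, hW⟩ : ∃ W : Polynomial K,
      W = Polynomial.X ^ p ^ (h - e) * res L D - res L (Red.ZZ A B L) := ⟨_, rfl⟩
  rw [← hW] at hWs
  have hWs2 : W ^ p ^ e = (- res L (∏ M ∈ R.S.erase L, ell M)) * res L R.g := by
    rw [hWs, neg_mul, R.quot L hL]; ring
  have hDl0 : res L D ≠ 0 := by
    intro h0; apply hw; rw [h0]; simp
  have hdD : p ^ e * (res L D).natDegree ≤ R.κ - 1 := by
    have h1 := natDegree_res L R.D
    rw [hD1, map_pow, Polynomial.natDegree_pow, ← hD1] at h1
    exact h1.trans R.D_deg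
  have hdZ : p ^ e * (res L (Red.ZZ A B L)).natDegree ≤ R.κ := by
    rw [← Polynomial.natDegree_pow, ← map_pow]
    refine (natDegree_res L _).trans ?_
    rcases L with ab | c
    · simp only [Red.ZZ]; rw [← hA1]; exact R.A_deg
    · simp only [Red.ZZ]; rw [← hB1]; exact R.B_deg
  have hκ := R.hκ
  have hκ1 : R.κ ≤ (p + 1) * R.κ := Nat.le_mul_of_pos_left _ (by omega)
  have hZr : (res L (Red.ZZ A B L)).natDegree < p ^ (h - e) := by
    by_contra hcon
    push Not at hcon
    have : p ^ e * p ^ (h - e) ≤ p ^ e * (res L (Red.ZZ A B L)).natDegree :=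
      Nat.mul_le_mul_left _ hcon
    omega
  have hXD : (Polynomial.X ^ p ^ (h - e) * res L D).natDegree =
      p ^ (h - e) + (res L D).natDegree := by
    rw [Polynomial.natDegree_mul (pow_ne_zero _ Polynomial.X_ne_zero) hDl0,
      Polynomial.natDegree_X_pow]
  have hWd : W.natDegree = p ^ (h - e) + (res L D).natDegree := by
    rw [hW, Polynomial.natDegree_sub_eq_left_of_natDegree_lt (by rw [hXD]; omega), hXD]
  have hr0 : 0 < p ^ (h - e) := Nat.pos_of_ne_zero (pow_ne_zero _ hp.ne_zero)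
  have hW0 : W ≠ 0 := by
    intro h0; rw [h0, Polynomial.natDegree_zero] at hWd; omega
  have hwd := wronskian_natDegree (res L D) (res L (Red.ZZ A B L)) hw
  obtain ⟨w, hwdef⟩ : ∃ w : Polynomial K, w = Polynomial.derivative (res L D) *
    res L (Red.ZZ A B L) - res L D * Polynomial.derivative (res L (Red.ZZ A B L)) := ⟨_, rfl⟩
  rw [← hwdef] at hwd hw
  have hW' : Polynomial.derivative W = Polynomial.X ^ p ^ (h - e) *
      Polynomial.derivative (res L D) - Polynomial.derivative (res L (Red.ZZ A B L)) := by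
    rw [hW, Polynomial.derivative_sub, Polynomial.derivative_mul, Polynomial.derivative_X_pow]
    have : (((p ^ (h - e) : ℕ)) : K) = 0 := by
      rw [CharP.cast_eq_zero_iff K p]
      exact dvd_pow_self p (by omega)
    rw [this, map_zero]; ring
  have hdiv : ∀ ρ : K, (Polynomial.X - Polynomial.C ρ) ^ (W.rootMultiplicity ρ - 1) ∣ w := by
    intro ρ
    have h1 : (Polynomial.X - Polynomial.C ρ) ^ (W.rootMultiplicity ρ) ∣ W :=
      Polynomial.pow_rootMultiplicity_dvd W ρ
    have h2 : (Polynomial.X - Polynomial.C ρ) ^ (W.rootMultiplicity ρ - 1) ∣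
      Polynomial.derivative W := Polynomial.pow_sub_one_dvd_derivative_of_pow_dvd h1
    have h3 : (Polynomial.X - Polynomial.C ρ) ^ (W.rootMultiplicity ρ - 1) ∣ W :=
      (pow_dvd_pow _ (Nat.sub_le _ _)).trans h1
    have h4 : w = res L D * Polynomial.derivative W - Polynomial.derivative (res L D) * W := by
      rw [hW', hW, hwdef]; ring
    rw [h4]
    exact dvd_sub (h2.mul_left _) (h3.mul_left _)
  have hQirr : ∀ f : Polynomial K, Irreducible f →
      f ∣ (- res L (∏ M ∈ R.S.erase L, ell M)) → f.natDegree = 1 := by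
    intro f hf hfQ
    rw [dvd_neg, map_prod] at hfQ
    obtain ⟨M, hM, hfM⟩ := (hf.prime.dvd_finsetProd_iff _).mp hfQ
    have hne : res L (ell M) ≠ 0 := res_ell_ne L M (fun e => (Finset.ne_of_mem_erase hM) e.symm)
    have h1 := Polynomial.natDegree_le_of_dvd hfM hne
    have h2 := natDegree_res_ell L M
    have h3 := hf.natDegree_pos
    omega
  obtain ⟨c1, c2⟩ := count_roots W w _ _ (p ^ e) (by omega) hW0 hw hQirr hWs2 hdiv
  have hGd : (res L R.g).natDegree ≤ d := (natDegree_res L R.g).trans hgd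
  have hN := R.few_roots L hL W hW0 (p ^ e) (by omega) hWs
  have hN1 := sum_mult_le_degree (res L R.g)
    (W.roots.toFinset.filter (fun r => W.rootMultiplicity r = 1)) (p ^ e - p)
    (fun ρ hρ => R.mult_geP p h e hK hh he he2 A B D hA1 hB1 hD1 L hL W hW0 hW hWs2 ρ
      (Finset.mem_filter.mp hρ).2)
  rw [hWd] at c1 c2
  exact numericsP p (p ^ e) (p ^ (h - e)) (Fintype.card K) R.κ d _ _ _ _ _ _ hp2 hs2 hs24 hsr hdD hdZ
    hwd c1 c2 hGd hN hN1 hnum

end Vale.Agent.P045.NC
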