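import Vale.Agent.P045.NCGrad

/-!
# P045: from a near cover to a reduced pair of polynomials
-/

namespace Vale.Agent.P045.NC

open MvPolynomial

variable {K : Type*} [Field K]

/-- the point of a line at parameter `t` -/
def ptx (L : Ln K) (t : K) : K := px L + t * vx L
/-- the point of a line at parameter `t` -/
def pty (L : Ln K) (t : K) : K := py L + t * vy L

/-- evaluation at a point -/
noncomputable def ev (P : K × K) : MvPolynomial (Fin 2) K →+* K := eval ![P.1, P.2]

@[simp] lemma ev_X0 (P : K × K) : ev P (X 0) = P.1 := by simp [ev]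
@[simp] lemma ev_X1 (P : K × K) : ev P (X 1) = P.2 := by simp [ev]
@[simp] lemma ev_C (P : K × K) (c : K) : ev P (C c) = c := by simp [ev]

lemma ev_ell (P : K × K) (L : Ln K) :
    ev P (ell L) = vy L * (P.1 - px L) - vx L * (P.2 - py L) := by
  simp only [ell, map_sub, map_mul, ev_X0, ev_X1, ev_C]

lemma on_iff (P : K × K) (L : Ln K) : On P L ↔ ev P (ell L) = 0 := by
  rw [ev_ell]
  rcases L with ⟨a, b⟩ | c
  · simp only [On, px, py, vx, vy]
    constructor
    · intro h; rw [h]; ring
    · intro h; linear_combination -h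
  · simp only [On, px, py, vx, vy]
    constructor
    · intro h; rw [h]; ring
    · intro h; linear_combination h

variable [Fintype K]

/-- the polynomial `x^q - x` in the variable `i` -/
noncomputable def PP (K : Type*) [Field K] [Fintype K] (i : Fin 2) : MvPolynomial (Fin 2) K :=
  X i ^ Fintype.card K - X i

lemma prod_X_sub_C_eq : (∏ s : K, (Polynomial.X - Polynomial.C s)) =
    Polynomial.X ^ Fintype.card K - Polynomial.X := by
  have h1 : (Polynomial.X ^ Fintype.card K - Polynomial.X : Polynomial K).natDegree =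
      Fintype.card K := FiniteField.X_pow_card_sub_X_natDegree_eq K Fintype.one_lt_card
  have hm : (Polynomial.X ^ Fintype.card K - Polynomial.X : Polynomial K).Monic := by
    apply Polynomial.monic_X_pow_sub
    rw [Polynomial.degree_X]
    exact_mod_cast Fintype.one_lt_card
  have := Polynomial.prod_multiset_X_sub_C_of_monic_of_roots_card_eq hm (by
    rw [FiniteField.roots_X_pow_card_sub_X, h1]; rfl)
  rw [FiniteField.roots_X_pow_card_sub_X] at this
  exact this

lemma PP_eq_prod (i : Fin 2) : PP K i = ∏ s : K, (X i - C s) := by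
  have h := prod_X_sub_C_eq (K := K)
  have h2 := congrArg (Polynomial.aeval (X i : MvPolynomial (Fin 2) K)) h
  simp only [map_prod, map_sub, Polynomial.aeval_X, Polynomial.aeval_C, map_pow] at h2
  rw [PP, ← h2]
  rfl

omit [Fintype K] in
lemma totalDegree_X_sub_C (i : Fin 2) (s : K) :
    (X i - C s : MvPolynomial (Fin 2) K).totalDegree = 1 := by
  apply le_antisymm
  · refine (totalDegree_sub _ _).trans ?_
    simp
  · rw [Nat.one_le_iff_ne_zero]
    intro h0
    rw [totalDegree_eq_zero_iff_eq_C] at h0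
    have h1 := congrArg (eval (fun _ => s)) h0
    have h2 := congrArg (eval (fun _ => s + 1)) h0
    simp only [map_sub, eval_X, eval_C, sub_self, add_sub_cancel_left] at h1 h2
    rw [← h1] at h2
    exact one_ne_zero h2

omit [Fintype K] in
lemma X_sub_C_ne_zero (i : Fin 2) (s : K) : (X i - C s : MvPolynomial (Fin 2) K) ≠ 0 := by
  intro h
  have := totalDegree_X_sub_C i s
  rw [h] at this
  simp at this

lemma PP_ne_zero (i : Fin 2) : PP K i ≠ 0 := by
  rw [PP_eq_prod]
  exact Finset.prod_ne_zero_iff.mpr (fun s _ => X_sub_C_ne_zero i s)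

lemma totalDegree_PP (i : Fin 2) : (PP K i).totalDegree = Fintype.card K := by
  classical
  rw [PP_eq_prod, ← Finset.card_univ]
  generalize (Finset.univ : Finset K) = S
  induction S using Finset.induction_on with
  | empty => simp
  | insert s S hs ih =>
    rw [Finset.prod_insert hs, totalDegree_mul_of_isDomain (X_sub_C_ne_zero i s)
      (Finset.prod_ne_zero_iff.mpr (fun s _ => X_sub_C_ne_zero i s)), ih, totalDegree_X_sub_C,
      Finset.card_insert_of_notMem hs, add_comm]

/-- the reduced pair -/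
lemma reduce [DecidableEq K] (S : Finset (Ln K)) (g : MvPolynomial (Fin 2) K) (d : ℕ)
    (hg0 : g ≠ 0) (hgd : g.totalDegree ≤ d)
    (hcov : ∀ P : K × K, (∃ L ∈ S, On P L) ∨ ev P g = 0) :
    ∃ (a b g' : MvPolynomial (Fin 2) K) (S' : Finset (Ln K)) (δ : ℕ),
      S' ⊆ S ∧ S.card ≤ S'.card + δ ∧ IsRelPrime a b ∧
      PP K 0 * a + PP K 1 * b = (∏ L ∈ S', ell L) * g' ∧ g' ≠ 0 ∧ g'.totalDegree ≤ d ∧
      a.totalDegree + δ + Fintype.card K ≤ S.card + d ∧
      b.totalDegree + δ + Fintype.card K ≤ S.card + d := by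
  classical
  set q := Fintype.card K with hq
  set F : MvPolynomial (Fin 2) K := (∏ L ∈ S, ell L) * g with hF
  have hprod0 : ∀ T : Finset (Ln K), (∏ L ∈ T, ell L) ≠ 0 :=
    fun T => Finset.prod_ne_zero_iff.mpr (fun M _ => ell_ne_zero M)
  have hF0 : F ≠ 0 := mul_ne_zero (hprod0 S) hg0
  have hFd : F.totalDegree ≤ S.card + d := by
    rw [hF, totalDegree_mul_of_isDomain (hprod0 S) hg0, totalDegree_prod_ell]
    omega
  have hvan : ∀ (x : Fin 2 → K), (∀ i, x i ∈ (fun _ => (Finset.univ : Finset K)) i) →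
      eval x F = 0 := by
    intro x _
    have hx : eval x = ev (x 0, x 1) := by
      rw [ev]
      congr 1
      ext i; fin_cases i <;> rfl
    rw [hx, hF, map_mul, map_prod]
    rcases hcov (x 0, x 1) with ⟨L, hL, hon⟩ | h
    · rw [Finset.prod_eq_zero hL ((on_iff _ _).mp hon), zero_mul]
    · rw [h, mul_zero]
  obtain ⟨c, hc1, hc2⟩ := combinatorial_nullstellensatz_exists_linearCombination
    (fun _ : Fin 2 => (Finset.univ : Finset K)) (fun _ => Finset.univ_nonempty) F hvan
  have hPP : ∀ i : Fin 2, (∏ s ∈ (Finset.univ : Finset K), (X i - C s)) = PP K i :=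
    fun i => (PP_eq_prod i).symm
  have hc2' : F = PP K 0 * c 0 + PP K 1 * c 1 := by
    rw [hc2, Finsupp.linearCombination_apply, Finsupp.sum_fintype _ _ (by simp),
      Fin.sum_univ_two, hPP, hPP, smul_eq_mul, smul_eq_mul]
    ring
  have hdeg : ∀ i : Fin 2, c i ≠ 0 → q + (c i).totalDegree ≤ S.card + d := by
    intro i hi
    have h1 := hc1 i
    rw [hPP, totalDegree_mul_of_isDomain (PP_ne_zero i) hi, totalDegree_PP] at h1
    omega
  obtain ⟨a, b, D, hrel, ha, hb⟩ : ∃ a b D : MvPolynomial (Fin 2) K, IsRelPrime a b ∧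
      D * a = c 0 ∧ D * b = c 1 := by
    by_cases h1 : c 1 = 0
    · have h0 : c 0 ≠ 0 := by
        intro h0; apply hF0; rw [hc2', h0, h1]; ring
      obtain ⟨b', a', D, hr, h2, h3⟩ :=
        UniqueFactorizationMonoid.exists_reduced_factors' (c 1) (c 0) h0
      exact ⟨a', b', D, hr.symm, h3, h2⟩
    · obtain ⟨a', b', D, hr, h2, h3⟩ :=
        UniqueFactorizationMonoid.exists_reduced_factors' (c 0) (c 1) h1
      exact ⟨a', b', D, hr, h2, h3⟩
  set F' : MvPolynomial (Fin 2) K := PP K 0 * a + PP K 1 * b with hF'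
  have hFD : F = D * F' := by rw [hc2', ← ha, ← hb, hF']; ring
  have hD0 : D ≠ 0 := by rintro rfl; exact hF0 (by rw [hFD, zero_mul])
  have hF'0 : F' ≠ 0 := by intro h; exact hF0 (by rw [hFD, h, mul_zero])
  have hab : a ≠ 0 ∨ b ≠ 0 := by
    by_contra h
    push Not at h
    apply hF'0; rw [hF', h.1, h.2]; ring
  have hDd : D.totalDegree + q ≤ S.card + d := by
    rcases hab with h | h
    · have h1 := hdeg 0 (by rw [← ha]; exact mul_ne_zero hD0 h)
      rw [← ha, totalDegree_mul_of_isDomain hD0 h] at h1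
      omega
    · have h1 := hdeg 1 (by rw [← hb]; exact mul_ne_zero hD0 h)
      rw [← hb, totalDegree_mul_of_isDomain hD0 h] at h1
      omega
  have had : a.totalDegree + D.totalDegree + q ≤ S.card + d := by
    by_cases h : a = 0
    · rw [h]; simpa using hDd
    · have h1 := hdeg 0 (by rw [← ha]; exact mul_ne_zero hD0 h)
      rw [← ha, totalDegree_mul_of_isDomain hD0 h] at h1
      omega
  have hbd : b.totalDegree + D.totalDegree + q ≤ S.card + d := by
    by_cases h : b = 0
    · rw [h]; simpa using hDd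
    · have h1 := hdeg 1 (by rw [← hb]; exact mul_ne_zero hD0 h)
      rw [← hb, totalDegree_mul_of_isDomain hD0 h] at h1
      omega
  set S' := S.filter (fun L => ¬ ell L ∣ D) with hS'
  have hdvd' : ∀ L ∈ S', ell L ∣ F' := by
    intro L hL
    rw [hS', Finset.mem_filter] at hL
    have h1 : ell L ∣ D * F' := by
      rw [← hFD, hF]
      exact (Finset.dvd_prod_of_mem _ hL.1).mul_right _
    rcases (ell_prime L).dvd_or_dvd h1 with h2 | h2
    · exact absurd h2 hL.2
    · exact h2
  obtain ⟨g', hg'⟩ := prod_ell_dvd S' F' hdvd'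
  have hg'0 : g' ≠ 0 := by rintro rfl; exact hF'0 (by rw [hg', mul_zero])
  have hcard : (S.filter (fun L => ell L ∣ D)).card ≤ D.totalDegree := by
    obtain ⟨r, hr⟩ := prod_ell_dvd (S.filter (fun L => ell L ∣ D)) D
      (fun L hL => (Finset.mem_filter.mp hL).2)
    have hr0 : r ≠ 0 := by rintro rfl; exact hD0 (by rw [hr, mul_zero])
    have h1 := congrArg totalDegree hr
    rw [totalDegree_mul_of_isDomain (hprod0 _) hr0, totalDegree_prod_ell] at h1
    omega
  have hcard2 : (S.filter (fun L => ell L ∣ D)).card + S'.card = S.card := by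
    rw [hS']
    exact Finset.card_filter_add_card_filter_not _
  refine ⟨a, b, g', S', D.totalDegree, Finset.filter_subset _ _, by omega, hrel, ?_, hg'0, ?_,
    had, hbd⟩
  · rw [← hF']; exact hg'
  · have h1 := congrArg totalDegree hFD
    rw [hF, totalDegree_mul_of_isDomain (hprod0 S) hg0, totalDegree_prod_ell,
      totalDegree_mul_of_isDomain hD0 hF'0, hg',
      totalDegree_mul_of_isDomain (hprod0 S') hg'0, totalDegree_prod_ell] at h1
    omega

end Vale.Agent.P045.NC
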