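import Vale.Agent.P045.NCReduce

/-!
# P045: structure of the reduced pair of a near cover
-/

namespace Vale.Agent.P045.NC

open MvPolynomial

variable {K : Type*} [Field K]

lemma pderiv_comm (i j : Fin 2) (f : MvPolynomial (Fin 2) K) :
    pderiv i (pderiv j f) = pderiv j (pderiv i f) := by
  ext m
  simp only [coeff_pderiv]
  by_cases hij : i = j
  · subst hij; rfl
  · rw [add_right_comm]
    have h1 : ((m + Finsupp.single i 1 : Fin 2 →₀ ℕ) j : ℕ) = m j := by
      rw [Finsupp.add_apply, Finsupp.single_eq_of_ne (Ne.symm hij)]; simp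
    have h2 : ((m + Finsupp.single j 1 : Fin 2 →₀ ℕ) i : ℕ) = m i := by
      rw [Finsupp.add_apply, Finsupp.single_eq_of_ne hij]; simp
    rw [h1, h2]; ring

lemma pderiv_of_isUnit (i : Fin 2) (f : MvPolynomial (Fin 2) K) (h : IsUnit f) :
    pderiv i f = 0 := by
  apply pderiv_eq_zero_of_dvd
  exact h.dvd

variable [Fintype K]

lemma res_PP0 (L : Ln K) : res L (PP K 0) =
    Polynomial.C (vx L) * (Polynomial.X ^ Fintype.card K - Polynomial.X) := by
  rw [PP, map_sub, map_pow, res_X0, ← FiniteField.expand_card]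
  simp only [map_add, map_mul, Polynomial.expand_C, Polynomial.expand_X]
  ring

lemma res_PP1 (L : Ln K) : res L (PP K 1) =
    Polynomial.C (vy L) * (Polynomial.X ^ Fintype.card K - Polynomial.X) := by
  rw [PP, map_sub, map_pow, res_X1, ← FiniteField.expand_card]
  simp only [map_add, map_mul, Polynomial.expand_C, Polynomial.expand_X]
  ring

omit [Fintype K] in
/-- the relation on a line, solved -/
lemma solve_rel (L : Ln K) (u v : Polynomial K)
    (h : Polynomial.C (vx L) * u + Polynomial.C (vy L) * v = 0) :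
    ∃ g, u = - Polynomial.C (vy L) * g ∧ v = Polynomial.C (vx L) * g := by
  rcases vne L with h1 | ⟨h1, h2⟩
  · refine ⟨v, ?_, ?_⟩
    · rw [h1, map_one, one_mul] at h
      linear_combination h
    · rw [h1, map_one, one_mul]
  · refine ⟨-u, ?_, ?_⟩
    · rw [h2, map_one]; ring
    · rw [h1, h2, map_zero, map_one] at h
      rw [h1, map_zero]
      linear_combination h

/-- data of a reduced near cover -/
structure Red (K : Type*) [Field K] [Fintype K] [DecidableEq K] where
  a : MvPolynomial (Fin 2) K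
  b : MvPolynomial (Fin 2) K
  g : MvPolynomial (Fin 2) K
  S : Finset (Ln K)
  κ : ℕ
  hrel : IsRelPrime a b
  hF : PP K 0 * a + PP K 1 * b = (∏ L ∈ S, ell L) * g
  ha : a.totalDegree ≤ κ
  hb : b.totalDegree ≤ κ
  h3 : 3 * κ ≤ S.card
  hS : 1 ≤ S.card
  hκ : κ < Fintype.card K

namespace Red
variable [DecidableEq K] (R : Red K)

lemma rel (L : Ln K) (hL : L ∈ R.S) :
    Polynomial.C (vx L) * res L R.a + Polynomial.C (vy L) * res L R.b = 0 := by
  have h := congrArg (res L) R.hF
  rw [map_mul, map_prod, Finset.prod_eq_zero hL (res_ell_same L), zero_mul, map_add, map_mul,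
    map_mul, res_PP0, res_PP1] at h
  have hne : (Polynomial.X ^ Fintype.card K - Polynomial.X : Polynomial K) ≠ 0 :=
    FiniteField.X_pow_card_sub_X_ne_zero K Fintype.one_lt_card
  have h2 : (Polynomial.X ^ Fintype.card K - Polynomial.X : Polynomial K) *
    (Polynomial.C (vx L) * res L R.a + Polynomial.C (vy L) * res L R.b) = 0 := by
    rw [← h]; ring
  exact (mul_eq_zero.mp h2).resolve_left hne

lemma E_zero : R.b ^ 2 * pderiv 0 R.a - R.a * R.b * (pderiv 1 R.a + pderiv 0 R.b) +
    R.a ^ 2 * pderiv 1 R.b = 0 := by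
  apply eq_zero_of_lines R.S
  · intro L hL
    have h := R.rel L hL
    obtain ⟨g, hg1, hg2⟩ := solve_rel L _ _ h
    have hd := congrArg Polynomial.derivative h
    simp only [map_add, Polynomial.derivative_mul, Polynomial.derivative_C, zero_mul, zero_add,
      derivative_res, map_zero] at hd
    simp only [map_add, map_sub, map_mul, map_pow]
    rw [hg1, hg2]
    linear_combination g ^ 2 * hd
  · have ha := R.ha
    have hb := R.hb
    have h3 := R.h3
    have hS := R.hS
    have h1 := totalDegree_pderiv_le 0 R.a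
    have h2 := totalDegree_pderiv_le 1 R.a
    have h4 := totalDegree_pderiv_le 0 R.b
    have h5 := totalDegree_pderiv_le 1 R.b
    have hle : (R.b ^ 2 * pderiv 0 R.a - R.a * R.b * (pderiv 1 R.a + pderiv 0 R.b) +
        R.a ^ 2 * pderiv 1 R.b).totalDegree ≤ 2 * R.κ + (R.κ - 1) := by
      refine (totalDegree_add _ _).trans (max_le ((totalDegree_sub _ _).trans (max_le ?_ ?_)) ?_)
      · refine (totalDegree_mul _ _).trans ?_
        rw [totalDegree_pow']
        omega
      · refine (totalDegree_mul _ _).trans ?_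
        have h6 := totalDegree_mul R.a R.b
        have h7 : (pderiv 1 R.a + pderiv 0 R.b).totalDegree ≤ R.κ - 1 :=
          (totalDegree_add _ _).trans (max_le (by omega) (by omega))
        omega
      · refine (totalDegree_mul _ _).trans ?_
        rw [totalDegree_pow']
        omega
    omega

lemma a_x : pderiv 0 R.a = 0 := by
  apply pderiv_eq_zero_of_dvd
  have h1 : R.a ∣ R.b ^ 2 * pderiv 0 R.a :=
    ⟨R.b * (pderiv 1 R.a + pderiv 0 R.b) - R.a * pderiv 1 R.b, by
      linear_combination R.E_zero⟩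
  exact (R.hrel.pow_right).dvd_of_dvd_mul_left h1

lemma b_y : pderiv 1 R.b = 0 := by
  apply pderiv_eq_zero_of_dvd
  have h1 : R.b ∣ R.a ^ 2 * pderiv 1 R.b :=
    ⟨R.a * (pderiv 1 R.a + pderiv 0 R.b) - R.b * pderiv 0 R.a, by
      linear_combination R.E_zero⟩
  exact (R.hrel.symm.pow_right).dvd_of_dvd_mul_left h1

lemma a_y_b_x : pderiv 1 R.a + pderiv 0 R.b = 0 := by
  by_cases ha : R.a = 0
  · have : IsUnit R.b := by
      have h := R.hrel
      rw [ha, isRelPrime_zero_left] at h
      exact h
    rw [ha, map_zero, pderiv_of_isUnit _ _ this, add_zero]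
  · by_cases hb : R.b = 0
    · have : IsUnit R.a := by
        have h := R.hrel
        rw [hb, isRelPrime_zero_right] at h
        exact h
      rw [hb, map_zero, pderiv_of_isUnit _ _ this, add_zero]
    · have h := R.E_zero
      rw [R.a_x, R.b_y] at h
      have h2 : R.a * R.b * (pderiv 1 R.a + pderiv 0 R.b) = 0 := by linear_combination -h
      exact (mul_eq_zero.mp h2).resolve_left (mul_ne_zero ha hb)

/-- the third polynomial -/
noncomputable def D : MvPolynomial (Fin 2) K := pderiv 1 R.a
/-- the first polynomial -/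
noncomputable def A : MvPolynomial (Fin 2) K := R.b + X 0 * R.D
/-- the second polynomial -/
noncomputable def B : MvPolynomial (Fin 2) K := X 1 * R.D - R.a

lemma a_y : pderiv 1 R.a = R.D := rfl
lemma b_x : pderiv 0 R.b = - R.D := by
  rw [D]; linear_combination R.a_y_b_x

lemma a_eq : R.a = X 1 * R.D - R.B := by rw [B]; ring
lemma b_eq : R.b = R.A - X 0 * R.D := by rw [A]; ring

lemma D_grad (i : Fin 2) : pderiv i R.D = 0 := by
  fin_cases i
  · simp only [Fin.zero_eta]
    rw [D, pderiv_comm, R.a_x, map_zero]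
  · simp only [Fin.mk_one]
    have h : R.D = - pderiv 0 R.b := by rw [R.b_x, neg_neg]
    rw [h, map_neg, pderiv_comm, R.b_y, map_zero, neg_zero]

lemma A_grad (i : Fin 2) : pderiv i R.A = 0 := by
  fin_cases i
  · simp only [Fin.zero_eta, A, map_add, Derivation.leibniz, smul_eq_mul, R.D_grad, pderiv_X_self,
      R.b_x]
    ring
  · simp only [Fin.mk_one, A, map_add, Derivation.leibniz, smul_eq_mul, R.D_grad, R.b_y]
    rw [pderiv_X_of_ne (by decide : (0 : Fin 2) ≠ 1)]
    ring

lemma B_grad (i : Fin 2) : pderiv i R.B = 0 := by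
  fin_cases i
  · simp only [Fin.zero_eta, B, map_sub, Derivation.leibniz, smul_eq_mul, R.D_grad, R.a_x]
    rw [pderiv_X_of_ne (by decide : (1 : Fin 2) ≠ 0)]
    ring
  · simp only [Fin.mk_one, B, map_sub, Derivation.leibniz, smul_eq_mul, R.D_grad, pderiv_X_self,
      R.a_y]
    ring

lemma D_deg : R.D.totalDegree ≤ R.κ - 1 :=
  (totalDegree_pderiv_le 1 R.a).trans (Nat.sub_le_sub_right R.ha 1)

lemma XD_deg (i : Fin 2) : (X i * R.D).totalDegree ≤ R.κ := by
  by_cases h : R.D = 0
  · rw [h]; simp
  · have h1 : R.κ ≠ 0 := by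
      intro h0
      apply h
      have ha := R.ha
      rw [h0, Nat.le_zero, totalDegree_eq_zero_iff_eq_C] at ha
      rw [D, ha, pderiv_C]
    have h2 := R.D_deg
    refine (totalDegree_mul _ _).trans ?_
    rw [totalDegree_X]; omega

lemma A_deg : R.A.totalDegree ≤ R.κ :=
  (totalDegree_add _ _).trans (max_le R.hb (R.XD_deg 0))

lemma B_deg : R.B.totalDegree ≤ R.κ :=
  (totalDegree_sub _ _).trans (max_le (R.XD_deg 1) R.ha)

lemma rel' (L : Ln K) (hL : L ∈ R.S) :
    Polynomial.C (vx L) * (Polynomial.C (py L) * res L R.D - res L R.B)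
      + Polynomial.C (vy L) * (res L R.A - Polynomial.C (px L) * res L R.D) = 0 := by
  have h := R.rel L hL
  rw [R.a_eq, R.b_eq, map_sub, map_sub, map_mul, map_mul, res_X0, res_X1] at h
  linear_combination h

/-- the polynomial `A` on the lines `inl` and `B` on the lines `inr` -/
noncomputable def ZZ (A B : MvPolynomial (Fin 2) K) : Ln K → MvPolynomial (Fin 2) K
  | .inl _ => A
  | .inr _ => B

omit [DecidableEq K] in
lemma pderiv_PP (i j : Fin 2) : pderiv j (PP K i) = - pderiv j (X i) := by
  rw [PP, map_sub, Derivation.leibniz_pow]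
  have : (Fintype.card K : MvPolynomial (Fin 2) K) = 0 := by
    have h1 : ((Fintype.card K : K)) = 0 := FiniteField.cast_card_eq_zero K
    rw [← map_natCast (C : K →+* MvPolynomial (Fin 2) K), h1, map_zero]
  rw [nsmul_eq_mul, this, zero_mul, zero_sub]

lemma quot (L : Ln K) (hL : L ∈ R.S) :
    res L (∏ M ∈ R.S.erase L, ell M) * res L R.g =
      res L (ZZ R.A R.B L) - Polynomial.X ^ Fintype.card K * res L R.D := by
  have hprod : (∏ M ∈ R.S, ell M) = ell L * ∏ M ∈ R.S.erase L, ell M :=
    (Finset.mul_prod_erase _ _ hL).symm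
  have hF := R.hF
  rw [hprod] at hF
  have h0 := congrArg (fun f => res L (pderiv 0 f)) hF
  have h1 := congrArg (fun f => res L (pderiv 1 f)) hF
  have ne01 : pderiv 1 (X 0 : MvPolynomial (Fin 2) K) = 0 :=
    pderiv_X_of_ne (by decide : (0 : Fin 2) ≠ 1)
  have ne10 : pderiv 0 (X 1 : MvPolynomial (Fin 2) K) = 0 :=
    pderiv_X_of_ne (by decide : (1 : Fin 2) ≠ 0)
  have e0 : pderiv 0 (ell L) = C (vy L) := by
    simp [ell, Derivation.leibniz, ne10]
  have e1 : pderiv 1 (ell L) = - C (vx L) := by
    simp [ell, Derivation.leibniz, ne01]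
  have rel := R.rel L hL
  simp only [map_add, Derivation.leibniz, smul_eq_mul, pderiv_PP, pderiv_X_self, ne01, ne10, e0,
    e1, R.a_x, R.b_y, R.a_y, R.b_x, map_mul, res_ell_same, res_PP0, res_PP1, map_neg, map_one,
    map_zero, res_C] at h0 h1
  have ha := congrArg (res L) R.a_eq
  have hb := congrArg (res L) R.b_eq
  simp only [map_sub, map_mul, res_X0, res_X1] at ha hb
  rcases L with ⟨α, β⟩ | γ
  · simp only [vx, vy, px, py, ZZ, map_one, map_zero] at h0 h1 ha hb rel ⊢
    linear_combination h1 + hb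
  · simp only [vx, vy, px, py, ZZ, map_one, map_zero] at h0 h1 ha hb rel ⊢
    linear_combination -h0 - ha

end Red

end Vale.Agent.P045.NC
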