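import Mathlib

/-!
# P045, [RIG-A/B]: the combinatorial core of the rigidity lemma

For coefficient vectors `b, b'` the vanishing of the cubic form
`T3 = Q(b)U(b') - Q(b')U(b) + U(b)U(b')(U(b)-U(b'))` forces `b = ε_{e1} - ε_{e2}`,
`b' = ε_{e1} - ε_{e3}`.
-/

namespace Vale.Agent.P045.Rig

variable {F : Type*} [Field F] {ι : Type*} [Fintype ι] [DecidableEq ι]

/-- the linear form -/
def U (b y : ι → F) : F := ∑ i, b i * y i

/-- the diagonal quadratic form -/
def Q (b y : ι → F) : F := ∑ i, b i * y i ^ 2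

/-- the cubic form -/
def T3 (b b' y : ι → F) : F :=
  Q b y * U b' y - Q b' y * U b y + U b y * U b' y * (U b y - U b' y)

/-- the quadratic form comparing the part `P` -/
def T2 (P : ι → Prop) [DecidablePred P] (b b' y : ι → F) : F :=
  (∑ i with P i, b i * y i) * U b' y - (∑ i with P i, b' i * y i) * U b y

/-- the vertices of the standard simplex -/
def eps (e : Option ι) : ι → F := fun i => if e = some i then 1 else 0

omit [Fintype ι] in
@[simp] theorem eps_none (i : ι) : (eps (none : Option ι) : ι → F) i = 0 := by simp [eps]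

omit [Fintype ι] in
theorem eps_some (i j : ι) : (eps (some i) : ι → F) j = if i = j then 1 else 0 := by simp [eps]

theorem sum1 {f : ι → F → F} (h0 : ∀ l, f l 0 = 0) (i : ι) (α : F) :
    ∑ l, f l (if l = i then α else 0) = f i α := by
  rw [Finset.sum_eq_single i]
  · simp
  · intro l _ hl
    simp [hl, h0]
  · intro h
    exact absurd (Finset.mem_univ i) h

theorem sum2 {f : ι → F → F} (h0 : ∀ l, f l 0 = 0) {i j : ι} (hij : i ≠ j) (α β : F) :
    ∑ l, f l (if l = i then α else if l = j then β else 0) = f i α + f j β := by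
  rw [← Finset.sum_subset (Finset.subset_univ ({i, j} : Finset ι))]
  · rw [Finset.sum_insert (by simpa using hij), Finset.sum_singleton]
    simp [Ne.symm hij]
  · intro l _ hl
    simp only [Finset.mem_insert, Finset.mem_singleton, not_or] at hl
    simp [hl.1, hl.2, h0]

theorem sum3 {f : ι → F → F} (h0 : ∀ l, f l 0 = 0) {i j k : ι} (hij : i ≠ j) (hik : i ≠ k)
    (hjk : j ≠ k) (α β γ : F) :
    ∑ l, f l (if l = i then α else if l = j then β else if l = k then γ else 0) =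
      f i α + f j β + f k γ := by
  rw [← Finset.sum_subset (Finset.subset_univ ({i, j, k} : Finset ι))]
  · rw [Finset.sum_insert (by simp [hij, hik]), Finset.sum_insert (by simpa using hjk),
      Finset.sum_singleton]
    simp [Ne.symm hij, Ne.symm hik, Ne.symm hjk, add_assoc]
  · intro l _ hl
    simp only [Finset.mem_insert, Finset.mem_singleton, not_or] at hl
    simp [hl.1, hl.2.1, hl.2.2, h0]

theorem T3_one {b b' : ι → F} (h : ∀ y, T3 b b' y = 0) (i : ι) :
    b i * b' i * (b i - b' i) = 0 := by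
  have := h (fun l => if l = i then 1 else 0)
  simp only [T3, U, Q] at this
  rw [sum1 (f := fun l x => b l * x) (by simp), sum1 (f := fun l x => b' l * x) (by simp),
    sum1 (f := fun l x => b l * x ^ 2) (by simp), sum1 (f := fun l x => b' l * x ^ 2) (by simp)]
    at this
  linear_combination this

theorem T3_pair {b b' : ι → F} (h : ∀ y, T3 b b' y = 0) {i j : ι} (hij : i ≠ j) :
    (b i + b j) * (b' i + b' j) * (b i + b j - b' i - b' j) = 0 ∧
    2 * (b j * b' i - b i * b' j) + (b i - b j) * (b' i - b' j) * (b i - b j - b' i + b' j) = 0 := by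
  constructor
  · have := h (fun l => if l = i then 1 else if l = j then 1 else 0)
    simp only [T3, U, Q] at this
    rw [sum2 (f := fun l x => b l * x) (by simp) hij, sum2 (f := fun l x => b' l * x) (by simp) hij,
      sum2 (f := fun l x => b l * x ^ 2) (by simp) hij,
      sum2 (f := fun l x => b' l * x ^ 2) (by simp) hij] at this
    linear_combination this
  · have := h (fun l => if l = i then 1 else if l = j then -1 else 0)
    simp only [T3, U, Q] at this
    rw [sum2 (f := fun l x => b l * x) (by simp) hij, sum2 (f := fun l x => b' l * x) (by simp) hij,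
      sum2 (f := fun l x => b l * x ^ 2) (by simp) hij,
      sum2 (f := fun l x => b' l * x ^ 2) (by simp) hij] at this
    linear_combination this

theorem T3_triple {b b' : ι → F} (h : ∀ y, T3 b b' y = 0) {i j k : ι} (hij : i ≠ j) (hik : i ≠ k)
    (hjk : j ≠ k) :
    (b i + b j + b k) * (b' i + b' j + b' k) * (b i + b j + b k - b' i - b' j - b' k) = 0 := by
  have := h (fun l => if l = i then 1 else if l = j then 1 else if l = k then 1 else 0)
  simp only [T3, U, Q] at this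
  rw [sum3 (f := fun l x => b l * x) (by simp) hij hik hjk,
    sum3 (f := fun l x => b' l * x) (by simp) hij hik hjk,
    sum3 (f := fun l x => b l * x ^ 2) (by simp) hij hik hjk,
    sum3 (f := fun l x => b' l * x ^ 2) (by simp) hij hik hjk] at this
  linear_combination this

section
variable {b b' : ι → F} (h : ∀ y, T3 b b' y = 0) (h2 : (2 : F) ≠ 0)

include h

/-- the three types -/
theorem types (i : ι) : (b i = 0 ∧ b' i = 0) ∨ (b i ≠ 0 ∧ b' i = 0) ∨ (b i = 0 ∧ b' i ≠ 0) ∨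
    (b i ≠ 0 ∧ b' i = b i) := by
  have := T3_one h i
  by_cases h1 : b i = 0
  · by_cases h3 : b' i = 0
    · exact Or.inl ⟨h1, h3⟩
    · exact Or.inr (Or.inr (Or.inl ⟨h1, h3⟩))
  · by_cases h3 : b' i = 0
    · exact Or.inr (Or.inl ⟨h1, h3⟩)
    · have h4 := (mul_eq_zero.1 this).resolve_left (mul_ne_zero h1 h3)
      exact Or.inr (Or.inr (Or.inr ⟨h1, (sub_eq_zero.1 h4).symm⟩))

include h2

theorem AB {i j : ι} (hi : b i ≠ 0) (hi' : b' i = 0) (hj : b j = 0) (hj' : b' j ≠ 0) :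
    b i = -1 ∧ b' j = -1 := by
  have hij : i ≠ j := by rintro rfl; exact hi hj
  obtain ⟨p1, p2⟩ := T3_pair h hij
  rw [hi', hj] at p1 p2
  have q1 : b i = b' j := by
    have : b i * b' j * (b i - b' j) = 0 := by linear_combination p1
    exact sub_eq_zero.1 ((mul_eq_zero.1 this).resolve_left (mul_ne_zero hi hj'))
  have q2 : 2 + b i + b' j = 0 := by
    have : b i * b' j * (2 + b i + b' j) = 0 := by linear_combination -p2
    exact (mul_eq_zero.1 this).resolve_left (mul_ne_zero hi hj')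
  have q3 : 2 * (b i + 1) = 0 := by rw [← q1] at q2; linear_combination q2
  have q4 := (mul_eq_zero.1 q3).resolve_left h2
  have q5 : b i = -1 := by linear_combination q4
  exact ⟨q5, by rw [← q1]; exact q5⟩

theorem AC {i j : ι} (hi : b i ≠ 0) (hi' : b' i = 0) (hj : b j ≠ 0) (hj' : b' j = b j) :
    b i = -1 ∧ b j = 1 := by
  have hij : i ≠ j := by rintro rfl; rw [hi'] at hj'; exact hi hj'.symm
  obtain ⟨p1, p2⟩ := T3_pair h hij
  rw [hi', hj'] at p1 p2
  have q1 : b i = -b j := by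
    have : b i * b j * (b i + b j) = 0 := by linear_combination p1
    have := (mul_eq_zero.1 this).resolve_left (mul_ne_zero hi hj)
    linear_combination this
  have q2 : 2 + b i - b j = 0 := by
    have : b i * b j * (2 + b i - b j) = 0 := by linear_combination -p2
    exact (mul_eq_zero.1 this).resolve_left (mul_ne_zero hi hj)
  have q3 : 2 * (b i + 1) = 0 := by linear_combination q2 + q1
  have q4 := (mul_eq_zero.1 q3).resolve_left h2
  have q5 : b i = -1 := by linear_combination q4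
  exact ⟨q5, by linear_combination q1 - q5⟩

theorem BC {i j : ι} (hi : b i = 0) (hi' : b' i ≠ 0) (hj : b j ≠ 0) (hj' : b' j = b j) :
    b' i = -1 ∧ b j = 1 := by
  have hij : i ≠ j := by rintro rfl; exact hj hi
  obtain ⟨p1, p2⟩ := T3_pair h hij
  rw [hi, hj'] at p1 p2
  have q1 : b' i = -b j := by
    have : b' i * b j * (b' i + b j) = 0 := by linear_combination -p1
    have := (mul_eq_zero.1 this).resolve_left (mul_ne_zero hi' hj)
    linear_combination this
  have q2 : 2 + b' i - b j = 0 := by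
    have : b' i * b j * (2 + b' i - b j) = 0 := by linear_combination p2
    exact (mul_eq_zero.1 this).resolve_left (mul_ne_zero hi' hj)
  have q3 : 2 * (b' i + 1) = 0 := by linear_combination q2 + q1
  have q4 := (mul_eq_zero.1 q3).resolve_left h2
  have q5 : b' i = -1 := by linear_combination q4
  exact ⟨q5, by linear_combination q1 - q5⟩

/-- two coordinates of type `A` exclude another type -/
theorem AA {i i' j : ι} (hii : i ≠ i') (hi : b i ≠ 0 ∧ b' i = 0) (hi2 : b i' ≠ 0 ∧ b' i' = 0)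
    (hj : (b j = 0 ∧ b' j ≠ 0) ∨ (b j ≠ 0 ∧ b' j = b j)) : False := by
  have hij : i ≠ j := by
    rintro rfl
    rcases hj with ⟨h3, -⟩ | ⟨h3, h4⟩
    · exact hi.1 h3
    · rw [hi.2] at h4; exact h3 h4.symm
  have hij2 : i' ≠ j := by
    rintro rfl
    rcases hj with ⟨h3, -⟩ | ⟨h3, h4⟩
    · exact hi2.1 h3
    · rw [hi2.2] at h4; exact h3 h4.symm
  have p := T3_triple h hii hij hij2
  rcases hj with ⟨h3, h4⟩ | ⟨h3, h4⟩
  · obtain ⟨a1, a2⟩ := AB h h2 hi.1 hi.2 h3 h4
    obtain ⟨a3, _⟩ := AB h h2 hi2.1 hi2.2 h3 h4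
    rw [a1, a3, h3, hi.2, hi2.2, a2] at p
    apply h2
    linear_combination -p
  · obtain ⟨a1, a2⟩ := AC h h2 hi.1 hi.2 h3 h4
    obtain ⟨a3, _⟩ := AC h h2 hi2.1 hi2.2 h3 h4
    rw [a1, a3, hi.2, hi2.2, h4, a2] at p
    apply h2
    linear_combination p

/-- two coordinates of type `B` exclude another type -/
theorem BB {i i' j : ι} (hii : i ≠ i') (hi : b i = 0 ∧ b' i ≠ 0) (hi2 : b i' = 0 ∧ b' i' ≠ 0)
    (hj : (b j ≠ 0 ∧ b' j = 0) ∨ (b j ≠ 0 ∧ b' j = b j)) : False := by
  have hij : i ≠ j := by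
    rintro rfl
    rcases hj with ⟨h3, -⟩ | ⟨h3, h4⟩
    · exact h3 hi.1
    · exact h3 hi.1
  have hij2 : i' ≠ j := by
    rintro rfl
    rcases hj with ⟨h3, -⟩ | ⟨h3, h4⟩
    · exact h3 hi2.1
    · exact h3 hi2.1
  have p := T3_triple h hii hij hij2
  rcases hj with ⟨h3, h4⟩ | ⟨h3, h4⟩
  · obtain ⟨a1, a2⟩ := AB h h2 h3 h4 hi.1 hi.2
    obtain ⟨_, a3⟩ := AB h h2 h3 h4 hi2.1 hi2.2
    rw [a1, a2, a3, hi.1, hi2.1, h4] at p
    apply h2
    linear_combination p
  · obtain ⟨a1, a2⟩ := BC h h2 hi.1 hi.2 h3 h4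
    obtain ⟨a3, _⟩ := BC h h2 hi2.1 hi2.2 h3 h4
    rw [hi.1, hi2.1, h4, a1, a3, a2] at p
    apply h2
    linear_combination -p

/-- two coordinates of type `C` exclude another type -/
theorem CC {i i' j : ι} (hii : i ≠ i') (hi : b i ≠ 0 ∧ b' i = b i) (hi2 : b i' ≠ 0 ∧ b' i' = b i')
    (hj : (b j ≠ 0 ∧ b' j = 0) ∨ (b j = 0 ∧ b' j ≠ 0)) : False := by
  have hij : i ≠ j := by
    rintro rfl
    rcases hj with ⟨h3, h4⟩ | ⟨h3, h4⟩
    · rw [hi.2] at h4; exact h3 h4
    · exact hi.1 h3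
  have hij2 : i' ≠ j := by
    rintro rfl
    rcases hj with ⟨h3, h4⟩ | ⟨h3, h4⟩
    · rw [hi2.2] at h4; exact h3 h4
    · exact hi2.1 h3
  have p := T3_triple h hii hij hij2
  rcases hj with ⟨h3, h4⟩ | ⟨h3, h4⟩
  · obtain ⟨a1, a2⟩ := AC h h2 h3 h4 hi.1 hi.2
    obtain ⟨_, a3⟩ := AC h h2 h3 h4 hi2.1 hi2.2
    rw [hi.2, hi2.2, a1, a2, a3, h4] at p
    apply h2
    linear_combination -p
  · obtain ⟨a1, a2⟩ := BC h h2 h3 h4 hi.1 hi.2
    obtain ⟨_, a3⟩ := BC h h2 h3 h4 hi2.1 hi2.2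
    rw [hi.2, hi2.2, a1, a2, a3, h3] at p
    apply h2
    linear_combination p

end

omit [Fintype ι] in
/-- a vector supported on at most one coordinate -/
theorem eps_of_unique (c : ι → F) (v : F) (P : ι → Prop)
    (h1 : ∀ i, P i → c i = v) (h0 : ∀ i, ¬ P i → c i = 0)
    (hu : ∀ i j, P i → P j → i = j) : ∃ e : Option ι, (∀ i, e = some i ↔ P i) ∧
      ∀ i, c i = v * eps e i := by
  by_cases hex : ∃ i, P i
  · obtain ⟨i, hi⟩ := hex
    refine ⟨some i, fun j => ⟨fun h => ?_, fun h => ?_⟩, fun j => ?_⟩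
    · rw [Option.some_inj] at h; rw [← h]; exact hi
    · rw [hu i j hi h]
    · rw [eps_some]
      by_cases hij : i = j
      · rw [if_pos hij, mul_one, ← hij]; exact h1 i hi
      · rw [if_neg hij, mul_zero]
        exact h0 j fun h => hij (hu i j hi h)
  · refine ⟨none, fun j => ⟨fun h => by simp at h, fun h => absurd ⟨j, h⟩ hex⟩, fun j => ?_⟩
    rw [eps_none, mul_zero]
    exact h0 j fun h => hex ⟨j, h⟩

/-- **[RIG-A]** -/
theorem rigA (h2 : (2 : F) ≠ 0) {b b' : ι → F} (h : ∀ y, T3 b b' y = 0) (hb : b ≠ 0)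
    (hb' : b' ≠ 0) (hne : b ≠ b') :
    ∃ e1 e2 e3 : Option ι, e1 ≠ e2 ∧ e1 ≠ e3 ∧ e2 ≠ e3 ∧ b = eps e1 - eps e2 ∧
      b' = eps e1 - eps e3 := by
  obtain ⟨i1, hi1⟩ := Function.ne_iff.1 hb
  obtain ⟨i2, hi2⟩ := Function.ne_iff.1 hb'
  obtain ⟨i3, hi3⟩ := Function.ne_iff.1 hne
  simp only [Pi.zero_apply] at hi1 hi2
  obtain ⟨A, hA⟩ : ∃ A : ι → Prop, A = fun i => b i ≠ 0 ∧ b' i = 0 := ⟨_, rfl⟩
  obtain ⟨B, hB⟩ : ∃ B : ι → Prop, B = fun i => b i = 0 ∧ b' i ≠ 0 := ⟨_, rfl⟩
  obtain ⟨C, hC⟩ : ∃ C : ι → Prop, C = fun i => b i ≠ 0 ∧ b' i = b i := ⟨_, rfl⟩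
  have hA' : ∀ i, A i ↔ b i ≠ 0 ∧ b' i = 0 := fun i => by rw [hA]
  have hB' : ∀ i, B i ↔ b i = 0 ∧ b' i ≠ 0 := fun i => by rw [hB]
  have hC' : ∀ i, C i ↔ b i ≠ 0 ∧ b' i = b i := fun i => by rw [hC]
  have AorC : A i1 ∨ C i1 := by
    rw [hA', hC']
    rcases types h i1 with h3 | h3 | h3 | h3
    · exact absurd h3.1 hi1
    · exact Or.inl h3
    · exact absurd h3.1 hi1
    · exact Or.inr h3
  have BorC : B i2 ∨ C i2 := by
    rw [hB', hC']
    rcases types h i2 with h3 | h3 | h3 | h3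
    · exact absurd h3.2 hi2
    · exact absurd h3.2 hi2
    · exact Or.inl h3
    · exact Or.inr h3
  have AorB : A i3 ∨ B i3 := by
    rw [hA', hB']
    rcases types h i3 with h3 | h3 | h3 | h3
    · exact absurd (h3.1.trans h3.2.symm) hi3
    · exact Or.inl h3
    · exact Or.inr h3
    · exact absurd h3.2.symm hi3
  -- another type exists for each type
  have exA : ∃ j, B j ∨ C j := ⟨i2, BorC⟩
  have exB : ∃ j, A j ∨ C j := ⟨i1, AorC⟩
  have exC : ∃ j, A j ∨ B j := ⟨i3, AorB⟩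
  have vA : ∀ i, A i → b i = -1 := by
    intro i hi
    obtain ⟨j, hj | hj⟩ := exA
    · exact (AB h h2 ((hA' i).1 hi).1 ((hA' i).1 hi).2 ((hB' j).1 hj).1 ((hB' j).1 hj).2).1
    · exact (AC h h2 ((hA' i).1 hi).1 ((hA' i).1 hi).2 ((hC' j).1 hj).1 ((hC' j).1 hj).2).1
  have vB : ∀ i, B i → b' i = -1 := by
    intro i hi
    obtain ⟨j, hj | hj⟩ := exB
    · exact (AB h h2 ((hA' j).1 hj).1 ((hA' j).1 hj).2 ((hB' i).1 hi).1 ((hB' i).1 hi).2).2
    · exact (BC h h2 ((hB' i).1 hi).1 ((hB' i).1 hi).2 ((hC' j).1 hj).1 ((hC' j).1 hj).2).1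
  have vC : ∀ i, C i → b i = 1 := by
    intro i hi
    obtain ⟨j, hj | hj⟩ := exC
    · exact (AC h h2 ((hA' j).1 hj).1 ((hA' j).1 hj).2 ((hC' i).1 hi).1 ((hC' i).1 hi).2).2
    · exact (BC h h2 ((hB' j).1 hj).1 ((hB' j).1 hj).2 ((hC' i).1 hi).1 ((hC' i).1 hi).2).2
  have uA : ∀ i j, A i → A j → i = j := by
    intro i i' hi hi'
    by_contra hii
    obtain ⟨j, hj⟩ := exA
    exact AA h h2 hii ((hA' i).1 hi) ((hA' i').1 hi') (hj.imp (hB' j).1 (hC' j).1)
  have uB : ∀ i j, B i → B j → i = j := by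
    intro i i' hi hi'
    by_contra hii
    obtain ⟨j, hj⟩ := exB
    exact BB h h2 hii ((hB' i).1 hi) ((hB' i').1 hi') (hj.imp (hA' j).1 (hC' j).1)
  have uC : ∀ i j, C i → C j → i = j := by
    intro i i' hi hi'
    by_contra hii
    obtain ⟨j, hj⟩ := exC
    exact CC h h2 hii ((hC' i).1 hi) ((hC' i').1 hi') (hj.imp (hA' j).1 (hB' j).1)
  classical
  obtain ⟨e1, f1, g1⟩ := eps_of_unique (F := F) (fun i => if C i then 1 else 0) 1 C
    (fun i hi => by simp [hi]) (fun i hi => by simp [hi]) uC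
  obtain ⟨e2, f2, g2⟩ := eps_of_unique (F := F) (fun i => if A i then 1 else 0) 1 A
    (fun i hi => by simp [hi]) (fun i hi => by simp [hi]) uA
  obtain ⟨e3, f3, g3⟩ := eps_of_unique (F := F) (fun i => if B i then 1 else 0) 1 B
    (fun i hi => by simp [hi]) (fun i hi => by simp [hi]) uB
  have bval : ∀ i, b i = eps e1 i - eps e2 i := by
    intro i
    have k1 := g1 i
    have k2 := g2 i
    rw [one_mul] at k1 k2
    rw [← k1, ← k2]
    rcases types h i with h3 | h3 | h3 | h3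
    · have c1 : ¬ C i := fun hc => ((hC' i).1 hc).1 h3.1
      have c2 : ¬ A i := fun hc => ((hA' i).1 hc).1 h3.1
      simp [c1, c2, h3.1]
    · have c2 : A i := (hA' i).2 h3
      have c1 : ¬ C i := fun hc => h3.1 (((hC' i).1 hc).2.symm.trans h3.2)
      simp [c1, c2, vA i c2]
    · have c1 : ¬ C i := fun hc => ((hC' i).1 hc).1 h3.1
      have c2 : ¬ A i := fun hc => ((hA' i).1 hc).1 h3.1
      simp [c1, c2, h3.1]
    · have c1 : C i := (hC' i).2 h3
      have c2 : ¬ A i := fun hc => h3.1 (h3.2.symm.trans ((hA' i).1 hc).2)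
      simp [c1, c2, vC i c1]
  have bval' : ∀ i, b' i = eps e1 i - eps e3 i := by
    intro i
    have k1 := g1 i
    have k2 := g3 i
    rw [one_mul] at k1 k2
    rw [← k1, ← k2]
    rcases types h i with h3 | h3 | h3 | h3
    · have c1 : ¬ C i := fun hc => ((hC' i).1 hc).1 h3.1
      have c2 : ¬ B i := fun hc => ((hB' i).1 hc).2 h3.2
      simp [c1, c2, h3.2]
    · have c2 : ¬ B i := fun hc => ((hB' i).1 hc).2 h3.2
      have c1 : ¬ C i := fun hc => h3.1 (((hC' i).1 hc).2.symm.trans h3.2)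
      simp [c1, c2, h3.2]
    · have c1 : ¬ C i := fun hc => ((hC' i).1 hc).1 h3.1
      have c2 : B i := (hB' i).2 h3
      simp [c1, c2, vB i c2]
    · have c1 : C i := (hC' i).2 h3
      have c2 : ¬ B i := fun hc => h3.1 ((hB' i).1 hc).1
      simp [c1, c2, h3.2, vC i c1]
  have hbf : b = eps e1 - eps e2 := funext bval
  have hbf' : b' = eps e1 - eps e3 := funext bval'
  refine ⟨e1, e2, e3, ?_, ?_, ?_, hbf, hbf'⟩
  · rintro rfl
    exact hb (by rw [hbf, sub_self])
  · rintro rfl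
    exact hb' (by rw [hbf', sub_self])
  · rintro rfl
    exact hne (by rw [hbf, hbf'])

end Vale.Agent.P045.Rig
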