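import Vale.Agent.P045.RigA

/-!
# P045, [RIG-B], [RIG-C]: the rigidity lemma for the solution sets of
`q(c) + 2 τ u_τ(c) + s - u(c)^2 = α u(c) + β`
-/

namespace Vale.Agent.P045.Rig

variable {F : Type*} [Field F] {ι : Type*} [Fintype ι] [DecidableEq ι]

omit [DecidableEq ι] in
theorem U_add (b c y : ι → F) : U (b + c) y = U b y + U c y := by
  simp only [U, Pi.add_apply, add_mul, Finset.sum_add_distrib]

omit [DecidableEq ι] in
theorem U_sub (b c y : ι → F) : U (b - c) y = U b y - U c y := by
  simp only [U, Pi.sub_apply, sub_mul, Finset.sum_sub_distrib]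

omit [DecidableEq ι] in
theorem Q_add (b c y : ι → F) : Q (b + c) y = Q b y + Q c y := by
  simp only [Q, Pi.add_apply, add_mul, Finset.sum_add_distrib]

omit [DecidableEq ι] in
theorem Q_sub (b c y : ι → F) : Q (b - c) y = Q b y - Q c y := by
  simp only [Q, Pi.sub_apply, sub_mul, Finset.sum_sub_distrib]

/-- [RIG-B], one pair -/
theorem T2_pair (P : ι → Prop) [DecidablePred P] {b b' : ι → F} (h : ∀ y, T2 P b b' y = 0)
    {i j : ι} (hi : P i) (hj : ¬ P j) : b i * b' j = b' i * b j := by
  have hij : i ≠ j := by rintro rfl; exact hj hi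
  have := h (fun l => if l = i then 1 else if l = j then 1 else 0)
  simp only [T2, U, Finset.sum_filter] at this
  rw [sum2 (f := fun l x => if P l then b l * x else 0) (by simp) hij,
    sum2 (f := fun l x => if P l then b' l * x else 0) (by simp) hij,
    sum2 (f := fun l x => b l * x) (by simp) hij,
    sum2 (f := fun l x => b' l * x) (by simp) hij] at this
  simp only [hi, hj, if_true, if_false] at this
  linear_combination this

/-- the family of a vertex -/
def Fam (P : ι → Prop) (e : Option ι) : Prop := ∀ i, e = some i → P i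

/-- **[RIG-B]** -/
theorem rigB (P : ι → Prop) [DecidablePred P] {e1 e2 e3 : Option ι} (h12 : e1 ≠ e2)
    (h13 : e1 ≠ e3) (h23 : e2 ≠ e3)
    (h : ∀ y : ι → F, T2 P (eps e1 - eps e2) (eps e1 - eps e3) y = 0) :
    (Fam P e1 ∧ Fam P e2 ∧ Fam P e3) ∨
      (Fam (fun i => ¬ P i) e1 ∧ Fam (fun i => ¬ P i) e2 ∧ Fam (fun i => ¬ P i) e3) := by
  -- two vertices of different families are impossible
  have key : ∀ i j, P i → ¬ P j → ∀ e e', (e = e1 ∨ e = e2 ∨ e = e3) →
      (e' = e1 ∨ e' = e2 ∨ e' = e3) → e = some i → e' = some j → False := by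
    intro i j hi hj e e' he he' hei hej
    have hij : i ≠ j := by rintro rfl; exact hj hi
    have p := T2_pair P h hi hj
    have hee : e ≠ e' := by rw [hei, hej]; simpa using hij
    simp only [Pi.sub_apply, eps] at p
    rcases he with rfl | rfl | rfl <;> rcases he' with rfl | rfl | rfl
    · exact hee rfl
    · have g1 : e3 ≠ some i := by rw [← hei]; exact h13.symm
      have g2 : e3 ≠ some j := by rw [← hej]; exact h23.symm
      simp [hei, hej, hij, Ne.symm hij, g1, g2] at p
    · have g1 : e2 ≠ some i := by rw [← hei]; exact h12.symm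
      have g2 : e2 ≠ some j := by rw [← hej]; exact h23
      simp [hei, hej, hij, Ne.symm hij, g1, g2] at p
    · have g1 : e3 ≠ some i := by rw [← hei]; exact h23.symm
      have g2 : e3 ≠ some j := by rw [← hej]; exact h13.symm
      simp [hei, hej, hij, Ne.symm hij, g1, g2] at p
    · exact hee rfl
    · have g1 : e1 ≠ some i := by rw [← hei]; exact h12
      have g2 : e1 ≠ some j := by rw [← hej]; exact h13
      simp [hei, hej, hij, Ne.symm hij, g1, g2] at p
    · have g1 : e2 ≠ some i := by rw [← hei]; exact h23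
      have g2 : e2 ≠ some j := by rw [← hej]; exact h12.symm
      simp [hei, hej, hij, Ne.symm hij, g1, g2] at p
    · have g1 : e1 ≠ some i := by rw [← hei]; exact h13
      have g2 : e1 ≠ some j := by rw [← hej]; exact h12
      simp [hei, hej, hij, Ne.symm hij, g1, g2] at p
    · exact hee rfl
  by_cases hex : ∃ i, P i ∧ (e1 = some i ∨ e2 = some i ∨ e3 = some i)
  · left
    obtain ⟨i, hi, hi2⟩ := hex
    have all : ∀ e, (e = e1 ∨ e = e2 ∨ e = e3) → Fam P e := by
      intro e he j hj
      by_contra hPj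
      rcases hi2 with h1 | h1 | h1
      · exact key i j hi hPj e1 e (Or.inl rfl) he h1 hj
      · exact key i j hi hPj e2 e (Or.inr (Or.inl rfl)) he h1 hj
      · exact key i j hi hPj e3 e (Or.inr (Or.inr rfl)) he h1 hj
    exact ⟨all e1 (Or.inl rfl), all e2 (Or.inr (Or.inl rfl)), all e3 (Or.inr (Or.inr rfl))⟩
  · right
    push Not at hex
    refine ⟨fun i hi hP => (hex i hP).1 hi, fun i hi hP => (hex i hP).2.1 hi,
      fun i hi hP => (hex i hP).2.2 hi⟩

omit [Fintype ι] in
theorem eps_inj {e e' : Option ι} (h : (eps e : ι → F) = eps e') : e = e' := by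
  rcases e with _ | i <;> rcases e' with _ | j
  · rfl
  · have := congrFun h j
    simp [eps] at this
  · have := congrFun h i
    simp [eps] at this
  · have := congrFun h i
    by_cases hij : j = i
    · rw [hij]
    · simp [eps, hij] at this

omit [Fintype ι] in
/-- a difference of two distinct vertices determines the vertices -/
theorem eps_diff (h2 : (2 : F) ≠ 0) {e1 e2 f1 f2 : Option ι} (hne : e1 ≠ e2)
    (h : (eps e1 - eps e2 : ι → F) = eps f1 - eps f2) : e1 = f1 ∧ e2 = f2 := by
  have h10 : (1 : F) ≠ 0 := one_ne_zero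
  have hm : (-1 : F) ≠ 1 := by
    intro h3
    apply h2
    linear_combination -h3
  -- coordinates where the value is `1` resp. `-1`
  have c1 : ∀ i, e1 = some i ↔ f1 = some i ∧ f2 ≠ some i := by
    intro i
    have hi := congrFun h i
    simp only [Pi.sub_apply, eps] at hi
    constructor
    · intro h3
      have h4 : e2 ≠ some i := by rw [← h3]; exact hne.symm
      rw [if_pos h3, if_neg h4] at hi
      by_cases h5 : f1 = some i
      · refine ⟨h5, fun h6 => ?_⟩
        rw [if_pos h5, if_pos h6] at hi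
        simp at hi
      · rw [if_neg h5] at hi
        by_cases h6 : f2 = some i
        · rw [if_pos h6] at hi
          exfalso; apply hm; linear_combination -hi
        · rw [if_neg h6] at hi
          simp at hi
    · rintro ⟨h5, h6⟩
      rw [if_pos h5, if_neg h6] at hi
      by_cases h3 : e1 = some i
      · exact h3
      · rw [if_neg h3] at hi
        by_cases h4 : e2 = some i
        · rw [if_pos h4] at hi
          exfalso; apply hm; linear_combination hi
        · rw [if_neg h4] at hi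
          simp at hi
  have c2 : ∀ i, e2 = some i ↔ f2 = some i ∧ f1 ≠ some i := by
    intro i
    have hi := congrFun h i
    simp only [Pi.sub_apply, eps] at hi
    constructor
    · intro h3
      have h4 : e1 ≠ some i := by rw [← h3]; exact hne
      rw [if_pos h3, if_neg h4] at hi
      by_cases h5 : f2 = some i
      · refine ⟨h5, fun h6 => ?_⟩
        rw [if_pos h5, if_pos h6] at hi
        simp at hi
      · rw [if_neg h5] at hi
        by_cases h6 : f1 = some i
        · rw [if_pos h6] at hi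
          exfalso; apply hm; linear_combination hi
        · rw [if_neg h6] at hi
          simp at hi
    · rintro ⟨h5, h6⟩
      rw [if_pos h5, if_neg h6] at hi
      by_cases h3 : e2 = some i
      · exact h3
      · rw [if_neg h3] at hi
        by_cases h4 : e1 = some i
        · rw [if_pos h4] at hi
          exfalso; apply hm; linear_combination -hi
        · rw [if_neg h4] at hi
          simp at hi
  have hf : f1 ≠ f2 := by
    rintro rfl
    rcases e1 with _ | i
    · rcases e2 with _ | j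
      · exact hne rfl
      · exact ((c2 j).1 rfl).2 ((c2 j).1 rfl).1
    · exact ((c1 i).1 rfl).2 ((c1 i).1 rfl).1
  constructor
  · rcases f1 with _ | i
    · rcases e1 with _ | j
      · rfl
      · have := ((c1 j).1 rfl).1
        exact this.symm
    · exact (c1 i).2 ⟨rfl, hf.symm⟩
  · rcases f2 with _ | i
    · rcases e2 with _ | j
      · rfl
      · have := ((c2 j).1 rfl).1
        exact this.symm
    · exact (c2 i).2 ⟨rfl, hf⟩

section field

variable {K : Type*} [Field K] [Algebra F K]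

/-- coefficients in the big field -/
def cst (K : Type*) [Field K] [Algebra F K] (b : ι → F) : ι → K := fun i => algebraMap F K (b i)

/-- the partial linear form -/
def UP (P : ι → Prop) [DecidablePred P] (b y : ι → K) : K := ∑ i with P i, b i * y i

/-- the left side of the equation -/
def FF (τ : K) (P : ι → Prop) [DecidablePred P] (v : ι → K) (c : ι → F) (s : K) : K :=
  Q (cst K c) v + 2 * τ * UP P (cst K c) v + s - U (cst K c) v ^ 2

/-- value of a vertex -/
def ve (v : ι → K) (e : Option ι) : K := e.elim 0 v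

omit [Fintype ι] [DecidableEq ι] in
theorem cst_sub (b c : ι → F) : cst K (b - c) = cst K b - cst K c := by
  funext i
  simp [cst]

omit [Fintype ι] [DecidableEq ι] in
theorem cst_add (b c : ι → F) : cst K (b + c) = cst K b + cst K c := by
  funext i
  simp [cst]

omit [DecidableEq ι] in
theorem UP_add (P : ι → Prop) [DecidablePred P] (b c y : ι → K) :
    UP P (b + c) y = UP P b y + UP P c y := by
  simp only [UP, Pi.add_apply, add_mul, Finset.sum_add_distrib]

omit [DecidableEq ι] in
theorem UP_sub (P : ι → Prop) [DecidablePred P] (b c y : ι → K) :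
    UP P (b - c) y = UP P b y - UP P c y := by
  simp only [UP, Pi.sub_apply, sub_mul, Finset.sum_sub_distrib]

theorem U_eps (v : ι → K) (e : Option ι) : U (cst K (eps e : ι → F)) v = ve v e := by
  rcases e with _ | i
  · simp [U, cst, ve]
  · simp only [U, cst, eps_some, ve, Option.elim]
    rw [Finset.sum_eq_single i]
    · simp
    · intro j _ hj
      simp [Ne.symm hj]
    · intro h
      exact absurd (Finset.mem_univ i) h

theorem Q_eps (v : ι → K) (e : Option ι) : Q (cst K (eps e : ι → F)) v = ve v e ^ 2 := by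
  rcases e with _ | i
  · simp [Q, cst, ve]
  · simp only [Q, cst, eps_some, ve, Option.elim]
    rw [Finset.sum_eq_single i]
    · simp
    · intro j _ hj
      simp [Ne.symm hj]
    · intro h
      exact absurd (Finset.mem_univ i) h

theorem UP_eps (P : ι → Prop) [DecidablePred P] (v : ι → K) (e : Option ι) (he : Fam P e) :
    UP P (cst K (eps e : ι → F)) v = ve v e := by
  rcases e with _ | i
  · simp [UP, cst, ve]
  · have hi : P i := he i rfl
    simp only [UP, cst, eps_some, ve, Option.elim]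
    rw [Finset.sum_eq_single i]
    · simp
    · intro j _ hj
      simp [Ne.symm hj]
    · intro h
      exact absurd (Finset.mem_filter.2 ⟨Finset.mem_univ i, hi⟩) h

theorem UP_eps' (P : ι → Prop) [DecidablePred P] (v : ι → K) (e : Option ι)
    (he : Fam (fun i => ¬ P i) e) : UP P (cst K (eps e : ι → F)) v = 0 := by
  rcases e with _ | i
  · simp [UP, cst]
  · have hi : ¬ P i := he i rfl
    simp only [UP, cst, eps_some]
    apply Finset.sum_eq_zero
    intro j hj
    have : i ≠ j := by
      rintro rfl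
      exact hi (Finset.mem_filter.1 hj).2
    simp [this]

/-- the relation between three solutions -/
theorem three {τ α β : K} {P : ι → Prop} [DecidablePred P] {v : ι → K} {c1 c2 c3 : ι → F}
    {s1 s2 s3 : K} (h1 : FF τ P v c1 s1 = α * U (cst K c1) v + β)
    (h2 : FF τ P v c2 s2 = α * U (cst K c2) v + β)
    (h3 : FF τ P v c3 s3 = α * U (cst K c3) v + β) :
    T3 (cst K (c1 - c2)) (cst K (c1 - c3)) v + 2 * τ * T2 P (cst K (c1 - c2)) (cst K (c1 - c3)) v +
      ((s1 - s2) * U (cst K (c1 - c3)) v - (s1 - s3) * U (cst K (c1 - c2)) v) = 0 := by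
  have e2 : ∀ b b' : ι → K, T2 P b b' v = UP P b v * U b' v - UP P b' v * U b v := fun _ _ => rfl
  rw [e2]
  simp only [T3, cst_sub, U_sub, Q_sub, UP_sub]
  simp only [FF] at h1 h2 h3
  generalize U (cst K c1) v = u1 at *
  generalize U (cst K c2) v = u2 at *
  generalize U (cst K c3) v = u3 at *
  generalize Q (cst K c1) v = q1 at *
  generalize Q (cst K c2) v = q2 at *
  generalize Q (cst K c3) v = q3 at *
  generalize UP P (cst K c1) v = p1 at *
  generalize UP P (cst K c2) v = p2 at *
  generalize UP P (cst K c3) v = p3 at *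
  linear_combination (u2 - u3) * h1 + (u3 - u1) * h2 + (u1 - u2) * h3

/-- the hypotheses of the rigidity lemma -/
structure Good (τ : K) (P : ι → Prop) [DecidablePred P] (v : ι → K) (Sig : AddSubgroup K)
    (F : Type*) [Field F] [Algebra F K] : Prop where
  two : (2 : F) ≠ 0
  indep : ∀ c : ι → F, U (cst K c) v = 0 → c = 0
  gen : ∀ (b b' : ι → F) (t t' : K), t ∈ Sig → t' ∈ Sig →
    T3 (cst K b) (cst K b') v + 2 * τ * T2 P (cst K b) (cst K b') v +
      (t * U (cst K b') v - t' * U (cst K b) v) = 0 →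
    (∀ y : ι → F, T3 b b' y = 0) ∧ (∀ y : ι → F, T2 P b b' y = 0) ∧
      t * U (cst K b') v - t' * U (cst K b) v = 0
  vert : ∀ (e1 e2 e3 : Option ι) (t t' : K), e1 ≠ e2 → e1 ≠ e3 → e2 ≠ e3 → t ∈ Sig → t' ∈ Sig →
    t * (ve v e1 - ve v e3) = t' * (ve v e1 - ve v e2) → t = 0 ∧ t' = 0

/-- solutions -/
def Sol (τ α β : K) (P : ι → Prop) [DecidablePred P] (v : ι → K) (Sig : AddSubgroup K)
    (c : ι → F) (s : K) : Prop :=
  s ∈ Sig ∧ FF τ P v c s = α * U (cst K c) v + β

theorem Sol.eq_s {τ α β : K} {P : ι → Prop} [DecidablePred P] {v : ι → K} {Sig : AddSubgroup K}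
    {c : ι → F} {s s' : K} (h : Sol τ α β P v Sig c s) (h' : Sol τ α β P v Sig c s') : s = s' := by
  have h1 := h.2
  have h2 := h'.2
  simp only [FF] at h1 h2
  linear_combination h1 - h2

/-- three solutions span a simplex -/
theorem Good.simplex {τ α β : K} {P : ι → Prop} [DecidablePred P] {v : ι → K}
    {Sig : AddSubgroup K} (G : Good τ P v Sig F) {c1 c2 c3 : ι → F} {s1 s2 s3 : K}
    (h1 : Sol τ α β P v Sig c1 s1) (h2 : Sol τ α β P v Sig c2 s2) (h3 : Sol τ α β P v Sig c3 s3)
    (h12 : c1 ≠ c2) (h13 : c1 ≠ c3) (h23 : c2 ≠ c3) :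
    s1 = s2 ∧ s1 = s3 ∧ ∃ e1 e2 e3 : Option ι, e1 ≠ e2 ∧ e1 ≠ e3 ∧ e2 ≠ e3 ∧
      c1 - c2 = eps e1 - eps e2 ∧ c1 - c3 = eps e1 - eps e3 ∧
      ((Fam P e1 ∧ Fam P e2 ∧ Fam P e3) ∨
      (Fam (fun i => ¬ P i) e1 ∧ Fam (fun i => ¬ P i) e2 ∧ Fam (fun i => ¬ P i) e3)) := by
  obtain ⟨g1, g2, g3⟩ := G.gen (c1 - c2) (c1 - c3) (s1 - s2) (s1 - s3) (Sig.sub_mem h1.1 h2.1)
    (Sig.sub_mem h1.1 h3.1) (three h1.2 h2.2 h3.2)
  obtain ⟨e1, e2, e3, k1, k2, k3, k4, k5⟩ := rigA G.two g1 (sub_ne_zero.2 h12) (sub_ne_zero.2 h13)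
    (by
      intro h
      apply h23
      have : c2 - c3 = (c1 - c3) - (c1 - c2) := by abel
      rw [← h, sub_self, sub_eq_zero] at this
      exact this)
  rw [k4, k5] at g2 g3
  have hB := rigB P k1 k2 k3 g2
  rw [cst_sub, cst_sub, U_sub, U_sub, U_eps, U_eps, U_eps] at g3
  obtain ⟨t1, t2⟩ := G.vert e1 e2 e3 (s1 - s2) (s1 - s3) k1 k2 k3 (Sig.sub_mem h1.1 h2.1)
    (Sig.sub_mem h1.1 h3.1) (sub_eq_zero.1 g3)
  exact ⟨sub_eq_zero.1 t1, sub_eq_zero.1 t2, e1, e2, e3, k1, k2, k3, k4, k5, hB⟩

theorem Good.ve_ne {τ : K} {P : ι → Prop} [DecidablePred P] {v : ι → K}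
    {Sig : AddSubgroup K} (G : Good τ P v Sig F) {e1 e2 : Option ι} (h : e1 ≠ e2) :
    ve v e1 ≠ ve v e2 := by
  intro h1
  have h2 : U (cst K (eps e1 - eps e2 : ι → F)) v = 0 := by
    rw [cst_sub, U_sub, U_eps, U_eps, h1, sub_self]
  have h3 := G.indep _ h2
  exact h (eps_inj (sub_eq_zero.1 h3))

/-- **[RIG-C]** the rigidity lemma -/
theorem Good.rigid {τ α β : K} {P : ι → Prop} [DecidablePred P] {v : ι → K}
    {Sig : AddSubgroup K} (G : Good τ P v Sig F) {c1 c2 c3 : ι → F} {s1 s2 s3 : K}
    (h1 : Sol τ α β P v Sig c1 s1) (h2 : Sol τ α β P v Sig c2 s2) (h3 : Sol τ α β P v Sig c3 s3)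
    (h12 : c1 ≠ c2) (h13 : c1 ≠ c3) (h23 : c2 ≠ c3) :
    ∃ (a : ι → F) (s0 : K), s0 ∈ Sig ∧
      ((α = -2 * U (cst K a) v ∧
          β = Q (cst K a) v + 2 * τ * UP P (cst K a) v + s0 + U (cst K a) v ^ 2 ∧
          ∀ (c : ι → F) (s : K), Sol τ α β P v Sig c s →
            s = s0 ∧ ∃ e, Fam (fun i => ¬ P i) e ∧ c = a + eps e) ∨
        (α = 2 * τ - 2 * U (cst K a) v ∧
          β = Q (cst K a) v + 2 * τ * UP P (cst K a) v + s0 + U (cst K a) v ^ 2 -
            2 * τ * U (cst K a) v ∧
          ∀ (c : ι → F) (s : K), Sol τ α β P v Sig c s →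
            s = s0 ∧ ∃ e, Fam P e ∧ c = a + eps e)) := by
  obtain ⟨r1, r2, e1, e2, e3, k1, k2, k3, k4, k5, k6⟩ := G.simplex h1 h2 h3 h12 h13 h23
  obtain ⟨a, ha⟩ : ∃ a : ι → F, a = c1 - eps e1 := ⟨_, rfl⟩
  have hc1 : c1 = a + eps e1 := by rw [ha]; abel
  have hc2 : c2 = a + eps e2 := by
    rw [ha]
    have : c2 = c1 - (c1 - c2) := by abel
    rw [this, k4]
    abel
  -- all solutions
  have all : ∀ (c : ι → F) (s : K), Sol τ α β P v Sig c s → s = s1 ∧
      ∃ e, c = a + eps e ∧ (e = e1 ∨ e = e2 ∨ ((Fam P e1 ∧ Fam P e2 ∧ Fam P e) ∨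
        (Fam (fun i => ¬ P i) e1 ∧ Fam (fun i => ¬ P i) e2 ∧ Fam (fun i => ¬ P i) e))) := by
    intro c s hs
    by_cases d1 : c1 = c
    · subst d1
      exact ⟨hs.eq_s h1, e1, hc1, Or.inl rfl⟩
    by_cases d2 : c2 = c
    · subst d2
      exact ⟨(hs.eq_s h2).trans r1.symm, e2, hc2, Or.inr (Or.inl rfl)⟩
    obtain ⟨m1, m2, f1, f2, f3, n1, n2, n3, n4, n5, n6⟩ := G.simplex h1 h2 hs h12 d1 d2
    obtain ⟨o1, o2⟩ := eps_diff G.two n1 (n4.symm.trans k4)
    subst o1 o2
    refine ⟨m2.symm, f3, ?_, Or.inr (Or.inr n6)⟩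
    have : c = c1 - (c1 - c) := by abel
    rw [this, n5, ha]
    abel
  have hne := G.ve_ne k1
  have u1 : U (cst K c1) v = U (cst K a) v + ve v e1 := by
    rw [hc1, cst_add, U_add, U_eps]
  have u2 : U (cst K c2) v = U (cst K a) v + ve v e2 := by
    rw [hc2, cst_add, U_add, U_eps]
  have q1 : Q (cst K c1) v = Q (cst K a) v + ve v e1 ^ 2 := by
    rw [hc1, cst_add, Q_add, Q_eps]
  have q2 : Q (cst K c2) v = Q (cst K a) v + ve v e2 ^ 2 := by
    rw [hc2, cst_add, Q_add, Q_eps]
  have e1' := h1.2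
  have e2' := h2.2
  rw [← r1] at e2'
  simp only [FF] at e1' e2'
  refine ⟨a, s1, h1.1, ?_⟩
  rcases k6 with ⟨p1, p2, p3⟩ | ⟨p1, p2, p3⟩
  · -- family `P`
    right
    have w1 : UP P (cst K c1) v = UP P (cst K a) v + ve v e1 := by
      rw [hc1, cst_add, UP_add, UP_eps P v e1 p1]
    have w2 : UP P (cst K c2) v = UP P (cst K a) v + ve v e2 := by
      rw [hc2, cst_add, UP_add, UP_eps P v e2 p2]
    rw [u1, q1, w1] at e1'
    rw [u2, q2, w2] at e2'
    have hα : α = 2 * τ - 2 * U (cst K a) v := by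
      have h4 : (α - (2 * τ - 2 * U (cst K a) v)) * (ve v e1 - ve v e2) = 0 := by
        linear_combination e2' - e1'
      exact sub_eq_zero.1 ((mul_eq_zero.1 h4).resolve_right (sub_ne_zero.2 hne))
    refine ⟨hα, ?_, ?_⟩
    · rw [hα] at e1'
      linear_combination -e1'
    · intro c s hs
      obtain ⟨m1, e, m2, m3⟩ := all c s hs
      refine ⟨m1, e, ?_, m2⟩
      rcases m3 with rfl | rfl | ⟨_, _, m4⟩ | ⟨m5, m6, _⟩
      · exact p1
      · exact p2
      · exact m4
      · exfalso
        rcases e1 with _ | i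
        · rcases e2 with _ | j
          · exact k1 rfl
          · exact m6 j rfl (p2 j rfl)
        · exact m5 i rfl (p1 i rfl)
  · left
    have w1 : UP P (cst K c1) v = UP P (cst K a) v := by
      rw [hc1, cst_add, UP_add, UP_eps' P v e1 p1, add_zero]
    have w2 : UP P (cst K c2) v = UP P (cst K a) v := by
      rw [hc2, cst_add, UP_add, UP_eps' P v e2 p2, add_zero]
    rw [u1, q1, w1] at e1'
    rw [u2, q2, w2] at e2'
    have hα : α = -2 * U (cst K a) v := by
      have h4 : (α - (-2 * U (cst K a) v)) * (ve v e1 - ve v e2) = 0 := by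
        linear_combination e2' - e1'
      exact sub_eq_zero.1 ((mul_eq_zero.1 h4).resolve_right (sub_ne_zero.2 hne))
    refine ⟨hα, ?_, ?_⟩
    · rw [hα] at e1'
      linear_combination -e1'
    · intro c s hs
      obtain ⟨m1, e, m2, m3⟩ := all c s hs
      refine ⟨m1, e, ?_, m2⟩
      rcases m3 with rfl | rfl | ⟨m5, m6, _⟩ | ⟨_, _, m4⟩
      · exact p1
      · exact p2
      · exfalso
        rcases e1 with _ | i
        · rcases e2 with _ | j
          · exact k1 rfl
          · exact p2 j rfl (m6 j rfl)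
        · exact p1 i rfl (m5 i rfl)
      · exact m4

end field

end Vale.Agent.P045.Rig
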