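import Mathlib

/-!
P045 [VERT]: the vertical part of the design.
Labels = planes through a fixed line `U = F_p u` of `K` containing none of the reserved vectors,
and a bounded number of lines.
-/

namespace Vale.Agent.P045.Vert

open Module

variable {p : ℕ} [Fact p.Prime] {K : Type*} [Field K] [Algebra (ZMod p) K]

/-- the reserved points: nonzero multiples of the `w i` -/
def Res (p : ℕ) {K : Type*} [Field K] [Algebra (ZMod p) K] {M : ℕ} (w : Fin M → K) : Set K :=
  {z | ∃ (i : Fin M) (c : ZMod p), c ≠ 0 ∧ z = c • w i}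

/-- a linearly independent family of `M + 1` vectors in `K` -/
theorem exists_indep [Fintype K] {h M : ℕ} (hK : Fintype.card K = p ^ h) (hM : M + 1 ≤ h) :
    ∃ b : Fin (M + 1) → K, LinearIndependent (ZMod p) b := by
  have hfr : finrank (ZMod p) K = h := by
    have h1 := Module.card_eq_pow_finrank (K := ZMod p) (V := K)
    rw [hK, ZMod.card] at h1
    exact (Nat.pow_right_injective (Fact.out : p.Prime).two_le h1).symm
  let b := Module.finBasis (ZMod p) K
  have hle : M + 1 ≤ finrank (ZMod p) K := by omega
  refine ⟨fun i => b (Fin.castLE hle i), ?_⟩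
  exact b.linearIndependent.comp _ (Fin.castLE_injective hle)

/-- two-dimensional labels -/
def plane (p : ℕ) {K : Type*} [Field K] [Algebra (ZMod p) K] (u v : K) : Submodule (ZMod p) K :=
  Submodule.span (ZMod p) {v, u}

theorem mem_plane {u v y : K} : y ∈ plane p u v ↔ ∃ a b : ZMod p, a • v + b • u = y := by
  unfold plane
  rw [Submodule.mem_span_pair]

theorem card_plane_le (u v : K) : Nat.card (plane p u v) ≤ p ^ 2 := by
  have hs : (plane p u v : Set K) ⊆ Set.range (fun ab : ZMod p × ZMod p => ab.1 • v + ab.2 • u) := by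
    intro y hy
    obtain ⟨a, b, h⟩ := mem_plane.1 hy
    exact ⟨(a, b), h⟩
  have h1 : Nat.card (plane p u v) ≤ Nat.card (ZMod p × ZMod p) := by
    have : Nat.card (plane p u v) = (plane p u v : Set K).ncard := rfl
    rw [this]
    refine (Set.ncard_le_ncard hs (Set.finite_range _)).trans ?_
    rw [← Set.image_univ]
    refine (Set.ncard_image_le Set.finite_univ).trans ?_
    rw [Set.ncard_univ]
  simpa [Nat.card_prod, Nat.card_zmod, sq] using h1

/-- a plane through `u` (`v ∉ F_p u`) is determined by any of its elements outside `F_p u` -/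
theorem plane_eq {u v y : K} (hy : y ∈ plane p u v) (hyu : y ∉ Submodule.span (ZMod p) {u}) :
    plane p u y = plane p u v := by
  obtain ⟨a, b, h⟩ := mem_plane.1 hy
  have ha : a ≠ 0 := by
    rintro rfl
    apply hyu
    rw [Submodule.mem_span_singleton]
    exact ⟨b, by rw [← h]; simp⟩
  apply le_antisymm
  · intro z hz
    obtain ⟨c, d, h'⟩ := mem_plane.1 hz
    rw [mem_plane]
    refine ⟨c * a, c * b + d, ?_⟩
    rw [← h', ← h]
    module
  · intro z hz
    obtain ⟨c, d, h'⟩ := mem_plane.1 hz
    rw [mem_plane]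
    refine ⟨c * a⁻¹, d - c * a⁻¹ * b, ?_⟩
    rw [← h', ← h]
    have : a⁻¹ * a = 1 := inv_mul_cancel₀ ha
    have h2 : (c * a⁻¹) • (a • v + b • u) + (d - c * a⁻¹ * b) • u =
        (c * (a⁻¹ * a)) • v + d • u := by module
    rw [h2, this, mul_one]


theorem plane_not_mem_ncard {u v : K} (hv : v ∉ Submodule.span (ZMod p) {u}) [Fintype K]
    [DecidableEq K] (P : K → Prop) [DecidablePred P]
    (hP : ∀ y, P y ↔ y ∈ plane p u v ∧ y ∉ Submodule.span (ZMod p) {u}) (hu : u ≠ 0) :
    p ^ 2 - p ≤ (Finset.univ.filter P).card := by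
  have hvu : ∀ a b : ZMod p, a • v + b • u = 0 → a = 0 ∧ b = 0 := by
    intro a b h
    have ha : a = 0 := by
      by_contra ha
      apply hv
      rw [Submodule.mem_span_singleton]
      refine ⟨-(a⁻¹ * b), ?_⟩
      have : a⁻¹ • (a • v + b • u) = 0 := by rw [h, smul_zero]
      have h2 : a⁻¹ • (a • v + b • u) = (a⁻¹ * a) • v + (a⁻¹ * b) • u := by module
      rw [h2, inv_mul_cancel₀ ha, one_smul] at this
      rw [neg_smul]
      exact (eq_neg_of_add_eq_zero_left this).symm
    refine ⟨ha, ?_⟩
    rw [ha, zero_smul, zero_add] at h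
    exact (smul_eq_zero.1 h).resolve_right hu
  classical
  have hcard : ((Finset.univ : Finset (ZMod p)).filter (fun a => a ≠ 0) ×ˢ
      (Finset.univ : Finset (ZMod p))).card = p ^ 2 - p := by
    rw [Finset.card_product, Finset.filter_ne', Finset.card_erase_of_mem (Finset.mem_univ _),
      Finset.card_univ, ZMod.card, Nat.sub_mul]
    ring_nf
  rw [← hcard]
  apply Finset.card_le_card_of_injOn (fun ab : ZMod p × ZMod p => ab.1 • v + ab.2 • u)
  · rintro ⟨a, b⟩ hab
    have hab' : a ≠ 0 := by simpa using hab
    have : P (a • v + b • u) := by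
      rw [hP]
      refine ⟨mem_plane.2 ⟨a, b, rfl⟩, ?_⟩
      intro hmem
      obtain ⟨c, hc⟩ := Submodule.mem_span_singleton.1 hmem
      have := hvu a (b - c) (by
        have : a • v + (b - c) • u = (a • v + b • u) - c • u := by module
        rw [this, hc, sub_self])
      exact hab' this.1
    simpa using this
  · rintro ⟨a, b⟩ - ⟨a', b'⟩ - h
    simp only at h
    have := hvu (a - a') (b - b') (by
      have h2 : (a - a') • v + (b - b') • u = (a • v + b • u) - (a' • v + b' • u) := by module
      rw [h2, h, sub_self])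
    simp only [Prod.mk.injEq]
    exact ⟨sub_eq_zero.1 this.1, sub_eq_zero.1 this.2⟩

/-- the vertical part of the design -/
theorem vert [Fintype K] {h M : ℕ} (hK : Fintype.card K = p ^ h) (hM : M + 1 ≤ h) :
    ∃ (w : Fin M → K) (L : Finset (AddSubgroup K)),
      LinearIndependent (ZMod p) w ∧
      (∀ S ∈ L, Nat.card S ≤ p ^ 2) ∧
      (∀ S ∈ L, ∀ z ∈ Res p w, z ∉ S) ∧
      (∀ S ∈ L, ∀ y : K, {z | z ∈ Res p w ∧ z - y ∈ S}.ncard ≤ 2) ∧
      (∀ y : K, y ≠ 0 → (∃ S ∈ L, y ∈ S) ∨ y ∈ Res p w) ∧
      L.card * (p ^ 2 - p) ≤ p ^ h + (M * p + 1) * p ^ 2 := by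
  classical
  obtain ⟨b, hb⟩ := exists_indep (p := p) hK hM
  set u : K := b 0 with hu
  set w : Fin M → K := fun i => b i.succ with hw
  have hu0 : u ≠ 0 := hb.ne_zero 0
  -- linear relations
  have hrel : ∀ (c : ZMod p) (f : Fin M → ZMod p), c • u + ∑ i, f i • w i = 0 →
      c = 0 ∧ ∀ i, f i = 0 := by
    intro c f hcf
    have := Fintype.linearIndependent_iff.1 hb (Fin.cons c f) (by
      rw [Fin.sum_univ_succ]
      simpa using hcf)
    exact ⟨by simpa using this 0, fun i => by simpa using this i.succ⟩
  have hwLI : LinearIndependent (ZMod p) w := hb.comp _ (Fin.succ_injective M)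
  -- relation with three reserved vectors
  have hrel3 : ∀ (c c1 c2 c3 : ZMod p) (i1 i2 i3 : Fin M), i1 ≠ i2 → i1 ≠ i3 → i2 ≠ i3 →
      c • u + c1 • w i1 + c2 • w i2 + c3 • w i3 = 0 → c = 0 ∧ c1 = 0 ∧ c2 = 0 ∧ c3 = 0 := by
    intro c c1 c2 c3 i1 i2 i3 h12 h13 h23 h0
    have := hrel c (Pi.single i1 c1 + Pi.single i2 c2 + Pi.single i3 c3) (by
      have hs : ∀ (i : Fin M) (c : ZMod p), ∑ k, (Pi.single i c : Fin M → ZMod p) k • w k = c • w i := by
        intro i c
        rw [Finset.sum_eq_single i]
        · simp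
        · intro j _ hj
          rw [Pi.single_eq_of_ne hj, zero_smul]
        · simp
      simp only [Pi.add_apply, add_smul, Finset.sum_add_distrib, hs]
      rw [← h0]
      abel)
    obtain ⟨h1, h2⟩ := this
    have e1 := h2 i1
    have e2 := h2 i2
    have e3 := h2 i3
    simp only [Pi.add_apply, Pi.single_eq_same, Pi.single_eq_of_ne h12, Pi.single_eq_of_ne h13,
      Pi.single_eq_of_ne h12.symm, Pi.single_eq_of_ne h13.symm, Pi.single_eq_of_ne h23,
      Pi.single_eq_of_ne h23.symm, add_zero, zero_add] at e1 e2 e3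
    exact ⟨h1, e1, e2, e3⟩
  have hrel2 : ∀ (c c1 c2 : ZMod p) (i1 i2 : Fin M), i1 ≠ i2 →
      c • u + c1 • w i1 + c2 • w i2 = 0 → c = 0 ∧ c1 = 0 ∧ c2 = 0 := by
    intro c c1 c2 i1 i2 h12 h0
    have := hrel c (Pi.single i1 c1 + Pi.single i2 c2) (by
      have hs : ∀ (i : Fin M) (c : ZMod p), ∑ k, (Pi.single i c : Fin M → ZMod p) k • w k = c • w i := by
        intro i c
        rw [Finset.sum_eq_single i]
        · simp
        · intro j _ hj
          rw [Pi.single_eq_of_ne hj, zero_smul]
        · simp
      simp only [Pi.add_apply, add_smul, Finset.sum_add_distrib, hs]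
      rw [← h0]
      abel)
    obtain ⟨h1, h2⟩ := this
    have e1 := h2 i1
    have e2 := h2 i2
    simp only [Pi.add_apply, Pi.single_eq_same, Pi.single_eq_of_ne h12,
      Pi.single_eq_of_ne h12.symm, add_zero, zero_add] at e1 e2
    exact ⟨h1, e1, e2⟩
  have hrel1 : ∀ (c c1 : ZMod p) (i1 : Fin M), c • u + c1 • w i1 = 0 → c = 0 ∧ c1 = 0 := by
    intro c c1 i1 h0
    have := hrel c (Pi.single i1 c1) (by
      have hs : ∀ (i : Fin M) (c : ZMod p), ∑ k, (Pi.single i c : Fin M → ZMod p) k • w k = c • w i := by
        intro i c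
        rw [Finset.sum_eq_single i]
        · simp
        · intro j _ hj
          rw [Pi.single_eq_of_ne hj, zero_smul]
        · simp
      rw [hs, h0])
    obtain ⟨h1, h2⟩ := this
    have e1 := h2 i1
    simp only [Pi.single_eq_same] at e1
    exact ⟨h1, e1⟩
  -- the labels
  let V2 : Finset K := Finset.univ.filter
    (fun v => v ∉ Submodule.span (ZMod p) {u} ∧ ∀ i, w i ∉ plane p u v)
  let L2 : Finset (Submodule (ZMod p) K) := V2.image (fun v => plane p u v)
  let L1 : Finset (Submodule (ZMod p) K) :=
    (Finset.univ : Finset (Fin M × ZMod p)).image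
      (fun ic => if ic.2 = 0 then Submodule.span (ZMod p) {u}
        else Submodule.span (ZMod p) {w ic.1 + ic.2 • u})
  let L0 : Finset (Submodule (ZMod p) K) := {Submodule.span (ZMod p) {u}}
  let L' : Finset (Submodule (ZMod p) K) := L2 ∪ (L1 ∪ L0)
  -- structure of the labels
  have hL' : ∀ S ∈ L', (∃ v, v ∉ Submodule.span (ZMod p) {u} ∧ (∀ i, w i ∉ plane p u v) ∧
      S = plane p u v) ∨ (∃ i, ∃ c : ZMod p, c ≠ 0 ∧ S = Submodule.span (ZMod p) {w i + c • u}) ∨
      S = Submodule.span (ZMod p) {u} := by
    intro S hS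
    rcases Finset.mem_union.1 hS with h2 | h2
    · obtain ⟨v, hv, rfl⟩ := Finset.mem_image.1 h2
      obtain ⟨-, h3, h4⟩ := Finset.mem_filter.1 hv
      exact Or.inl ⟨v, h3, h4, rfl⟩
    · rcases Finset.mem_union.1 h2 with h3 | h3
      · obtain ⟨⟨i, c⟩, -, rfl⟩ := Finset.mem_image.1 h3
        by_cases hc : c = 0
        · right; right; simp [hc]
        · right; left; exact ⟨i, c, hc, by simp [hc]⟩
      · right; right; exact Finset.mem_singleton.1 h3
  have hcard1 : ∀ x : K, Nat.card (Submodule.span (ZMod p) {x}) ≤ p ^ 2 := by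
    intro x
    refine le_trans ?_ (card_plane_le (p := p) (0 : K) x)
    have hle : Submodule.span (ZMod p) {x} ≤ plane p 0 x := by
      unfold plane
      apply Submodule.span_mono
      intro y hy
      exact Set.mem_insert_iff.2 (Or.inl hy)
    exact Set.ncard_le_ncard (s := (Submodule.span (ZMod p) {x} : Set K))
      (t := (plane p 0 x : Set K)) hle (Set.toFinite _)
  refine ⟨w, L'.image (fun S => S.toAddSubgroup), hwLI, ?_, ?_, ?_, ?_, ?_⟩
  · -- V1
    intro S hS
    obtain ⟨S', hS', rfl⟩ := Finset.mem_image.1 hS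
    have : Nat.card S' ≤ p ^ 2 := by
      rcases hL' S' hS' with ⟨v, -, -, rfl⟩ | ⟨i, c, -, rfl⟩ | rfl
      · exact card_plane_le u v
      · exact hcard1 _
      · exact hcard1 _
    exact this
  · -- V2
    intro S hS z hz
    obtain ⟨S', hS', rfl⟩ := Finset.mem_image.1 hS
    obtain ⟨k, c, hc, rfl⟩ := hz
    intro hmem
    have hmem' : w k ∈ S' := by
      have h1 : c • w k ∈ S' := hmem
      have h2 := S'.smul_mem c⁻¹ h1
      rwa [smul_smul, inv_mul_cancel₀ hc, one_smul] at h2
    rcases hL' S' hS' with ⟨v, -, hv, rfl⟩ | ⟨i, c', hc', rfl⟩ | rfl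
    · exact hv k hmem'
    · obtain ⟨a, ha⟩ := Submodule.mem_span_singleton.1 hmem'
      by_cases hik : i = k
      · subst hik
        have := hrel1 (a * c') (a - 1) i (by
          have : (a * c') • u + (a - 1) • w i = a • (w i + c' • u) - w i := by module
          rw [this, ha, sub_self])
        have ha0 : a = 0 := (mul_eq_zero.1 this.1).resolve_right hc'
        rw [ha0] at this
        simp at this
      · have := hrel2 (a * c') a (-1) i k hik (by
          have : (a * c') • u + a • w i + (-1 : ZMod p) • w k = a • (w i + c' • u) - w k := by module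
          rw [this, ha, sub_self])
        simp at this
    · obtain ⟨a, ha⟩ := Submodule.mem_span_singleton.1 hmem'
      have := hrel1 a (-1) k (by
        have : a • u + (-1 : ZMod p) • w k = a • u - w k := by module
        rw [this, ha, sub_self])
      simp at this
  · -- V3
    intro S hS y
    obtain ⟨S', hS', rfl⟩ := Finset.mem_image.1 hS
    by_contra hlt
    push Not at hlt
    rw [Set.two_lt_ncard_iff (Set.toFinite _)] at hlt
    obtain ⟨r1, r2, r3, ⟨⟨i1, c1, hc1, rfl⟩, h1⟩, ⟨⟨i2, c2, hc2, rfl⟩, h2⟩,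
      ⟨⟨i3, c3, hc3, rfl⟩, h3⟩, h12, h13, h23⟩ := hlt
    have m12 : c1 • w i1 - c2 • w i2 ∈ S' := by
      have : (c1 • w i1 - y) - (c2 • w i2 - y) ∈ S' := S'.sub_mem h1 h2
      simpa using this
    have m13 : c1 • w i1 - c3 • w i3 ∈ S' := by
      have : (c1 • w i1 - y) - (c3 • w i3 - y) ∈ S' := S'.sub_mem h1 h3
      simpa using this
    have m23 : c2 • w i2 - c3 • w i3 ∈ S' := by
      have : (c2 • w i2 - y) - (c3 • w i3 - y) ∈ S' := S'.sub_mem h2 h3
      simpa using this
    rcases hL' S' hS' with ⟨v, hvu, hv, rfl⟩ | ⟨i, c', hc', rfl⟩ | rfl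
    · -- plane
      have key : ∀ (c c' : ZMod p) (i i' : Fin M), c • w i ≠ c' • w i' →
          c • w i - c' • w i' ∈ plane p u v → i ≠ i' := by
        rintro c c' i i' hne hmem rfl
        have hcc : c - c' ≠ 0 := by
          intro h0
          apply hne
          rw [sub_eq_zero.1 h0]
        apply hv i
        have h5 : (c - c') • w i ∈ plane p u v := by rw [sub_smul]; exact hmem
        have h6 := (plane p u v).smul_mem (c - c')⁻¹ h5
        rwa [smul_smul, inv_mul_cancel₀ hcc, one_smul] at h6
      have n12 := key _ _ _ _ h12 m12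
      have n13 := key _ _ _ _ h13 m13
      have n23 := key _ _ _ _ h23 m23
      obtain ⟨a, b', e1⟩ := mem_plane.1 m12
      obtain ⟨a', b'', e2⟩ := mem_plane.1 m13
      have hr := hrel3 (a' * b' - a * b'') (-(a' * c1) + a * c1) (a' * c2) (-(a * c3)) i1 i2 i3
        n12 n13 n23 (by
          have : (a' * b' - a * b'') • u + (-(a' * c1) + a * c1) • w i1 + (a' * c2) • w i2 +
              (-(a * c3)) • w i3 = a' • ((a • v + b' • u) - (c1 • w i1 - c2 • w i2)) -
                a • ((a' • v + b'' • u) - (c1 • w i1 - c3 • w i3)) := by module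
          rw [this, e1, e2, sub_self, sub_self, smul_zero, smul_zero, sub_self])
      have ha' : a' = 0 := (mul_eq_zero.1 hr.2.2.1).resolve_right hc2
      have ha : a = 0 := (mul_eq_zero.1 (neg_eq_zero.1 hr.2.2.2)).resolve_right hc3
      rw [ha, zero_smul, zero_add] at e1
      have := hrel2 b' (-c1) c2 i1 i2 n12 (by
        have : b' • u + (-c1) • w i1 + c2 • w i2 = b' • u - (c1 • w i1 - c2 • w i2) := by module
        rw [this, e1, sub_self])
      exact hc1 (neg_eq_zero.1 this.2.1)
    · obtain ⟨a, ha⟩ := Submodule.mem_span_singleton.1 m12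
      -- coefficient of u is a * c'
      have : a = 0 := by
        have hr := hrel (a * c') (Pi.single i a - Pi.single i1 c1 + Pi.single i2 c2) (by
          have hs : ∀ (i : Fin M) (c : ZMod p),
              ∑ k, (Pi.single i c : Fin M → ZMod p) k • w k = c • w i := by
            intro i c
            rw [Finset.sum_eq_single i]
            · simp
            · intro j _ hj
              rw [Pi.single_eq_of_ne hj, zero_smul]
            · simp
          simp only [Pi.add_apply, Pi.sub_apply, add_smul, sub_smul, Finset.sum_add_distrib,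
            Finset.sum_sub_distrib, hs]
          have h7 : (a * c') • u + (a • w i - c1 • w i1 + c2 • w i2) =
            a • (w i + c' • u) - (c1 • w i1 - c2 • w i2) := by module
          rw [h7, ha, sub_self])
        exact (mul_eq_zero.1 hr.1).resolve_right hc'
      rw [this, zero_smul] at ha
      exact h12 (sub_eq_zero.1 ha.symm)
    · obtain ⟨a, ha⟩ := Submodule.mem_span_singleton.1 m12
      have : a = 0 := by
        have hr := hrel a (-Pi.single i1 c1 + Pi.single i2 c2) (by
          have hs : ∀ (i : Fin M) (c : ZMod p),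
              ∑ k, (Pi.single i c : Fin M → ZMod p) k • w k = c • w i := by
            intro i c
            rw [Finset.sum_eq_single i]
            · simp
            · intro j _ hj
              rw [Pi.single_eq_of_ne hj, zero_smul]
            · simp
          simp only [Pi.add_apply, Pi.neg_apply, add_smul, neg_smul, Finset.sum_add_distrib,
            Finset.sum_neg_distrib, hs]
          have h7 : a • u + (-(c1 • w i1) + c2 • w i2) =
            a • u - (c1 • w i1 - c2 • w i2) := by module
          rw [h7, ha, sub_self])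
        exact hr.1
      rw [this, zero_smul] at ha
      exact h12 (sub_eq_zero.1 ha.symm)
  · -- V4
    intro y hy
    by_cases hyu : y ∈ Submodule.span (ZMod p) {u}
    · left
      refine ⟨_, Finset.mem_image_of_mem _ (Finset.mem_union_right _ (Finset.mem_union_right _
        (Finset.mem_singleton_self _))), hyu⟩
    · by_cases hex : ∀ i, w i ∉ plane p u y
      · left
        refine ⟨_, Finset.mem_image_of_mem _ (Finset.mem_union_left _ (Finset.mem_image_of_mem _
          (Finset.mem_filter.2 ⟨Finset.mem_univ y, hyu, hex⟩))), ?_⟩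
        exact mem_plane.2 ⟨1, 0, by simp⟩
      · push Not at hex
        obtain ⟨i, hi⟩ := hex
        obtain ⟨a, b', e⟩ := mem_plane.1 hi
        have ha : a ≠ 0 := by
          rintro rfl
          have := hrel1 b' (-1) i (by
            rw [zero_smul, zero_add] at e
            rw [e, neg_smul, one_smul, add_neg_cancel])
          simp at this
        have hy2 : y = a⁻¹ • (w i + (-b') • u) := by
          have : a⁻¹ • (w i + (-b') • u) = a⁻¹ • ((a • y + b' • u) + (-b') • u) := by rw [e]
          rw [this]
          have h9 : a⁻¹ • ((a • y + b' • u) + (-b') • u) = (a⁻¹ * a) • y := by module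
          rw [h9, inv_mul_cancel₀ ha, one_smul]
        by_cases hb0 : b' = 0
        · right
          refine ⟨i, a⁻¹, inv_ne_zero ha, ?_⟩
          rw [hy2, hb0]
          simp
        · left
          refine ⟨_, Finset.mem_image_of_mem _ (Finset.mem_union_right _ (Finset.mem_union_left _
            (Finset.mem_image.2 ⟨(i, -b'), Finset.mem_univ _, rfl⟩))), ?_⟩
          have : y ∈ (if (-b' : ZMod p) = 0 then Submodule.span (ZMod p) {u}
            else Submodule.span (ZMod p) {w i + (-b') • u}) := by
            rw [if_neg (neg_ne_zero.2 hb0), Submodule.mem_span_singleton]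
            exact ⟨a⁻¹, hy2.symm⟩
          exact this
  · -- V5
    have hL2 : L2.card * (p ^ 2 - p) ≤ p ^ h := by
      have hdisj : ∀ S ∈ L2, ∀ S' ∈ L2, S ≠ S' →
          Disjoint (Finset.univ.filter (fun y : K => y ∈ S ∧ y ∉ Submodule.span (ZMod p) {u}))
            (Finset.univ.filter (fun y : K => y ∈ S' ∧ y ∉ Submodule.span (ZMod p) {u})) := by
        intro S hS S' hS' hne
        rw [Finset.disjoint_left]
        intro y hy hy'
        obtain ⟨v, -, rfl⟩ := Finset.mem_image.1 hS
        obtain ⟨v', -, rfl⟩ := Finset.mem_image.1 hS'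
        obtain ⟨-, h1, h2⟩ := Finset.mem_filter.1 hy
        obtain ⟨-, h3, -⟩ := Finset.mem_filter.1 hy'
        exact hne ((plane_eq h1 h2).symm.trans (plane_eq h3 h2))
      have hsz : ∀ S ∈ L2, p ^ 2 - p ≤
          (Finset.univ.filter (fun y : K => y ∈ S ∧ y ∉ Submodule.span (ZMod p) {u})).card := by
        intro S hS
        obtain ⟨v, hv, rfl⟩ := Finset.mem_image.1 hS
        obtain ⟨-, h3, -⟩ := Finset.mem_filter.1 hv
        exact plane_not_mem_ncard h3 _ (fun y => Iff.rfl) hu0
      calc L2.card * (p ^ 2 - p) = ∑ S ∈ L2, (p ^ 2 - p) := by simp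
        _ ≤ ∑ S ∈ L2, (Finset.univ.filter
            (fun y : K => y ∈ S ∧ y ∉ Submodule.span (ZMod p) {u})).card :=
          Finset.sum_le_sum hsz
        _ = (L2.biUnion (fun S => Finset.univ.filter
            (fun y : K => y ∈ S ∧ y ∉ Submodule.span (ZMod p) {u}))).card := by
          rw [Finset.card_biUnion]
          intro S hS S' hS' hne
          exact hdisj S hS S' hS' hne
        _ ≤ (Finset.univ : Finset K).card := Finset.card_le_univ _
        _ = p ^ h := by rw [Finset.card_univ, hK]
    have hL1 : L1.card ≤ M * p := by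
      refine Finset.card_image_le.trans ?_
      simp [ZMod.card]
    have hL : L'.card ≤ L2.card + (M * p + 1) := by
      refine (Finset.card_union_le _ _).trans ?_
      have := Finset.card_union_le L1 L0
      have h0 : L0.card = 1 := Finset.card_singleton _
      omega
    calc (L'.image (fun S => S.toAddSubgroup)).card * (p ^ 2 - p)
        ≤ (L2.card + (M * p + 1)) * (p ^ 2 - p) :=
          Nat.mul_le_mul_right _ (Finset.card_image_le.trans hL)
      _ = L2.card * (p ^ 2 - p) + (M * p + 1) * (p ^ 2 - p) := by ring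
      _ ≤ p ^ h + (M * p + 1) * p ^ 2 := by
          apply Nat.add_le_add hL2
          exact Nat.mul_le_mul_left _ (Nat.sub_le _ _)

end Vale.Agent.P045.Vert
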